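import Crest.Agent.R11.Defs

/-!
# Row 11: the arithmetic lower bound
-/

set_option autoImplicit false

open MvPolynomial

noncomputable section

namespace Crest.Agent.R11

/-- Gaussian integer polynomials in `X none` and `d j * X (some j)` -/
def Arith_hom {m : ℕ} (d : Fin m → ℕ) : MvPolynomial (Option (Fin m)) GaussianInt →+* Rg m :=
  eval₂Hom (C.comp GaussianInt.toComplex) fun o => o.elim (X none) fun j => C (d j : ℂ) * X (some j)

lemma Arith_coeff {m : ℕ} (d : Fin m → ℕ) (H : MvPolynomial (Option (Fin m)) GaussianInt)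
    (α : Option (Fin m) →₀ ℕ) : coeff α (Arith_hom d H) =
      (∏ j, (d j : ℂ) ^ α (some j)) * GaussianInt.toComplex (coeff α H) := by
  classical
  induction H using MvPolynomial.induction_on' with
  | monomial β g =>
    have h : Arith_hom d (monomial β g) =
        monomial β ((∏ j, (d j : ℂ) ^ β (some j)) * GaussianInt.toComplex g) := by
      rw [Arith_hom, eval₂Hom_monomial, monomial_eq, Finsupp.prod_fintype _ _ (by simp),
        Finsupp.prod_fintype _ _ (by simp), Fintype.prod_option, Fintype.prod_option]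
      simp only [Option.elim, mul_pow, Finset.prod_mul_distrib, map_mul, map_prod, map_pow,
        RingHom.comp_apply]
      ring
    rw [h, coeff_monomial, coeff_monomial]
    split_ifs with h'
    · rw [h']
    · simp
  | add p q hp hq => rw [map_add, coeff_add, hp, hq, coeff_add, map_add, mul_add]

lemma Arith_C_mem {m : ℕ} (d : Fin m → ℕ) (g : GaussianInt) :
    C (GaussianInt.toComplex g) ∈ (Arith_hom d).range :=
  ⟨C g, by simp [Arith_hom]⟩

lemma Arith_entry {m : ℕ} (k : ℕ) (col : Option (Fin m) →₀ ℕ) (p : Fin m → ℤ) (q : Fin m → ℕ)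
    (hq : ∀ j, 0 < q j) (τ : Fin m → ℕ) :
    C (∏ j, ((q j * Nat.lcmUpto (τ j) : ℕ) : ℂ) ^ col (some j)) *
      loc (fun j => (k : ℂ) * (2 * Complex.I * p j / q j)) τ (monomial col 1) ∈
      (Arith_hom fun j => q j * Nat.lcmUpto (τ j)).range := by
  set d : Fin m → ℕ := fun j => q j * Nat.lcmUpto (τ j) with hd
  have hX : (X none : Rg m) ∈ (Arith_hom d).range := ⟨X none, by simp [Arith_hom]⟩
  rw [loc, aeval_monomial, map_one, one_mul, Finsupp.prod_fintype _ _ (by simp),
    Fintype.prod_option, mul_left_comm, map_prod, ← Finset.prod_mul_distrib]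
  refine mul_mem (pow_mem (add_mem (one_mem _) hX) _) (prod_mem fun j _ => ?_)
  rw [map_pow, ← mul_pow]
  refine pow_mem ?_ _
  simp only [Option.elim]
  rw [mul_add, mul_add, ← map_mul]
  have hq' : (q j : ℂ) ≠ 0 := by exact_mod_cast (hq j).ne'
  refine add_mem (add_mem ?_ ⟨X (some j), by simp [Arith_hom, hd]⟩) ?_
  · have h : ((q j * Nat.lcmUpto (τ j) : ℕ) : ℂ) * ((k : ℂ) * (2 * Complex.I * p j / q j)) =
        GaussianInt.toComplex ⟨0, Nat.lcmUpto (τ j) * k * 2 * p j⟩ := by
      rw [GaussianInt.toComplex_def']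
      push_cast
      field_simp
      ring
    rw [h]
    exact Arith_C_mem d _
  · rw [Lp, map_sum, Finset.mul_sum]
    refine sum_mem fun t ht => ?_
    rw [map_mul, map_pow, Polynomial.aeval_C, Polynomial.aeval_X, algebraMap_eq, ← mul_assoc,
      ← map_mul]
    refine mul_mem ?_ (pow_mem hX _)
    rcases Nat.eq_zero_or_pos t with rfl | ht0
    · simp
    · obtain ⟨u, hu⟩ : t ∣ Nat.lcmUpto (τ j) := Finset.dvd_lcm (f := id)
        (Finset.mem_Icc.2 ⟨ht0, Nat.lt_succ_iff.1 (Finset.mem_range.1 ht)⟩)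
      have ht' : (t : ℂ) ≠ 0 := by exact_mod_cast ht0.ne'
      have h : ((q j * Nat.lcmUpto (τ j) : ℕ) : ℂ) * ((-1) ^ (t + 1) / (t : ℂ)) =
          GaussianInt.toComplex ((q j : GaussianInt) * u * (-1) ^ (t + 1)) := by
        rw [hu]
        simp only [map_mul, map_pow, map_neg, map_one, map_natCast]
        push_cast
        field_simp
      rw [h]
      exact Arith_C_mem d _

lemma Arith_one_le_norm {g : GaussianInt} (h : g ≠ 0) : 1 ≤ ‖GaussianInt.toComplex g‖ := by
  have h1 : (1 : ℝ) ≤ (g.norm : ℝ) := by exact_mod_cast GaussianInt.norm_pos.2 h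
  rw [GaussianInt.intCast_real_norm, Complex.normSq_eq_norm_sq] at h1
  exact (one_le_sq_iff_one_le_abs _).1 h1 |>.trans_eq (abs_norm _)

/-- Recipe: let `𝒪 = (GaussianInt.toComplex).range`, `d j = q j * lcmUpto (τ j)`.  For each entry,
`(∏ j, d j ^ col c (some j)) • loc _ τ (monomial (col c) 1) = S (map 𝒪.subtype H)` where
`H = (1 + X none)^b * ∏ j, (C (d j k x j) + X (some j) + d j L_j)^(a j)` has coefficients in `𝒪` and `S` is
the substitution `X (some j) ↦ C (d j) * X (some j)`, which multiplies the coefficient of `α` by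
`∏ j, d j ^ α (some j)`.  Pull the factors out of rows and columns (`Matrix.det_mul_column`,
`Matrix.det_mul_row`); the remaining determinant is a non-zero Gaussian integer, so has norm `≥ 1`. -/
theorem arith {m : ℕ} {ι : Type} [Fintype ι] [DecidableEq ι] (k : ι → ℕ)
    (α col : ι → (Option (Fin m) →₀ ℕ)) (p : Fin m → ℤ) (q : Fin m → ℕ) (hq : ∀ j, 0 < q j)
    (τ : Fin m → ℕ)
    (h : (Matrix.of fun i c => coeff (α i) (loc (fun j => (k i : ℂ) * (2 * Complex.I * p j / q j)) τ
      (monomial (col c) 1))).det ≠ 0) :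
    ∏ i, ∏ j, (q j : ℝ) ^ α i (some j) ≤
      ‖(Matrix.of fun i c => coeff (α i) (loc (fun j => (k i : ℂ) * (2 * Complex.I * p j / q j)) τ
        (monomial (col c) 1))).det‖ *
        ∏ c, ∏ j, ((q j : ℝ) * Nat.lcmUpto (τ j)) ^ col c (some j) := by
  set E : Matrix ι ι ℂ := Matrix.of fun i c => coeff (α i)
    (loc (fun j => (k i : ℂ) * (2 * Complex.I * p j / q j)) τ (monomial (col c) 1)) with hE
  set d : Fin m → ℕ := fun j => q j * Nat.lcmUpto (τ j) with hd
  choose H hH using fun i c => Arith_entry (k i) (col c) p q hq τ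
  set G : Matrix ι ι GaussianInt := Matrix.of fun i c => coeff (α i) (H i c) with hG
  have h1 : (Matrix.of fun i c => (∏ j, (d j : ℂ) ^ col c (some j)) * E i c) =
      Matrix.of fun i c => (∏ j, (d j : ℂ) ^ α i (some j)) *
        GaussianInt.toComplex.mapMatrix G i c := by
    ext i c
    have := congrArg (coeff (α i)) (hH i c)
    rw [Arith_coeff, coeff_C_mul] at this
    exact this.symm
  have h2 := congrArg Matrix.det h1
  rw [Matrix.det_mul_row, Matrix.det_mul_column, ← RingHom.map_det] at h2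
  have hd0 : ∀ j, 0 < d j := fun j => Nat.mul_pos (hq j) (Nat.lcmUpto_pos _)
  have hG0 : G.det ≠ 0 := by
    intro h0
    rw [h0, map_zero, mul_zero] at h2
    refine mul_ne_zero ?_ h h2
    exact Finset.prod_ne_zero_iff.2 fun c _ => Finset.prod_ne_zero_iff.2 fun j _ =>
      pow_ne_zero _ (by exact_mod_cast (hd0 j).ne')
  have h3 := congrArg norm h2
  simp only [norm_mul, norm_prod, norm_pow, Complex.norm_natCast] at h3
  have h4 : ∏ c, ∏ j, ((q j : ℝ) * Nat.lcmUpto (τ j)) ^ col c (some j) =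
      ∏ c, ∏ j, (d j : ℝ) ^ col c (some j) := by
    simp only [hd, Nat.cast_mul]
  rw [h4, mul_comm, h3]
  calc ∏ i, ∏ j, (q j : ℝ) ^ α i (some j) ≤ ∏ i, ∏ j, (d j : ℝ) ^ α i (some j) := by
        gcongr with i _ j _
        exact Nat.le_mul_of_pos_right _ (Nat.lcmUpto_pos _)
    _ ≤ _ := le_mul_of_one_le_right (by positivity) (Arith_one_le_norm hG0)

/-- `Chebyshev.psi_eq_log_lcmUpto`, `Chebyshev.psi_le_const_mul_self`, `log 4 ≤ 2` -/
lemma lcmUpto_le (n : ℕ) : (Nat.lcmUpto n : ℝ) ≤ Real.exp (6 * n) := by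
  have h0 : (0 : ℝ) < Nat.lcmUpto n := by exact_mod_cast Nat.lcmUpto_pos n
  rw [← Real.log_le_iff_le_exp h0, ← Chebyshev.psi_eq_log_lcmUpto]
  refine (Chebyshev.psi_le_const_mul_self (Nat.cast_nonneg n)).trans ?_
  have h1 : Real.log 4 ≤ 2 := by
    rw [show (4 : ℝ) = 2 ^ 2 by norm_num, Real.log_pow]
    have := Real.log_two_lt_d9
    push_cast
    linarith
  gcongr
  linarith

end Crest.Agent.R11
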