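import Crest.Agent.R11.Defs

/-!
# Row 11: Cauchy estimates for determinants of coefficients
-/

set_option autoImplicit false

open MvPolynomial

noncomputable section

namespace Crest.Agent.R11

lemma root_orth {G : ℕ} {ζ : ℂ} (hζ : IsPrimitiveRoot ζ G) (hG : 0 < G) {a b : ℕ} (ha : a < G)
    (hb : b < G) :
    ∑ t : Fin G, (ζ ^ (t : ℕ)) ^ a * ((ζ ^ (t : ℕ)) ^ b)⁻¹ = if a = b then (G : ℂ) else 0 := by
  have h0 : ζ ≠ 0 := hζ.ne_zero hG.ne'
  have e : ∀ t : Fin G, (ζ ^ (t : ℕ)) ^ a * ((ζ ^ (t : ℕ)) ^ b)⁻¹ =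
      (ζ ^ a * (ζ ^ b)⁻¹) ^ (t : ℕ) := by
    intro t
    rw [mul_pow, inv_pow, ← pow_mul, ← pow_mul, ← pow_mul, ← pow_mul, mul_comm a, mul_comm b]
  simp only [e]
  split_ifs with h
  · subst h
    simp [mul_inv_cancel₀ (pow_ne_zero a h0)]
  · have h1 : ζ ^ a * (ζ ^ b)⁻¹ ≠ 1 := by
      intro h1
      rw [mul_inv_eq_one₀ (pow_ne_zero b h0)] at h1
      exact h (hζ.pow_inj ha hb h1)
    have h2 : (ζ ^ a * (ζ ^ b)⁻¹) ^ G = 1 := by
      rw [mul_pow, inv_pow, ← pow_mul, ← pow_mul, mul_comm a, mul_comm b, pow_mul, pow_mul,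
        hζ.pow_eq_one]
      simp
    rw [Fin.sum_univ_eq_sum_range (fun t => (ζ ^ a * (ζ ^ b)⁻¹) ^ t) G, geom_sum_eq h1, h2]
    simp

/-- Cauchy's inequality on a torus.  Recipe: average over the points `z s = ρ s * ζ^(t s)`,
`t : σ → Fin G`, `ζ` a primitive `G`-th root of unity, `G` larger than all exponents of `g` and `α`:
`∑ t, eval (z t) g * ∏ s, ζ^(-(t s) (α s)) = G^card σ * coeff α g * ∏ ρ^α`
(`Finset.prod_univ_sum`, `IsPrimitiveRoot.geom_sum_eq_zero`/`pow_sum_eq_zero`), and some term is at least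
the average (`Finset.exists_le_of_sum_le`). -/
theorem exists_coeff_le {σ : Type} [Fintype σ] (g : MvPolynomial σ ℂ) (α : σ →₀ ℕ) {ρ : σ → ℝ}
    (hρ : ∀ s, 0 < ρ s) :
    ∃ z : σ → ℂ, (∀ s, ‖z s‖ = ρ s) ∧ ‖coeff α g‖ * ∏ s, ρ s ^ α s ≤ ‖eval z g‖ := by
  classical
  set G : ℕ := (g.support.sup fun β => ∑ s, β s) + ∑ s, α s + 1 with hGdef
  have hG : 0 < G := by omega
  have hα : ∀ s, α s < G := fun s => by
    have := Finset.single_le_sum (f := fun s => α s) (fun _ _ => Nat.zero_le _) (Finset.mem_univ s)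
    omega
  have hβ : ∀ β ∈ g.support, ∀ s, β s < G := fun β hβ s => by
    have h1 := Finset.single_le_sum (f := fun s => β s) (fun _ _ => Nat.zero_le _)
      (Finset.mem_univ s)
    have h2 := Finset.le_sup (f := fun β : σ →₀ ℕ => ∑ s, β s) hβ
    omega
  obtain ⟨ζ, hζ⟩ : ∃ ζ : ℂ, IsPrimitiveRoot ζ G := ⟨_, Complex.isPrimitiveRoot_exp G hG.ne'⟩
  have hn : ‖ζ‖ = 1 := hζ.norm'_eq_one hG.ne'
  let z : (σ → Fin G) → σ → ℂ := fun t s => ρ s * ζ ^ (t s : ℕ)
  have hz : ∀ t s, ‖z t s‖ = ρ s := fun t s => by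
    simp [z, hn, abs_of_pos (hρ s)]
  have key : ∑ t : σ → Fin G, eval (z t) g * ∏ s, ((ζ ^ (t s : ℕ)) ^ α s)⁻¹ =
      coeff α g * (∏ s, (ρ s : ℂ) ^ α s) * (G : ℂ) ^ Fintype.card σ := by
    have e1 : ∀ t : σ → Fin G, eval (z t) g * ∏ s, ((ζ ^ (t s : ℕ)) ^ α s)⁻¹ =
        ∑ β ∈ g.support, coeff β g * (∏ s, (ρ s : ℂ) ^ β s) *
          ∏ s, ((ζ ^ (t s : ℕ)) ^ β s * ((ζ ^ (t s : ℕ)) ^ α s)⁻¹) := by
      intro t
      rw [eval_eq', Finset.sum_mul]
      refine Finset.sum_congr rfl fun β _ => ?_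
      simp only [z, mul_pow, Finset.prod_mul_distrib]
      ring
    simp only [e1]
    rw [Finset.sum_comm]
    have e2 : ∀ β ∈ g.support, ∑ t : σ → Fin G, coeff β g * (∏ s, (ρ s : ℂ) ^ β s) *
          ∏ s, ((ζ ^ (t s : ℕ)) ^ β s * ((ζ ^ (t s : ℕ)) ^ α s)⁻¹) =
        if β = α then coeff α g * (∏ s, (ρ s : ℂ) ^ α s) * (G : ℂ) ^ Fintype.card σ else 0 := by
      intro β hb
      rw [← Finset.mul_sum, ← Fintype.piFinset_univ, ← Finset.prod_univ_sum (fun _ => Finset.univ)
        (fun s (u : Fin G) => (ζ ^ (u : ℕ)) ^ β s * ((ζ ^ (u : ℕ)) ^ α s)⁻¹)]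
      simp only [fun s => root_orth hζ hG (hβ β hb s) (hα s)]
      split_ifs with h
      · subst h; simp
      · obtain ⟨s, hs⟩ : ∃ s, β s ≠ α s := by
          by_contra hc
          push Not at hc
          exact h (Finsupp.ext hc)
        rw [Finset.prod_eq_zero (f := fun s => if β s = α s then (G : ℂ) else 0)
          (Finset.mem_univ s) (if_neg hs), mul_zero]
    rw [Finset.sum_congr rfl e2, Finset.sum_ite_eq']
    split_ifs with h
    · rfl
    · rw [notMem_support_iff.1 h]; simp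
  have hle : ∑ _t : σ → Fin G, ‖coeff α g‖ * ∏ s, ρ s ^ α s ≤
      ∑ t : σ → Fin G, ‖eval (z t) g‖ := by
    have h1 := norm_sum_le Finset.univ
      fun t : σ → Fin G => eval (z t) g * ∏ s, ((ζ ^ (t s : ℕ)) ^ α s)⁻¹
    rw [key] at h1
    simp only [norm_mul, norm_prod, norm_inv, norm_pow, hn, one_pow, inv_one, Finset.prod_const_one,
      mul_one, Complex.norm_real, Complex.norm_natCast, Real.norm_eq_abs,
      fun s => abs_of_pos (hρ s)] at h1
    refine le_trans (le_of_eq ?_) h1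
    simp [mul_comm]
  have : Nonempty (Fin G) := ⟨⟨0, hG⟩⟩
  obtain ⟨t, -, ht⟩ := Finset.exists_le_of_sum_le Finset.univ_nonempty hle
  exact ⟨z t, hz t, ht⟩

lemma det_updateRow_eq {ι : Type} [Fintype ι] [DecidableEq ι] (M : Matrix ι ι ℂ) (i : ι)
    (v : ι → ℂ) : (M.updateRow i v).det = ∑ c, (M.updateRow i (Pi.single c 1)).det * v c := by
  have h : ∀ w, (M.updateRow i w).det = Matrix.cramer M.transpose w i := fun w =>
    (Matrix.cramer_transpose_apply M w i).symm
  simp only [h]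
  conv_lhs => rw [← Finset.univ_sum_single v]
  rw [map_sum, Finset.sum_apply]
  refine Finset.sum_congr rfl fun c _ => ?_
  have : (Pi.single c (v c) : ι → ℂ) = v c • (Pi.single c 1 : ι → ℂ) := by
    rw [← Pi.single_smul', smul_eq_mul, mul_one]
  rw [this, map_smul, Pi.smul_apply, smul_eq_mul, mul_comm]

lemma det_row_le {σ ι : Type} [Fintype σ] [Fintype ι] [DecidableEq ι] (M : Matrix ι ι ℂ) (i : ι)
    (f : ι → MvPolynomial σ ℂ) (α : σ →₀ ℕ) {ρ : σ → ℝ} (hρ : ∀ s, 0 < ρ s) :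
    ∃ z : σ → ℂ, (∀ s, ‖z s‖ = ρ s) ∧
      ‖(M.updateRow i fun c => coeff α (f c)).det‖ * ∏ s, ρ s ^ α s ≤
        ‖(M.updateRow i fun c => eval z (f c)).det‖ := by
  obtain ⟨z, hz, h⟩ := exists_coeff_le
    (∑ c, C ((M.updateRow i (Pi.single c 1)).det) * f c) α hρ
  refine ⟨z, hz, ?_⟩
  rw [det_updateRow_eq M i fun c => coeff α (f c), det_updateRow_eq M i fun c => eval z (f c)]
  simpa only [coeff_sum, coeff_C_mul, map_sum, map_mul, eval_C] using h

/-- Recipe: induction over the finset of rows already replaced by evaluations; the determinant is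
linear in one row (`Matrix.det_eq_sum_mul_adjugate_row`, or `Matrix.updateRow` and `cramer`), so it is the
coefficient, resp. the value, of `∑ c, C (cofactor c) * f i c`. -/
theorem det_coeff_le {σ ι : Type} [Fintype σ] [Fintype ι] [DecidableEq ι]
    (f : ι → ι → MvPolynomial σ ℂ) (α : ι → σ →₀ ℕ) {ρ : σ → ℝ} (hρ : ∀ s, 0 < ρ s) :
    ∃ z : ι → σ → ℂ, (∀ i s, ‖z i s‖ = ρ s) ∧
      ‖(Matrix.of fun i c => coeff (α i) (f i c)).det‖ * ∏ i, ∏ s, ρ s ^ α i s ≤
        ‖(Matrix.of fun i c => eval (z i) (f i c)).det‖ := by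
  have main : ∀ S : Finset ι, ∃ z : ι → σ → ℂ, (∀ i s, ‖z i s‖ = ρ s) ∧
      ‖(Matrix.of fun i c => coeff (α i) (f i c)).det‖ * ∏ i ∈ S, ∏ s, ρ s ^ α i s ≤
        ‖(Matrix.of fun i c => if i ∈ S then eval (z i) (f i c) else coeff (α i) (f i c)).det‖ := by
    intro S
    induction S using Finset.induction_on with
    | empty => exact ⟨fun _ s => ρ s, fun _ s => by simp [abs_of_pos (hρ s)], by simp⟩
    | insert i S hi ih =>
      obtain ⟨z, hz, h⟩ := ih
      obtain ⟨w, hw, h'⟩ := det_row_le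
        (Matrix.of fun i c => if i ∈ S then eval (z i) (f i c) else coeff (α i) (f i c)) i (f i)
        (α i) hρ
      refine ⟨Function.update z i w, fun j s => ?_, ?_⟩
      · by_cases hj : j = i
        · subst hj; simp [hw]
        · simp [Function.update_of_ne hj, hz]
      · have e1 : (Matrix.of fun i c =>
            if i ∈ S then eval (z i) (f i c) else coeff (α i) (f i c)).updateRow i
              (fun c => coeff (α i) (f i c)) =
            Matrix.of fun i c => if i ∈ S then eval (z i) (f i c) else coeff (α i) (f i c) := by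
          ext j c
          by_cases hj : j = i
          · subst hj; simp [hi]
          · simp [Matrix.updateRow_ne hj]
        have e2 : (Matrix.of fun i c =>
            if i ∈ S then eval (z i) (f i c) else coeff (α i) (f i c)).updateRow i
              (fun c => eval w (f i c)) =
            Matrix.of fun j c => if j ∈ insert i S then eval (Function.update z i w j) (f j c)
              else coeff (α j) (f j c) := by
          ext j c
          by_cases hj : j = i
          · subst hj; simp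
          · simp [hj]
        rw [e1, e2] at h'
        refine le_trans ?_ h'
        rw [Finset.prod_insert hi, mul_comm (∏ s, ρ s ^ α i s), ← mul_assoc]
        exact mul_le_mul_of_nonneg_right h
          (Finset.prod_nonneg fun s _ => pow_nonneg (hρ s).le _)
  simpa using main Finset.univ

end Crest.Agent.R11
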