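import Crest.Agent.R11.Defs

/-!
# Row 11: constants of derivations
-/

set_option autoImplicit false

open MvPolynomial

noncomputable section

namespace Crest.Agent.R11

lemma const_complex : Const (fun _ : Unit => (0 : Derivation ℂ ℂ ℂ)) :=
  fun a b hb _ => ⟨a / b, by rw [smul_eq_mul, div_mul_cancel₀ _ hb]⟩

lemma Const_sub {B ι : Type} [CommRing B] [Algebra ℂ B] (δ : ι → Derivation ℂ B B) {a b : B}
    (h : ∀ i, b * δ i a = a * δ i b) (c : ℂ) (i : ι) :
    b * δ i (a - c • b) = (a - c • b) * δ i b := by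
  rw [map_sub, Derivation.map_smul, mul_sub, sub_mul, h i, mul_smul_comm, smul_mul_assoc]

section
variable {A σ : Type} [CommRing A] [Algebra ℂ A]

lemma Const_of_lead {ι : Type} (mo : MonomialOrder σ)
    (Δ : ι → Derivation ℂ (MvPolynomial σ A) (MvPolynomial σ A))
    (hkey : ∀ h b : MvPolynomial σ A, h ≠ 0 → b ≠ 0 → (∀ i, b * Δ i h = h * Δ i b) →
      mo.degree h = mo.degree b ∧ ∃ c : ℂ, mo.leadingCoeff h = c • mo.leadingCoeff b) :
    Const Δ := by
  intro a b hb h
  by_cases ha : a = 0
  · exact ⟨0, by rw [ha, zero_smul]⟩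
  obtain ⟨h1, c, hc⟩ := hkey a b ha hb h
  refine ⟨c, sub_eq_zero.1 (by_contra fun h0 => ?_)⟩
  have h2 := (hkey _ b h0 hb (Const_sub Δ h c)).1
  apply mo.coeff_degree_ne_zero_iff.2 h0
  rw [h2, coeff_sub, coeff_smul, sub_eq_zero]
  rw [MonomialOrder.leadingCoeff, h1] at hc
  exact hc

omit [Algebra ℂ A] in
/-- top coefficients for an operator acting diagonally on the coefficients -/
lemma Const_top (mo : MonomialOrder σ) {h b h' b' : MvPolynomial σ A} (e : (σ →₀ ℕ) → A → A)
    (e0 : ∀ γ, e γ 0 = 0) (hh : ∀ γ, coeff γ h' = e γ (coeff γ h))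
    (hb : ∀ γ, coeff γ b' = e γ (coeff γ b)) (hr : b * h' = h * b') :
    mo.leadingCoeff b * e (mo.degree h) (mo.leadingCoeff h) =
      mo.leadingCoeff h * e (mo.degree b) (mo.leadingCoeff b) := by
  have s1 : h'.support ⊆ h.support := fun γ hγ => mem_support_iff.2 fun h0 =>
    mem_support_iff.1 hγ (by rw [hh, h0, e0])
  have s2 : b'.support ⊆ b.support := fun γ hγ => mem_support_iff.2 fun h0 =>
    mem_support_iff.1 hγ (by rw [hb, h0, e0])
  have h1 := mo.coeff_mul_of_add_of_degree_le (f := b) (g := h') le_rfl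
    (mo.degree_le_degree_of_support_subset s1)
  have h2 := mo.coeff_mul_of_add_of_degree_le (f := h) (g := b') le_rfl
    (mo.degree_le_degree_of_support_subset s2)
  rw [hr, add_comm, h2, hh, hb] at h1
  exact h1.symm

omit [Algebra ℂ A] in
lemma Const_coeff_euler (i : σ) (h : MvPolynomial σ A) (γ : σ →₀ ℕ) :
    coeff γ (X i * pderiv i h) = (γ i : A) * coeff γ h := by
  classical
  induction h using MvPolynomial.induction_on' with
  | monomial α c =>
    rw [X_mul_pderiv_monomial, coeff_smul, coeff_monomial]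
    split_ifs with h
    · rw [h, nsmul_eq_mul]
    · simp
  | add p q hp hq => rw [map_add, mul_add, coeff_add, hp, hq, coeff_add, mul_add]

end

/-- Recipe: fix a monomial order `mo` (`MonomialOrder.lex`, or `degLex`).  Let `h ≠ 0` satisfy the
relations with `b`, `α = mo.degree h`, `β = mo.degree b`.  Multiply `b * ∂_j h = h * ∂_j b` by `X j`;
the coefficient of `X j * pderiv j h` at `γ` is `γ j * coeff γ h`; compare the coefficients at `β + α`
(`MonomialOrder.coeff_mul_of_add_of_degree_le`): `α j = β j` (`A` is a domain of characteristic zero).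
The same comparison for `cder δ` (`coeff_cder`) and `hc` give `leadingCoeff h = c • leadingCoeff b`.
Then `h - c • b` satisfies the relations and has coefficient `0` at `β`, so it is `0`. -/
theorem const_bd {A : Type} [CommRing A] [IsDomain A] [Algebra ℂ A] {δ : Derivation ℂ A A}
    (hc : Const fun _ : Unit => δ) (m : ℕ) : Const (bd (m := m) δ) := by
  have : CharZero A := charZero_of_injective_algebraMap (algebraMap ℂ A).injective
  refine Const_of_lead MonomialOrder.lex _ fun h b hh hb hr => ?_
  have lh := MonomialOrder.lex.leadingCoeff_ne_zero_iff.2 hh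
  have lb := MonomialOrder.lex.leadingCoeff_ne_zero_iff.2 hb
  refine ⟨Finsupp.ext fun j => ?_, hc _ _ lb fun _ => ?_⟩
  · have h1 : b * pderiv j h = h * pderiv j b := hr (some j)
    have h2 := Const_top MonomialOrder.lex (fun γ a => (γ j : A) * a) (fun _ => mul_zero _)
      (Const_coeff_euler j h) (Const_coeff_euler j b)
      (by rw [mul_left_comm, h1, mul_left_comm])
    rw [mul_left_comm, mul_left_comm (MonomialOrder.lex.leadingCoeff h),
      mul_comm (MonomialOrder.lex.leadingCoeff h)] at h2
    exact_mod_cast mul_right_cancel₀ (mul_ne_zero lb lh) h2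
  · exact Const_top MonomialOrder.lex (fun _ a => δ a) (fun _ => map_zero _)
      (coeff_cder δ h) (coeff_cder δ b) (hr none)

lemma Const_poly : Const fun _ : Unit => (Polynomial.derivative' : Derivation ℂ _ _) := by
  have key : ∀ h b : Polynomial ℂ, h ≠ 0 → b ≠ 0 →
      b * Polynomial.derivative h = h * Polynomial.derivative b → h.natDegree = b.natDegree := by
    intro h b hh hb hr
    have e : ∀ (p : Polynomial ℂ) (n : ℕ),
        (Polynomial.X * Polynomial.derivative p).coeff n = n * p.coeff n := by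
      intro p n
      rcases n with _ | n
      · simp
      · rw [Polynomial.coeff_X_mul, Polynomial.coeff_derivative]; push_cast; ring
    have d : ∀ p : Polynomial ℂ,
        (Polynomial.X * Polynomial.derivative p).natDegree ≤ p.natDegree := by
      intro p
      rw [Polynomial.natDegree_le_iff_coeff_eq_zero]
      intro n hn
      rw [e, Polynomial.coeff_eq_zero_of_natDegree_lt hn, mul_zero]
    have h1 := Polynomial.coeff_mul_add_eq_of_natDegree_le (f := b) le_rfl (d h)
    have h2 := Polynomial.coeff_mul_add_eq_of_natDegree_le (f := h) le_rfl (d b)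
    rw [mul_left_comm, hr, ← mul_left_comm, add_comm, h2, e, e, Polynomial.coeff_natDegree,
      Polynomial.coeff_natDegree, mul_left_comm, mul_left_comm b.leadingCoeff,
      mul_comm b.leadingCoeff] at h1
    exact_mod_cast (mul_right_cancel₀ (mul_ne_zero (Polynomial.leadingCoeff_ne_zero.2 hh)
      (Polynomial.leadingCoeff_ne_zero.2 hb)) h1).symm
  intro a b hb h
  by_cases ha : a = 0
  · exact ⟨0, by rw [ha, zero_smul]⟩
  have h1 := key a b ha hb (h ())
  refine ⟨a.leadingCoeff / b.leadingCoeff, sub_eq_zero.1 (by_contra fun h0 => ?_)⟩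
  have h2 := key _ b h0 hb (Const_sub _ h _ ())
  apply Polynomial.leadingCoeff_ne_zero.2 h0
  rw [Polynomial.leadingCoeff, h2, Polynomial.coeff_sub, Polynomial.coeff_smul, smul_eq_mul,
    Polynomial.coeff_natDegree, div_mul_cancel₀ _ (Polynomial.leadingCoeff_ne_zero.2 hb), ← h1,
    Polynomial.coeff_natDegree, sub_self]

/-- the derivation `∂_y + Y ∂_Y` -/
def Const_der : Derivation ℂ (MvPolynomial (Fin 1) (Polynomial ℂ))
    (MvPolynomial (Fin 1) (Polynomial ℂ)) :=
  cder Polynomial.derivative' +
    (X 0 : MvPolynomial (Fin 1) (Polynomial ℂ)) • (pderiv (0 : Fin 1)).restrictScalars ℂ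

lemma Const_der_coeff (h : MvPolynomial (Fin 1) (Polynomial ℂ)) (γ : Fin 1 →₀ ℕ) :
    coeff γ (Const_der h) =
      Polynomial.derivative (coeff γ h) + (γ 0 : Polynomial ℂ) * coeff γ h := by
  rw [← Const_coeff_euler]
  exact (coeff_add _ _ _).trans (congrArg₂ (· + ·) (coeff_cder _ _ _) rfl)

lemma Const_der_const : Const fun _ : Unit => Const_der := by
  refine Const_of_lead MonomialOrder.lex _ fun h b hh hb hr => ?_
  have lh := MonomialOrder.lex.leadingCoeff_ne_zero_iff.2 hh
  have lb := MonomialOrder.lex.leadingCoeff_ne_zero_iff.2 hb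
  have h1 := Const_top MonomialOrder.lex
    (fun γ a => Polynomial.derivative a + (γ 0 : Polynomial ℂ) * a) (fun _ => by simp)
    (Const_der_coeff h) (Const_der_coeff b) (hr ())
  set a := MonomialOrder.lex.leadingCoeff h
  set c := MonomialOrder.lex.leadingCoeff b
  have e : ∀ (p : Polynomial ℂ) (n : ℕ),
      (Polynomial.derivative p + (n : Polynomial ℂ) * p).coeff p.natDegree = n * p.leadingCoeff := by
    intro p n
    rw [Polynomial.coeff_add, Polynomial.coeff_derivative, Polynomial.coeff_natDegree_succ_eq_zero,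
      zero_mul, zero_add, Polynomial.coeff_natCast_mul, Polynomial.coeff_natDegree]
  have d : ∀ (p : Polynomial ℂ) (n : ℕ),
      (Polynomial.derivative p + (n : Polynomial ℂ) * p).natDegree ≤ p.natDegree := by
    intro p n
    refine Polynomial.natDegree_add_le_of_degree_le
      ((Polynomial.natDegree_derivative_le p).trans (Nat.sub_le _ _)) ?_
    rw [← nsmul_eq_mul]
    exact Polynomial.natDegree_smul_le _ _
  have h2 := Polynomial.coeff_mul_add_eq_of_natDegree_le (f := c) le_rfl
    (d a (MonomialOrder.lex.degree h 0))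
  have h3 := Polynomial.coeff_mul_add_eq_of_natDegree_le (f := a) le_rfl
    (d c (MonomialOrder.lex.degree b 0))
  rw [h1, add_comm c.natDegree, h3, e, e, Polynomial.coeff_natDegree, Polynomial.coeff_natDegree, mul_left_comm,
    mul_left_comm c.leadingCoeff, mul_comm c.leadingCoeff] at h2
  have h4 : MonomialOrder.lex.degree b 0 = MonomialOrder.lex.degree h 0 := by
    exact_mod_cast mul_right_cancel₀ (mul_ne_zero (Polynomial.leadingCoeff_ne_zero.2 lh)
      (Polynomial.leadingCoeff_ne_zero.2 lb)) h2
  refine ⟨Finsupp.ext fun j => by rw [Subsingleton.elim j 0, h4], Const_poly a c lb fun _ => ?_⟩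
  rw [h4] at h1
  change c * Polynomial.derivative a = a * Polynomial.derivative c
  linear_combination h1

/-- The ring `ℂ[y, Y]` with `δ = ∂_y + Y ∂_Y`.  Recipe: `A = ℂ[X][X]` with `y = C X`, `Y = X`
(or `MvPolynomial Unit ℂ[X]` and `cder`), `δ (∑ a n * Y^n) = ∑ (a n' + n a n) Y^n`.
Constants: if `h ≠ 0`, `b` have top terms `a Y^n`, `c Y^k` then `c (a' + n a) = a (c' + k c)`, so
`(n - k) a c = a c' - a' c` has smaller degree, hence `n = k`; then `c a' = a c'` gives `a = κ c`
(compare degrees via `X * derivative`, subtract); finally subtract `κ • b` as in `const_bd`.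
`φ₀ = eval₂ (map (algebraMap ℂ L)) (C Y₀)`; injective: the coefficient of `y^n` in the image is
`aeval Y₀` of the polynomial `∑ i, coeff n (a i) T^i`. -/
theorem exists_base : ∃ (A : Type) (_ : CommRing A) (_ : IsDomain A) (_ : Algebra ℂ A)
    (δ : Derivation ℂ A A) (y Y : A), Const (fun _ : Unit => δ) ∧ δ y = 1 ∧ δ Y = Y ∧
      ∀ (L : Type) [CommRing L] [IsDomain L] [Algebra ℂ L] (Y₀ : L), Transcendental ℂ Y₀ →
        ∃ φ₀ : A →ₐ[ℂ] Polynomial L, Function.Injective φ₀ ∧ φ₀ y = Polynomial.X ∧
          φ₀ Y = Polynomial.C Y₀ := by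
  refine ⟨MvPolynomial (Fin 1) (Polynomial ℂ), inferInstance, inferInstance, inferInstance,
    Const_der, C Polynomial.X, X 0, Const_der_const, ?_, ?_, fun L _ _ _ Y₀ hY => ?_⟩
  · ext1 γ
    rw [Const_der_coeff, coeff_C, coeff_one]
    split_ifs with h
    · simp [← h]
    · simp
  · ext1 γ
    rw [Const_der_coeff, coeff_X]
    split_ifs with h
    · simp [← h]
    · simp
  · refine ⟨(Polynomial.mapAlgHom (Polynomial.aeval Y₀)).comp
      ((Polynomial.Bivariate.swap (R := ℂ)).toAlgHom.comp
        ((uniqueAlgEquiv (Polynomial ℂ) (Fin 1)).toAlgHom.restrictScalars ℂ)), ?_, ?_, ?_⟩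
    · exact (Polynomial.map_injective _ (transcendental_iff_injective.1 hY)).comp
        ((Polynomial.Bivariate.swap (R := ℂ)).injective.comp
          (uniqueAlgEquiv (Polynomial ℂ) (Fin 1)).injective)
    · simp [Polynomial.Bivariate.swap_X]
    · simp [Polynomial.Bivariate.swap_Y]

end Crest.Agent.R11
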