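import Crest.Agent.R11.Count

/-!
# Row 11: the interpolation determinant
-/

set_option autoImplicit false

open MvPolynomial

noncomputable section

namespace Crest.Agent.R11

/-- Recipe: expand multilinearly in the rows: `det = ∑ f : ι → T, (∏ i, u i (f i)) * det (a (f i) c)`
(`MultilinearMap.map_sum` for `Matrix.detRowAlternating`); non-injective `f` give `0`
(`Matrix.det_zero_of_row_eq`).  For injective `f` each of the `M!` terms has norm at most
`∏ B c * ∏ i, y (f i) * exp (-∑ i, W (f i))`, and `∑ i, W (f i) ≥ (M - #small) W₀` as at most `#small`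
indices `i` have `W (f i) < W₀`.  Finally `∑ f, ∏ i, y (f i) = (∑ t, y t)^M` (`Finset.prod_univ_sum`). -/
theorem det_sum_le {ι T : Type} [Fintype ι] [DecidableEq ι] [Fintype T] (u : ι → T → ℂ)
    (a : T → ι → ℂ) {B : ι → ℝ} {y W : T → ℝ} (hB : ∀ c, 0 ≤ B c) (hy : ∀ t, 0 ≤ y t)
    (hW : ∀ t, 0 ≤ W t) (h : ∀ i t c, ‖u i t‖ * ‖a t c‖ ≤ B c * (y t * Real.exp (-W t)))
    {W₀ S : ℝ} (hW₀ : 0 ≤ W₀) (hS : ∀ s : Finset T, (∀ t ∈ s, W t < W₀) → (s.card : ℝ) ≤ S) :
    ‖(Matrix.of fun i c => ∑ t, u i t * a t c).det‖ ≤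
      (Fintype.card ι).factorial * (∑ t, y t) ^ Fintype.card ι * (∏ c, B c) *
        Real.exp (-((Fintype.card ι - S) * W₀)) := by
  classical
  have hexp : (Matrix.of fun i c => ∑ t, u i t * a t c).det =
      ∑ f : ι → T, (Matrix.of fun i c => u i (f i) * a (f i) c).det := by
    have h1 := (Matrix.detRowAlternating (n := ι) (R := ℂ)).toMultilinearMap.map_sum
      (g := fun (i : ι) (t : T) => u i t • a t)
    have h2 : (Matrix.of fun i c => ∑ t, u i t * a t c) = fun i => ∑ t, u i t • a t := by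
      ext i c
      simp [Finset.sum_apply]
    rw [h2]
    exact h1
  have hterm : ∀ f : ι → T, ‖(Matrix.of fun i c => u i (f i) * a (f i) c).det‖ ≤
      (∏ i, y (f i)) * ((Fintype.card ι).factorial * (∏ c, B c) *
        Real.exp (-((Fintype.card ι - S) * W₀))) := by
    intro f
    by_cases hf : Function.Injective f
    · have hsum : (Fintype.card ι - S) * W₀ ≤ ∑ i, W (f i) := by
        set P := Finset.univ.filter fun i => W (f i) < W₀ with hP
        have hc : (P.card : ℝ) ≤ S := by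
          rw [← Finset.card_image_of_injective P hf]
          apply hS
          intro t ht
          obtain ⟨i, hi, rfl⟩ := Finset.mem_image.mp ht
          exact (Finset.mem_filter.mp hi).2
        have h1 : ∑ i ∈ Pᶜ, W₀ ≤ ∑ i ∈ Pᶜ, W (f i) := by
          apply Finset.sum_le_sum
          intro i hi
          simpa [hP] using hi
        have h2 : ∑ i ∈ Pᶜ, W (f i) ≤ ∑ i, W (f i) :=
          Finset.sum_le_sum_of_subset_of_nonneg (Finset.subset_univ _) fun i _ _ => hW _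
        rw [Finset.sum_const, nsmul_eq_mul, Finset.card_compl,
          Nat.cast_sub (Finset.card_le_univ _)] at h1
        nlinarith
      rw [Matrix.det_apply]
      refine (norm_sum_le _ _).trans ?_
      have h3 : ∀ σ : Equiv.Perm ι, ‖Equiv.Perm.sign σ •
          ∏ c, (Matrix.of fun i c => u i (f i) * a (f i) c) (σ c) c‖ ≤
          (∏ i, y (f i)) * ((∏ c, B c) * Real.exp (-((Fintype.card ι - S) * W₀))) := by
        intro σ
        have h4 : ‖Equiv.Perm.sign σ • ∏ c, (Matrix.of fun i c => u i (f i) * a (f i) c) (σ c) c‖ =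
            ∏ c, ‖u (σ c) (f (σ c))‖ * ‖a (f (σ c)) c‖ := by
          rcases Int.units_eq_one_or (Equiv.Perm.sign σ) with h5 | h5 <;> simp [h5]
        rw [h4]
        calc ∏ c, ‖u (σ c) (f (σ c))‖ * ‖a (f (σ c)) c‖
            ≤ ∏ c, B c * (y (f (σ c)) * Real.exp (-W (f (σ c)))) :=
              Finset.prod_le_prod (fun c _ => by positivity) fun c _ => h _ _ _
          _ = (∏ i, y (f i)) * ((∏ c, B c) * Real.exp (-∑ i, W (f i))) := by
              rw [Finset.prod_mul_distrib,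
                Equiv.prod_comp σ (fun i => y (f i) * Real.exp (-W (f i))),
                Finset.prod_mul_distrib, ← Real.exp_sum, Finset.sum_neg_distrib]
              ring
          _ ≤ _ := by
              have h6 : 0 ≤ ∏ i, y (f i) := Finset.prod_nonneg fun i _ => hy _
              have h7 : 0 ≤ ∏ c, B c := Finset.prod_nonneg fun i _ => hB _
              gcongr
      refine (Finset.sum_le_sum fun σ _ => h3 σ).trans (le_of_eq ?_)
      rw [Finset.sum_const, Finset.card_univ, Fintype.card_perm, nsmul_eq_mul]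
      ring
    · have h0 : (Matrix.of fun i c => u i (f i) * a (f i) c).det = 0 := by
        refine (Matrix.det_mul_column (fun i => u i (f i)) (Matrix.of fun i c => a (f i) c)).trans ?_
        simp only [Function.Injective, not_forall] at hf
        obtain ⟨i, j, hij, hne⟩ := hf
        rw [Matrix.det_zero_of_row_eq hne (by ext c; simp [hij]), mul_zero]
      rw [h0, norm_zero]
      have h6 : 0 ≤ ∏ i, y (f i) := Finset.prod_nonneg fun i _ => hy _
      have h7 : 0 ≤ ∏ c, B c := Finset.prod_nonneg fun i _ => hB _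
      positivity
  rw [hexp]
  refine (norm_sum_le _ _).trans ((Finset.sum_le_sum fun f _ => hterm f).trans (le_of_eq ?_))
  rw [← Finset.sum_mul]
  have : ∑ f : ι → T, ∏ i, y (f i) = (∑ t, y t) ^ Fintype.card ι := by
    rw [← Finset.card_univ, ← Finset.prod_const, Finset.prod_univ_sum]
    simp
  rw [this]
  ring

lemma hasSum_shift (z b : ℂ) (h : ℕ) :
    HasSum (fun n : ℕ => z ^ n * (if h ≤ n then b ^ (n - h) / ((n - h).factorial : ℂ) else 0))
      (z ^ h * Complex.exp (b * z)) := by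
  rw [← hasSum_nat_add_iff' h]
  have h0 : ∑ n ∈ Finset.range h,
      z ^ n * (if h ≤ n then b ^ (n - h) / ((n - h).factorial : ℂ) else 0) = 0 := by
    apply Finset.sum_eq_zero
    intro n hn
    rw [if_neg (by simpa using hn), mul_zero]
  rw [h0, sub_zero]
  have h1 := (NormedSpace.expSeries_div_hasSum_exp (b * z)).mul_left (z ^ h)
  rw [← Complex.exp_eq_exp_ℂ] at h1
  refine HasSum.congr_fun h1 fun n => ?_
  rw [if_pos (Nat.le_add_left _ _), Nat.add_sub_cancel, mul_pow, pow_add]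
  ring

lemma prod_add_pow_eq {m A : ℕ} (z : ℂ) (e : Fin m → ℂ) (a : Fin m → ℕ) (hA : ∀ j, a j ≤ A) :
    ∏ j, (z + e j) ^ a j = ∑ s : Fin m → Fin (A + 1),
      (∏ j, e j ^ (s j : ℕ)) * (∏ j, ((a j).choose (s j) : ℂ)) * z ^ (∑ j, (a j - s j)) := by
  have h1 : ∀ j, (z + e j) ^ a j =
      ∑ s : Fin (A + 1), e j ^ (s : ℕ) * ((a j).choose s : ℂ) * z ^ (a j - s) := by
    intro j
    rw [Fin.sum_univ_eq_sum_range (fun s => e j ^ s * ((a j).choose s : ℂ) * z ^ (a j - s)),
      add_comm z, add_pow]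
    rw [← Finset.sum_subset (Finset.range_subset_range.mpr (Nat.succ_le_succ (hA j)))]
    · exact Finset.sum_congr rfl fun s _ => by ring
    · intro s _ hs
      rw [Nat.choose_eq_zero_of_lt (by simpa using hs)]
      simp
  simp only [h1]
  rw [Finset.prod_univ_sum, Fintype.piFinset_univ]
  refine Finset.sum_congr rfl fun s _ => ?_
  rw [Finset.prod_mul_distrib, Finset.prod_mul_distrib, Finset.prod_pow_eq_pow_sum]

lemma entry_bound {m : ℕ} (z : ℂ) (e : Fin m → ℂ) (a s : Fin m → ℕ) (b n : ℕ) {r Ce : ℝ}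
    {lν : Fin m → ℝ} (hr : 1 ≤ r) (hCe : 1 ≤ Ce) (hz : ‖z‖ ≤ r)
    (he : ∀ j, ‖e j‖ ≤ Ce * Real.exp (-lν j)) :
    ‖(∏ j, e j ^ s j) * z ^ n‖ * ‖(∏ j, ((a j).choose (s j) : ℂ)) *
      (if ∑ j, (a j - s j) ≤ n then (b : ℂ) ^ (n - ∑ j, (a j - s j)) /
        ((n - ∑ j, (a j - s j)).factorial : ℂ) else 0)‖ ≤
      ((12 * r * Ce) ^ (∑ j, a j) * Real.exp (b * (6 * r))) *
        ((2⁻¹ : ℝ) ^ n * Real.exp (-((n : ℝ) + ∑ j, (s j : ℝ) * lν j))) := by
  by_cases hs : ∀ j, s j ≤ a j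
  swap
  · push Not at hs
    obtain ⟨j, hj⟩ := hs
    rw [Finset.prod_eq_zero (f := fun j => ((a j).choose (s j) : ℂ)) (Finset.mem_univ j)
      (by simp [Nat.choose_eq_zero_of_lt hj])]
    simp only [zero_mul, norm_zero, mul_zero]
    positivity
  split_ifs with hn
  swap
  · simp only [norm_zero, mul_zero]
    positivity
  set h := ∑ j, (a j - s j) with hh
  obtain ⟨k, rfl⟩ := Nat.exists_eq_add_of_le hn
  rw [Nat.add_sub_cancel_left]
  simp only [norm_mul, norm_prod, norm_pow, norm_div, Complex.norm_natCast]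
  have hha : h ≤ ∑ j, a j := Finset.sum_le_sum fun j _ => Nat.sub_le _ _
  have hsa : ∑ j, s j ≤ ∑ j, a j := Finset.sum_le_sum fun j _ => hs j
  have e1 : ∏ j, ‖e j‖ ^ s j ≤ Ce ^ (∑ j, a j) * Real.exp (-∑ j, (s j : ℝ) * lν j) := by
    calc ∏ j, ‖e j‖ ^ s j ≤ ∏ j, (Ce * Real.exp (-lν j)) ^ s j :=
          Finset.prod_le_prod (fun j _ => by positivity) fun j _ =>
            pow_le_pow_left₀ (norm_nonneg _) (he j) _
      _ = Ce ^ (∑ j, s j) * Real.exp (-∑ j, (s j : ℝ) * lν j) := by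
          simp only [mul_pow, Finset.prod_mul_distrib, Finset.prod_pow_eq_pow_sum,
            ← Real.exp_nat_mul, ← Real.exp_sum, mul_neg, Finset.sum_neg_distrib]
      _ ≤ _ := by gcongr
  have e2 : ∏ j, ((a j).choose (s j) : ℝ) ≤ 2 ^ (∑ j, a j) := by
    rw [← Finset.prod_pow_eq_pow_sum]
    refine Finset.prod_le_prod (fun j _ => by positivity) fun j _ => ?_
    exact_mod_cast Nat.choose_le_two_pow _ _
  have e3 : (1 : ℝ) ≤ 6 * (2⁻¹ * Real.exp (-1)) := by
    have h1 := Real.exp_one_lt_d9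
    have h2 : Real.exp 1 * Real.exp (-1) = 1 := by rw [← Real.exp_add]; simp
    have h3 := Real.exp_pos (-1)
    nlinarith
  have e4 : ‖z‖ ^ (h + k) ≤ (6 * r) ^ (∑ j, a j) * (6 * r) ^ k *
      ((2⁻¹ : ℝ) ^ (h + k) * Real.exp (-((h + k : ℕ) : ℝ))) := by
    calc ‖z‖ ^ (h + k) ≤ (6 * r * (2⁻¹ * Real.exp (-1))) ^ (h + k) :=
          pow_le_pow_left₀ (norm_nonneg _) (by nlinarith) _
      _ = (6 * r) ^ h * (6 * r) ^ k * ((2⁻¹ : ℝ) ^ (h + k) * Real.exp (-((h + k : ℕ) : ℝ))) := by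
          rw [mul_pow, mul_pow (2⁻¹ : ℝ), ← Real.exp_nat_mul, pow_add]
          simp
      _ ≤ _ := by
          have : (1 : ℝ) ≤ 6 * r := by linarith
          gcongr
  have e5 : (6 * r) ^ k * ((b : ℝ) ^ k / k.factorial) ≤ Real.exp (b * (6 * r)) := by
    have := Real.pow_div_factorial_le_exp (b * (6 * r)) (by positivity) k
    rw [mul_pow] at this
    calc _ = (b : ℝ) ^ k * (6 * r) ^ k / k.factorial := by ring
      _ ≤ _ := this
  calc (∏ j, ‖e j‖ ^ s j) * ‖z‖ ^ (h + k) *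
        ((∏ j, ((a j).choose (s j) : ℝ)) * ((b : ℝ) ^ k / k.factorial))
      ≤ (Ce ^ (∑ j, a j) * Real.exp (-∑ j, (s j : ℝ) * lν j)) * ((6 * r) ^ (∑ j, a j) * (6 * r) ^ k *
          ((2⁻¹ : ℝ) ^ (h + k) * Real.exp (-((h + k : ℕ) : ℝ)))) *
          (2 ^ (∑ j, a j) * ((b : ℝ) ^ k / k.factorial)) := by gcongr
    _ = (12 * r * Ce) ^ (∑ j, a j) * ((6 * r) ^ k * ((b : ℝ) ^ k / k.factorial)) *
        ((2⁻¹ : ℝ) ^ (h + k) * Real.exp (-(((h + k : ℕ) : ℝ) + ∑ j, (s j : ℝ) * lν j))) := by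
        rw [neg_add, Real.exp_add, show 12 * r * Ce = Ce * (6 * r) * 2 by ring,
          mul_pow (Ce * (6 * r)), mul_pow Ce]
        ring
    _ ≤ _ := by gcongr

/-- Recipe: with `R = 6 r`, `T = (Fin m → Fin (A+1)) × Fin n₀`, `u i (s, n) = (∏ j, e i j ^ s j) * z i ^ n`,
`a (s, n) c = (∏ j, choose (a j) (s j)) * (if h ≤ n then b^(n-h)/(n-h)! else 0)` where `a j = col c (some j)`,
`b = col c none`, `h = ∑ j, (a j - s j)`; `y (s, n) = 2⁻¹^n`, `W (s, n) = n + ∑ j, s j * (ν ℓ j)`.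
Use `choose a s ≤ 2^a`, `choose = 0` unless `s ≤ a`, `(b R)^k / k! ≤ exp (b R)`, `6⁻¹ ≤ 2⁻¹ exp (-1)`.
As `n₀ → ∞` the entries tend to the required ones (binomial theorem `add_pow`, `Finset.prod_univ_sum`,
exponential series `NormedSpace.expSeries_div_hasSum_exp`/`Complex.exp_eq_exp_ℂ`); `le_of_tendsto'`. -/
theorem det_eval_le {m : ℕ} {ι : Type} [Fintype ι] [DecidableEq ι] (z : ι → ℂ) (e : ι → Fin m → ℂ)
    (col : ι → (Option (Fin m) →₀ ℕ)) {r Ce : ℝ} {lν : Fin m → ℝ} (hr : 1 ≤ r) (hCe : 1 ≤ Ce)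
    (hl : ∀ j, 0 < lν j) (hz : ∀ i, ‖z i‖ ≤ r) (he : ∀ i j, ‖e i j‖ ≤ Ce * Real.exp (-lν j))
    {A : ℕ} (hA : ∀ c j, col c (some j) ≤ A) {W₀ : ℝ} (hW₀ : 0 ≤ W₀) :
    ‖(Matrix.of fun i c => (∏ j, (z i + e i j) ^ col c (some j)) *
        Complex.exp (col c none * z i)).det‖ ≤
      (Fintype.card ι).factorial * (2 * ((A : ℝ) + 1) ^ m) ^ Fintype.card ι *
        (∏ c, (12 * r * Ce) ^ (∑ j, col c (some j)) * Real.exp (col c none * (6 * r))) *
        Real.exp (-((Fintype.card ι - ((low (ow 1 lν) W₀).card : ℝ)) * W₀)) := by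
  classical
  set M : ℕ → Matrix ι ι ℂ := fun n₀ => Matrix.of fun i c =>
    ∑ t : (Fin m → Fin (A + 1)) × Fin n₀, ((∏ j, e i j ^ (t.1 j : ℕ)) * z i ^ (t.2 : ℕ)) *
      ((∏ j, ((col c (some j)).choose (t.1 j) : ℂ)) *
        (if ∑ j, (col c (some j) - t.1 j) ≤ (t.2 : ℕ) then
          (col c none : ℂ) ^ ((t.2 : ℕ) - ∑ j, (col c (some j) - t.1 j)) /
            (((t.2 : ℕ) - ∑ j, (col c (some j) - t.1 j)).factorial : ℂ) else 0)) with hM
  have hlim : Filter.Tendsto M Filter.atTop (nhds (Matrix.of fun i c =>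
      (∏ j, (z i + e i j) ^ col c (some j)) * Complex.exp (col c none * z i))) := by
    refine tendsto_pi_nhds.mpr fun i => tendsto_pi_nhds.mpr fun c => ?_
    simp only [hM, Matrix.of_apply, Fintype.sum_prod_type]
    rw [prod_add_pow_eq (z i) (e i) (fun j => col c (some j)) (hA c), Finset.sum_mul]
    refine tendsto_finsetSum _ fun s _ => ?_
    have h1 := ((hasSum_shift (z i) (col c none) (∑ j, (col c (some j) - s j))).mul_left
      ((∏ j, e i j ^ (s j : ℕ)) * ∏ j, ((col c (some j)).choose (s j) : ℂ))).tendsto_sum_nat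
    rw [← mul_assoc] at h1
    refine h1.congr fun n₀ => ?_
    rw [← Fin.sum_univ_eq_sum_range]
    exact Finset.sum_congr rfl fun n _ => by ring
  have hdet := ((continuous_id.matrix_det.norm.tendsto _).comp hlim)
  refine le_of_tendsto' hdet fun n₀ => ?_
  have hB : ∀ c, 0 ≤ (12 * r * Ce) ^ (∑ j, col c (some j)) * Real.exp (col c none * (6 * r)) :=
    fun c => by positivity
  have key := det_sum_le (ι := ι) (T := (Fin m → Fin (A + 1)) × Fin n₀)
    (fun i t => (∏ j, e i j ^ (t.1 j : ℕ)) * z i ^ (t.2 : ℕ))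
    (fun t c => (∏ j, ((col c (some j)).choose (t.1 j) : ℂ)) *
        (if ∑ j, (col c (some j) - t.1 j) ≤ (t.2 : ℕ) then
          (col c none : ℂ) ^ ((t.2 : ℕ) - ∑ j, (col c (some j) - t.1 j)) /
            (((t.2 : ℕ) - ∑ j, (col c (some j) - t.1 j)).factorial : ℂ) else 0))
    (B := fun c => (12 * r * Ce) ^ (∑ j, col c (some j)) * Real.exp (col c none * (6 * r)))
    (y := fun t => (2⁻¹ : ℝ) ^ (t.2 : ℕ))
    (W := fun t => ((t.2 : ℕ) : ℝ) + ∑ j, ((t.1 j : ℕ) : ℝ) * lν j) hB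
    (fun t => by positivity)
    (fun t => add_nonneg (Nat.cast_nonneg _)
      (Finset.sum_nonneg fun j _ => mul_nonneg (Nat.cast_nonneg _) (hl j).le))
    (fun i t c => entry_bound (z i) (e i) (fun j => col c (some j)) (fun j => (t.1 j : ℕ))
      (col c none) t.2 hr hCe (hz i) (he i))
    hW₀ (S := ((low (ow 1 lν) W₀).card : ℝ)) (by
      intro s hs
      have : s.card ≤ (low (ow 1 lν) W₀).card := by
        refine Finset.card_le_card_of_injOn (fun t => Finsupp.equivFunOnFinite.symm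
          fun o : Option (Fin m) => o.elim (t.2 : ℕ) fun j => (t.1 j : ℕ)) ?_ ?_
        · intro t ht
          rw [Finset.mem_coe, mem_low (ow_pos one_pos hl), wt_ow]
          simpa using hs t ht
        · intro t _ t' _ htt
          have h1 := Finsupp.equivFunOnFinite.symm.injective htt
          refine Prod.ext (funext fun j => Fin.ext ?_) (Fin.ext ?_)
          · exact congrFun h1 (some j)
          · exact congrFun h1 none
      exact_mod_cast this)
  refine key.trans ?_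
  have hy : ∑ t : (Fin m → Fin (A + 1)) × Fin n₀, (2⁻¹ : ℝ) ^ (t.2 : ℕ) ≤ 2 * ((A : ℝ) + 1) ^ m := by
    rw [Fintype.sum_prod_type]
    simp only [Finset.sum_const, Finset.card_univ, Fintype.card_fun, Fintype.card_fin,
      nsmul_eq_mul]
    rw [Fin.sum_univ_eq_sum_range (fun n => (2⁻¹ : ℝ) ^ n), mul_comm]
    have h2 := sum_geometric_two_le n₀
    rw [one_div] at h2
    push_cast
    gcongr
  have h7 : 0 ≤ ∏ c, (12 * r * Ce) ^ (∑ j, col c (some j)) * Real.exp (col c none * (6 * r)) :=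
    Finset.prod_nonneg fun c _ => hB c
  gcongr

end Crest.Agent.R11
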