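import Crest.Agent.R11.Noeth
import Crest.Agent.R11.Arith
import Crest.Agent.R11.Cauchy
import Crest.Agent.R11.Interp

/-!
# Row 11: the main inequality
-/

set_option autoImplicit false

open MvPolynomial

noncomputable section

namespace Crest.Agent.R11

/-- rows are `Fin K × low (ow lam ℓ) n`; `exists_det_ne_zero` with the monomials of weight `≤ N` -/
theorem Interp.exists_minor {m K : ℕ} {lam β N n : ℝ} {ℓ : Fin m → ℝ} {τ : Fin m → ℕ}
    {x : Fin m → ℂ} (hlam : 0 < lam) (hℓ : ∀ j, 0 < ℓ j) (h : Interp K lam β ℓ τ x N n) :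
    ∃ col : Fin K × ↥(low (ow lam ℓ) n) → (Option (Fin m) →₀ ℕ),
      (∀ c, wt (ow β ℓ) (col c) ≤ N) ∧
      (Matrix.of fun (i c : Fin K × ↥(low (ow lam ℓ) n)) => coeff (i.2 : Option (Fin m) →₀ ℕ)
        (loc (fun j => ((i.1 : ℕ) : ℂ) * x j) τ (monomial (col c) 1))).det ≠ 0 := by
  classical
  obtain ⟨col, hcol⟩ := exists_det_ne_zero (ι := Fin K × ↥(low (ow lam ℓ) n))
    (C := {a : Option (Fin m) →₀ ℕ // wt (ow β ℓ) a ≤ N})
    (fun a i => coeff (i.2 : Option (Fin m) →₀ ℕ)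
      (loc (fun j => ((i.1 : ℕ) : ℂ) * x j) τ (monomial a.1 1))) (by
      rw [eq_top_iff]
      intro c _
      obtain ⟨G, hG, hc⟩ := h fun k a => if ha : a ∈ low (ow lam ℓ) n then c (k, ⟨a, ha⟩) else 0
      have : c = ∑ a ∈ G.support.attach, coeff a.1 G • fun i : Fin K × ↥(low (ow lam ℓ) n) =>
          coeff (i.2 : Option (Fin m) →₀ ℕ)
            (loc (fun j => ((i.1 : ℕ) : ℂ) * x j) τ (monomial a.1 1)) := by
        funext i
        have h1 := hc i.1 i.2 ((mem_low (ow_pos hlam hℓ)).1 i.2.2)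
        rw [dif_pos i.2.2] at h1
        rw [Finset.sum_apply, Finset.sum_attach G.support fun a => (coeff a G • fun i :
          Fin K × ↥(low (ow lam ℓ) n) => coeff (i.2 : Option (Fin m) →₀ ℕ)
            (loc (fun j => ((i.1 : ℕ) : ℂ) * x j) τ (monomial a 1))) i]
        refine h1.symm.trans ?_
        conv_lhs => rw [G.as_sum]
        rw [map_sum, coeff_sum]
        refine Finset.sum_congr rfl fun a _ => ?_
        rw [Pi.smul_apply, ← coeff_smul, ← map_smul, smul_monomial, smul_eq_mul, mul_one]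
      rw [this]
      exact Submodule.sum_mem _ fun a _ => Submodule.smul_mem _ _
        (Submodule.subset_span ⟨⟨a.1, hG a.1 a.2⟩, rfl⟩))
  exact ⟨fun c => (col c).1, fun c => (col c).2, hcol⟩

/-- value of a monomial in local coordinates, seen from the leaf `X j = z`, `Y = exp z`:
`z = 2 π i k + log (1 + w)`, `e j = k (x j - 2 π i) + u j + (L_j (w) - log (1 + w))`
(`Complex.norm_log_sub_logTaylor_le`, `Complex.norm_log_one_add_half_le_self`, `π ≤ 3.15`) -/
theorem eval_loc_monomial {m K k : ℕ} (hk : k < K) {κ : ℝ} (hκ : 1 ≤ κ) {lν : Fin m → ℝ}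
    {τ : Fin m → ℕ} (hτ : ∀ j, lν j ≤ κ * (τ j + 1)) {x : Fin m → ℂ}
    (hx : ∀ j, ‖x j - 2 * Real.pi * Complex.I‖ ≤ 2 * Real.exp (-lν j)) (u : Option (Fin m) → ℂ)
    (hu0 : ‖u none‖ = Real.exp (-κ)) (hu : ∀ j, ‖u (some j)‖ = Real.exp (-lν j)) :
    ∃ (z : ℂ) (e : Fin m → ℂ), ‖z‖ ≤ 7 * K + 1 ∧ (∀ j, ‖e j‖ ≤ (2 * K + 3) * Real.exp (-lν j)) ∧
      ∀ a : Option (Fin m) →₀ ℕ, eval u (loc (fun j => (k : ℂ) * x j) τ (monomial a 1)) =
        (∏ j, (z + e j) ^ a (some j)) * Complex.exp (a none * z) := by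
  set w := u none with hw
  have hw1 : ‖w‖ ≤ 1 / 2 := by
    rw [hu0]
    have h1 : Real.exp (-κ) ≤ Real.exp (-1) := Real.exp_le_exp.2 (by linarith)
    have h2 := Real.exp_neg_one_lt_d9
    linarith
  have hw2 : 1 + w ≠ 0 := fun h0 => by
    have : w = -1 := by linear_combination h0
    rw [this] at hw1; norm_num at hw1
  have hk' : (k : ℝ) ≤ K := by exact_mod_cast hk.le
  have hL : ∀ j, eval u (Polynomial.aeval (X none : Rg m) (Lp (τ j))) =
      Complex.logTaylor (τ j + 1) w := fun j => by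
    simp only [Lp, Complex.logTaylor, map_sum, map_mul, map_pow, Polynomial.aeval_C,
      Polynomial.aeval_X, algebraMap_eq, eval_C, eval_X]
    exact Finset.sum_congr rfl fun t _ => by rw [hw]; ring
  refine ⟨k * (2 * Real.pi * Complex.I) + Complex.log (1 + w), fun j =>
    k * (x j - 2 * Real.pi * Complex.I) + u (some j) -
      (Complex.log (1 + w) - Complex.logTaylor (τ j + 1) w), ?_, fun j => ?_, fun a => ?_⟩
  · have h1 := Complex.norm_log_one_add_half_le_self hw1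
    have h2 : ‖(k : ℂ) * (2 * Real.pi * Complex.I)‖ ≤ 7 * K := by
      simp only [norm_mul, Complex.norm_natCast, Complex.norm_ofNat, Complex.norm_real,
        Complex.norm_I, Real.norm_eq_abs, abs_of_pos Real.pi_pos]
      nlinarith [Real.pi_lt_d2, Real.pi_pos, (Nat.cast_nonneg k : (0 : ℝ) ≤ k)]
    linarith [norm_add_le ((k : ℂ) * (2 * Real.pi * Complex.I)) (Complex.log (1 + w))]
  · have h1 := Complex.norm_log_sub_logTaylor_le (τ j) (show ‖w‖ < 1 by linarith)
    have h2 : ‖w‖ ^ (τ j + 1) ≤ Real.exp (-lν j) := by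
      rw [hu0, ← Real.exp_nat_mul]
      refine Real.exp_le_exp.2 ?_
      push_cast; linarith [hτ j]
    have h3 : (1 - ‖w‖)⁻¹ ≤ 2 := by
      rw [inv_le_comm₀ (by linarith) (by norm_num)]; linarith
    have h4 : ‖w‖ ^ (τ j + 1) * (1 - ‖w‖)⁻¹ / (τ j + 1) ≤ Real.exp (-lν j) * 2 := by
      have h5 : (0 : ℝ) ≤ (1 - ‖w‖)⁻¹ := inv_nonneg.2 (by linarith)
      refine (div_le_self (by positivity) (by linarith [(Nat.cast_nonneg (τ j) : (0 : ℝ) ≤ τ j)])).trans ?_
      gcongr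
    have h6 : ‖(k : ℂ) * (x j - 2 * Real.pi * Complex.I)‖ ≤ K * (2 * Real.exp (-lν j)) := by
      rw [norm_mul, Complex.norm_natCast]; gcongr; exact hx j
    have h7 := norm_add_le ((k : ℂ) * (x j - 2 * Real.pi * Complex.I)) (u (some j))
    have h8 := norm_sub_le ((k : ℂ) * (x j - 2 * Real.pi * Complex.I) + u (some j))
      (Complex.log (1 + w) - Complex.logTaylor (τ j + 1) w)
    rw [hu j] at h7
    linarith
  · have h1 : Complex.exp (k * (2 * Real.pi * Complex.I) + Complex.log (1 + w)) = 1 + w := by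
      rw [Complex.exp_add, Complex.exp_log hw2, Complex.exp_nat_mul_two_pi_mul_I, one_mul]
    rw [Complex.exp_nat_mul, h1, loc, aeval_monomial, map_one, one_mul,
      Finsupp.prod_fintype _ _ (fun _ => pow_zero _), Fintype.prod_option, map_mul, map_prod, mul_comm]
    congr 1
    · refine Finset.prod_congr rfl fun j _ => ?_
      rw [map_pow]
      congr 1
      simp only [Option.elim, map_add, eval_C, eval_X, hL]
      ring
    · simp [hw]

lemma prod_le_exp {ι : Type} [Fintype ι] {f : ι → ℝ} {t : ℝ} (h0 : ∀ i, 0 ≤ f i)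
    (h : ∀ i, f i ≤ Real.exp t) : ∏ i, f i ≤ Real.exp (Fintype.card ι * t) := by
  rw [Real.exp_nat_mul, ← Finset.card_univ, ← Finset.prod_const]
  exact Finset.prod_le_prod (fun i _ => h0 i) fun i _ => h i

lemma exp_le_prod {ι : Type} [Fintype ι] {f : ι → ℝ} {t : ℝ} (h : ∀ i, Real.exp t ≤ f i) :
    Real.exp (Fintype.card ι * t) ≤ ∏ i, f i := by
  rw [Real.exp_nat_mul, ← Finset.card_univ, ← Finset.prod_const]
  exact Finset.prod_le_prod (fun i _ => (Real.exp_pos _).le) fun i _ => h i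

/-- Recipe: `exists_minor`; lower bound `arith`, `lcmUpto_le` (`q j = exp (ℓ j)`, `τ j ≤ ν ℓ j / κ`);
upper bound `det_coeff_le` with radii `exp (-κ)`, `exp (-ν ℓ j)`, `eval_loc_monomial`, `det_eval_le` with
`A = ⌊N⌋₊`.  Write every factor as an exponential (`M! ≤ M^M = exp (M log M)`), take logarithms and use
`wt (ow β ℓ) (col c) ≤ N`, `wt (ow lam ℓ) (row) < θ N`. -/
theorem core {m K : ℕ} {ν κ lam β θ N W ℓ₀ : ℝ} (p : Fin m → ℤ) (q : Fin m → ℕ) (hν : 1 ≤ ν)
    (hκ : 1 ≤ κ) (hlam : 0 < lam) (hβ : 0 < β) (hθ : 0 < θ) (hN : 0 ≤ N) (hW : 0 ≤ W)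
    (hℓ₀ : 1 ≤ ℓ₀) (hq : ∀ j, ℓ₀ ≤ Real.log (q j))
    (happ : ∀ j, |Real.pi - (p j : ℝ) / q j| ≤ Real.exp (-(ν * Real.log (q j))))
    (h : Interp K lam β (fun j => Real.log (q j)) (fun j => ⌊ν * Real.log (q j) / κ⌋₊)
      (fun j => 2 * Complex.I * p j / q j) N (θ * N)) {M : ℝ}
    (hM : M = K * (low (ow lam fun j => Real.log (q j)) (θ * N)).card) :
    (M - (low (ow 1 fun j => ν * Real.log (q j)) W).card) * W ≤
      M * (Real.log M + Real.log 2 + m * Real.log (N + 1) +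
        N * (Real.log (12 * (7 * K + 1) * (2 * K + 3)) / ℓ₀ + 6 * (7 * K + 1) / β + 1 +
          6 * ν / κ + (ν - 1) * θ + κ * θ / lam)) := by
  classical
  set ℓ : Fin m → ℝ := fun j => Real.log (q j) with hℓdef
  have hℓ1 : ∀ j, 1 ≤ ℓ j := fun j => hℓ₀.trans (hq j)
  have hℓ : ∀ j, 0 < ℓ j := fun j => lt_of_lt_of_le one_pos (hℓ1 j)
  have hq0 : ∀ j, 0 < q j := fun j => Nat.pos_of_ne_zero fun h0 => by
    have := hℓ j; simp [hℓdef, h0] at this
  have hqe : ∀ j, (q j : ℝ) = Real.exp (ℓ j) := fun j =>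
    (Real.exp_log (by exact_mod_cast hq0 j)).symm
  have hκ0 : 0 < κ := by linarith
  have hν0 : 0 < ν := by linarith
  set τ : Fin m → ℕ := fun j => ⌊ν * Real.log (q j) / κ⌋₊ with hτdef
  let ι := Fin K × ↥(low (ow lam ℓ) (θ * N))
  obtain ⟨col, hcol, hdet⟩ := h.exists_minor hlam hℓ
  have hcard : (Fintype.card ι : ℝ) = M := by
    rw [hM]; simp [ι]
  have har := arith (fun i : ι => (i.1 : ℕ)) (fun i : ι => (i.2 : Option (Fin m) →₀ ℕ)) col p q hq0 τ
    hdet
  obtain ⟨u, hu, hca⟩ := det_coeff_le (fun i c : ι => loc (fun j => ((i.1 : ℕ) : ℂ) *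
    (2 * Complex.I * p j / q j)) τ (monomial (col c) 1)) (fun i : ι => (i.2 : Option (Fin m) →₀ ℕ))
    (ρ := ow (Real.exp (-κ)) fun j => Real.exp (-(ν * ℓ j)))
    (ow_pos (Real.exp_pos _) fun j => Real.exp_pos _)
  have hx : ∀ j, ‖(2 * Complex.I * p j / q j : ℂ) - 2 * Real.pi * Complex.I‖ ≤
      2 * Real.exp (-(ν * ℓ j)) := fun j => by
    have : (2 * Complex.I * p j / q j : ℂ) - 2 * Real.pi * Complex.I =
        -(2 * Complex.I) * ((Real.pi - (p j : ℝ) / q j : ℝ) : ℂ) := by push_cast; ring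
    rw [this, norm_mul, Complex.norm_real, Real.norm_eq_abs]
    simpa using happ j
  have hτ1 : ∀ j, ν * ℓ j ≤ κ * (τ j + 1) := fun j => by
    have := Nat.lt_floor_add_one (ν * ℓ j / κ)
    rw [div_lt_iff₀ hκ0] at this
    linarith
  have hτ2 : ∀ j, (τ j : ℝ) ≤ ν * ℓ j / κ := fun j => Nat.floor_le (by have := hℓ j; positivity)
  choose z e hz he hev using fun i : ι => eval_loc_monomial (lν := fun j => ν * ℓ j) i.1.2 hκ hτ1 hx
    (u i) (hu i none) fun j => hu i (some j)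
  have hK0 : (0 : ℝ) ≤ K := Nat.cast_nonneg _
  have hc0 : ∀ c, (col c none : ℝ) * β ≤ N ∧ ∑ j, (col c (some j) : ℝ) * ℓ j ≤ N := fun c => by
    have h1 := hcol c
    rw [wt_ow] at h1
    have h2 : 0 ≤ ∑ j, (col c (some j) : ℝ) * ℓ j :=
      Finset.sum_nonneg fun j _ => by have := hℓ j; positivity
    have h3 : 0 ≤ (col c none : ℝ) * β := by positivity
    constructor <;> linarith
  have hr0 : ∀ i : ι, ((i.2 : Option (Fin m) →₀ ℕ) none : ℝ) * lam ≤ θ * N ∧
      ∑ j, ((i.2 : Option (Fin m) →₀ ℕ) (some j) : ℝ) * ℓ j ≤ θ * N := fun i => by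
    have h1 := (mem_low (ow_pos hlam hℓ)).1 i.2.2
    rw [wt_ow] at h1
    have h2 : 0 ≤ ∑ j, ((i.2 : Option (Fin m) →₀ ℕ) (some j) : ℝ) * ℓ j :=
      Finset.sum_nonneg fun j _ => by have := hℓ j; positivity
    have h3 : 0 ≤ ((i.2 : Option (Fin m) →₀ ℕ) none : ℝ) * lam := by positivity
    constructor <;> linarith
  have hA : ∀ c j, col c (some j) ≤ ⌊N⌋₊ := fun c j => by
    refine Nat.le_floor ?_
    have h1 := Finset.single_le_sum (f := fun j => (col c (some j) : ℝ) * ℓ j)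
      (fun j _ => by have := hℓ j; positivity) (Finset.mem_univ j)
    have h2 : (col c (some j) : ℝ) * 1 ≤ col c (some j) * ℓ j := by gcongr; exact hℓ1 j
    linarith [(hc0 c).2]
  have hev' := det_eval_le z e col (r := 7 * K + 1) (Ce := 2 * K + 3) (lν := fun j => ν * ℓ j)
    (by linarith) (by linarith) (fun j => mul_pos hν0 (hℓ j)) hz he hA hW
  simp only [hev] at hca
  set Δ := ‖(Matrix.of fun i c : ι => coeff (i.2 : Option (Fin m) →₀ ℕ) (loc (fun j => ((i.1 : ℕ) : ℂ) *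
    (2 * Complex.I * p j / q j)) τ (monomial (col c) 1))).det‖
  set c₀ := Real.log (12 * (7 * K + 1) * (2 * K + 3)) with hc₀
  have hc₀0 : 0 ≤ c₀ := Real.log_nonneg (by nlinarith)
  have b1 : Real.exp (M * -(N * ((ν - 1) * θ + κ * θ / lam))) ≤
      (∏ i : ι, ∏ j, (q j : ℝ) ^ (i.2 : Option (Fin m) →₀ ℕ) (some j)) *
      ∏ i : ι, ∏ s, ow (Real.exp (-κ)) (fun j => Real.exp (-(ν * ℓ j))) s ^
        (i.2 : Option (Fin m) →₀ ℕ) s := by
    rw [← Finset.prod_mul_distrib, ← hcard]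
    refine exp_le_prod fun i => ?_
    simp only [Fintype.prod_option, ow, Option.elim, hqe, ← Real.exp_nat_mul, ← Real.exp_sum,
      ← Real.exp_add]
    refine Real.exp_le_exp.2 ?_
    obtain ⟨h1, h2⟩ := hr0 i
    have h3 : ∑ j, ((i.2 : Option (Fin m) →₀ ℕ) (some j) : ℝ) * -(ν * ℓ j) =
        -ν * ∑ j, ((i.2 : Option (Fin m) →₀ ℕ) (some j) : ℝ) * ℓ j := by
      rw [Finset.mul_sum]; exact Finset.sum_congr rfl fun j _ => by ring
    have h4 : ((i.2 : Option (Fin m) →₀ ℕ) none : ℝ) * κ ≤ N * (κ * θ / lam) := by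
      rw [← mul_div_assoc, le_div_iff₀ hlam]; nlinarith
    rw [h3]
    nlinarith
  have b2 : ∏ c, ∏ j, ((q j : ℝ) * Nat.lcmUpto (τ j)) ^ col c (some j) ≤
      Real.exp (M * (N * (1 + 6 * ν / κ))) := by
    rw [← hcard]
    refine prod_le_exp (fun c => by positivity) fun c => ?_
    calc ∏ j, ((q j : ℝ) * Nat.lcmUpto (τ j)) ^ col c (some j)
        ≤ ∏ j, (Real.exp (ℓ j * (1 + 6 * ν / κ))) ^ col c (some j) := by
          refine Finset.prod_le_prod (fun j _ => by positivity) fun j _ => ?_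
          gcongr
          calc (q j : ℝ) * Nat.lcmUpto (τ j) ≤ Real.exp (ℓ j) * Real.exp (6 * (ν * ℓ j / κ)) := by
                rw [hqe j]; gcongr
                exact (lcmUpto_le _).trans (Real.exp_le_exp.2 (by linarith [hτ2 j]))
            _ = _ := by rw [← Real.exp_add]; congr 1; ring
      _ ≤ _ := by
          simp only [← Real.exp_nat_mul, ← Real.exp_sum, ← mul_assoc, ← Finset.sum_mul]
          gcongr
          exact (hc0 c).2
  have b3 : ((Fintype.card ι).factorial : ℝ) ≤ Real.exp (M * Real.log M) := by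
    rw [← hcard, Real.exp_nat_mul]
    rcases Nat.eq_zero_or_pos (Fintype.card ι) with h0 | h0
    · simp [h0]
    · rw [Real.exp_log (by exact_mod_cast h0)]
      exact_mod_cast Nat.factorial_le_pow _
  have b4 : (2 * ((⌊N⌋₊ : ℝ) + 1) ^ m) ^ Fintype.card ι ≤
      Real.exp (M * (Real.log 2 + m * Real.log (N + 1))) := by
    rw [← hcard, Real.exp_nat_mul, Real.exp_add, Real.exp_nat_mul, Real.exp_log two_pos,
      Real.exp_log (by linarith)]
    gcongr
    exact Nat.floor_le hN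
  have b5 : ∏ c, (12 * (7 * (K : ℝ) + 1) * (2 * K + 3)) ^ (∑ j, col c (some j)) *
      Real.exp (col c none * (6 * (7 * K + 1))) ≤
      Real.exp (M * (N * (c₀ / ℓ₀ + 6 * (7 * K + 1) / β))) := by
    rw [← hcard]
    refine prod_le_exp (fun c => by positivity) fun c => ?_
    rw [← Real.exp_log (show 0 < 12 * (7 * (K : ℝ) + 1) * (2 * K + 3) by positivity), ← hc₀,
      ← Real.exp_nat_mul, ← Real.exp_add]
    refine Real.exp_le_exp.2 ?_
    obtain ⟨h1, h2⟩ := hc0 c
    have h3 : ((∑ j, col c (some j) : ℕ) : ℝ) ≤ N / ℓ₀ := by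
      rw [le_div_iff₀ (by linarith)]
      push_cast
      rw [Finset.sum_mul]
      exact (Finset.sum_le_sum fun j _ => by gcongr; exact hq j).trans h2
    have h4 : (col c none : ℝ) ≤ N / β := (le_div_iff₀ hβ).2 h1
    calc _ ≤ N / ℓ₀ * c₀ + N / β * (6 * (7 * K + 1)) := by gcongr
      _ = _ := by ring
  set S : ℝ := ((low (ow 1 fun j => ν * ℓ j) W).card : ℝ)
  rw [hcard] at hev'
  have key : Real.exp (M * -(N * ((ν - 1) * θ + κ * θ / lam))) ≤
      Real.exp (M * Real.log M) * Real.exp (M * (Real.log 2 + m * Real.log (N + 1))) *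
        Real.exp (M * (N * (c₀ / ℓ₀ + 6 * (7 * K + 1) / β))) * Real.exp (-((M - S) * W)) *
        Real.exp (M * (N * (1 + 6 * ν / κ))) := by
    refine b1.trans ((mul_le_mul_of_nonneg_right har (Finset.prod_nonneg fun i _ =>
      Finset.prod_nonneg fun s _ => pow_nonneg
        (ow_pos (Real.exp_pos _) (fun j => Real.exp_pos _) s).le _)).trans ?_)
    rw [mul_right_comm]
    refine mul_le_mul (hca.trans (hev'.trans ?_)) b2 (by positivity) (by positivity)
    gcongr
  simp only [← Real.exp_add] at key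
  have := Real.exp_le_exp.1 key
  linarith

end Crest.Agent.R11
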