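import Crest.Agent.R11.Defs

/-!
# Row 11: counting exponent vectors of bounded weight
Recipe for the two bounds: transfer to `σ = Fin d` (`Fintype.equivFin`) or use
`Fintype.induction_empty_option`; split off one coordinate `n` with weight `w₀`:
`#low (x) = ∑_{n w₀ < x} #low' (x - n w₀)`, then telescope with
`y^(d+1) - (max (y - w₀) 0)^(d+1) ≤ (d+1) w₀ y^d ≤ (y + w₀)^(d+1) - y^(d+1)` for `0 ≤ y`.
-/

set_option autoImplicit false

open MvPolynomial

noncomputable section

namespace Crest.Agent.R11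

variable {σ : Type} [Fintype σ]

lemma wt_add (w : σ → ℝ) (α β : σ →₀ ℕ) : wt w (α + β) = wt w α + wt w β := by
  simp [wt, add_mul, Finset.sum_add_distrib]

@[simp] lemma wt_zero (w : σ → ℝ) : wt w 0 = 0 := by simp [wt]

lemma wt_single (w : σ → ℝ) (i : σ) (n : ℕ) : wt w (Finsupp.single i n) = n * w i := by
  classical
  simp [wt, Finsupp.single_apply, ite_mul]

lemma wt_nonneg {w : σ → ℝ} (hw : ∀ i, 0 ≤ w i) (α : σ →₀ ℕ) : 0 ≤ wt w α :=
  Finset.sum_nonneg fun i _ => mul_nonneg (Nat.cast_nonneg _) (hw i)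

lemma le_wt {w : σ → ℝ} (hw : ∀ i, 0 ≤ w i) (α : σ →₀ ℕ) (i : σ) : (α i : ℝ) * w i ≤ wt w α :=
  Finset.single_le_sum (f := fun i => (α i : ℝ) * w i)
    (fun i _ => mul_nonneg (Nat.cast_nonneg _) (hw i)) (Finset.mem_univ i)

lemma wt_ow {m : ℕ} (a : ℝ) (ℓ : Fin m → ℝ) (α : Option (Fin m) →₀ ℕ) :
    wt (ow a ℓ) α = α none * a + ∑ j, (α (some j) : ℝ) * ℓ j := by
  simp [wt, ow, Fintype.sum_option]

lemma ow_pos {m : ℕ} {a : ℝ} {ℓ : Fin m → ℝ} (ha : 0 < a) (hℓ : ∀ j, 0 < ℓ j) (o : Option (Fin m)) :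
    0 < ow a ℓ o := by
  cases o with
  | none => exact ha
  | some j => exact hℓ j

lemma mem_low {w : σ → ℝ} (hw : ∀ i, 0 < w i) {x : ℝ} {α : σ →₀ ℕ} :
    α ∈ low w x ↔ wt w α < x := by
  classical
  simp only [low, Finset.mem_filter, and_iff_right_iff_imp, Finset.mem_map_equiv,
    Equiv.symm_symm, Fintype.mem_piFinset, Finset.mem_range, Finsupp.equivFunOnFinite_apply]
  intro h i
  have h1 := (le_wt (fun i => (hw i).le) α i).trans_lt h
  exact (Nat.lt_ceil.2 ((lt_div_iff₀ (hw i)).2 h1)).trans (Nat.lt_succ_self _)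

lemma Count_pow_le {a b : ℝ} (ha : 0 ≤ a) (hab : a ≤ b) (d : ℕ) :
    b ^ (d + 1) - a ^ (d + 1) ≤ (d + 1) * b ^ d * (b - a) ∧
      (d + 1) * a ^ d * (b - a) ≤ b ^ (d + 1) - a ^ (d + 1) := by
  induction d with
  | zero => simp
  | succ d ih =>
    have hb : 0 ≤ b := ha.trans hab
    have h1 : a ^ (d + 1) ≤ b ^ (d + 1) := pow_le_pow_left₀ ha hab _
    have h2 := mul_le_mul_of_nonneg_left ih.1 hb
    have h3 := mul_le_mul_of_nonneg_left ih.2 ha
    have h4 := mul_le_mul_of_nonneg_right h1 (sub_nonneg.2 hab)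
    push_cast
    constructor
    · calc b ^ (d + 1 + 1) - a ^ (d + 1 + 1)
          = b * (b ^ (d + 1) - a ^ (d + 1)) + a ^ (d + 1) * (b - a) := by ring
        _ ≤ b * ((d + 1) * b ^ d * (b - a)) + b ^ (d + 1) * (b - a) := add_le_add h2 h4
        _ = _ := by ring
    · calc (d + 1 + 1 : ℝ) * a ^ (d + 1) * (b - a)
          = a * ((d + 1) * a ^ d * (b - a)) + a ^ (d + 1) * (b - a) := by ring
        _ ≤ a * (b ^ (d + 1) - a ^ (d + 1)) + b ^ (d + 1) * (b - a) := add_le_add h3 h4
        _ = _ := by ring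

lemma Count_rec {w : Option σ → ℝ} (hw : ∀ i, 0 < w i) (x : ℝ) :
    (low w x).card = ∑ n ∈ Finset.range ⌈x / w none⌉₊,
      (low (fun i => w (some i)) (x - n * w none)).card := by
  classical
  have hw' : ∀ i, 0 < w (some i) := fun i => hw _
  have e : ∀ α : Option σ →₀ ℕ, wt w α = α none * w none + wt (fun i => w (some i)) α.some :=
    fun α => by simp [wt, Fintype.sum_option]
  rw [Finset.card_eq_sum_card_fiberwise (f := fun α => α none)
    (t := Finset.range ⌈x / w none⌉₊) fun α hα => ?_]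
  · refine Finset.sum_congr rfl fun n _ => Finset.card_nbij' (fun α => α.some)
      (fun β => β.optionElim n) (fun α hα => ?_) (fun β hβ => ?_) (fun α hα => ?_) fun β _ => by simp
    · simp only [Finset.coe_filter, Set.mem_ofPred_eq, mem_low hw, Finset.mem_coe, mem_low hw',
        e] at hα ⊢
      rw [← hα.2]; linarith [hα.1]
    · simp only [Finset.coe_filter, Set.mem_ofPred_eq, mem_low hw, Finset.mem_coe, mem_low hw',
        e, Finsupp.optionElim_apply_none, Finsupp.some_optionElim, and_true] at hβ ⊢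
      linarith
    · simp only [Finset.coe_filter, Set.mem_ofPred_eq] at hα
      rw [← hα.2]
      exact Finsupp.optionElim_some α
  · have h1 := (le_wt (fun i => (hw i).le) α none).trans_lt ((mem_low hw).1 hα)
    exact Finset.mem_coe.2 (Finset.mem_range.2 (Nat.lt_ceil.2 ((lt_div_iff₀ (hw _)).2 h1)))

lemma Count_both (σ : Type) [Fintype σ] : ∀ w : σ → ℝ, (∀ i, 0 < w i) → ∀ x : ℝ,
    (0 < x → x ^ Fintype.card σ ≤ (low w x).card * ((Fintype.card σ).factorial * ∏ i, w i)) ∧
    (0 ≤ x → (low w x).card * ((Fintype.card σ).factorial * ∏ i, w i) ≤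
      (x + ∑ i, w i) ^ Fintype.card σ) := by
  classical
  refine Fintype.induction_empty_option (P := fun σ _ => ∀ w : σ → ℝ, (∀ i, 0 < w i) → ∀ x : ℝ,
    (0 < x → x ^ Fintype.card σ ≤ (low w x).card * ((Fintype.card σ).factorial * ∏ i, w i)) ∧
    (0 ≤ x → (low w x).card * ((Fintype.card σ).factorial * ∏ i, w i) ≤
      (x + ∑ i, w i) ^ Fintype.card σ)) ?_ ?_ ?_ σ
  · intro α β _ e ih w hw x
    let _ := Fintype.ofEquiv β e.symm
    have hw' : ∀ i, 0 < w (e i) := fun i => hw _
    have h := ih (fun i => w (e i)) hw' x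
    have hc : (low (fun i => w (e i)) x).card = (low w x).card :=
      Finset.card_equiv (Finsupp.domCongr e).toEquiv fun γ => by
        rw [mem_low hw, mem_low hw', wt, wt, ← e.sum_comp]
        simp
    rwa [hc, Fintype.card_congr e, e.sum_comp w, e.prod_comp w] at h
  · intro w hw x
    have h1 : (low w x).card ≤ 1 := Finset.card_le_one.2 fun _ _ _ _ => Subsingleton.elim _ _
    refine ⟨fun hx => ?_, fun _ => ?_⟩
    · have : 1 ≤ (low w x).card := Finset.card_pos.2 ⟨0, (mem_low hw).2 (by simpa using hx)⟩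
      simpa using this
    · simpa using h1
  · intro α _ ih w hw x
    have ih' := ih (fun i => w (some i)) fun i => hw _
    have h0 := hw none
    rw [Count_rec hw, Fintype.card_option, Fintype.prod_option, Fintype.sum_option,
      Nat.factorial_succ]
    push_cast
    rw [Finset.sum_mul]
    generalize Fintype.card α = d at ih' ⊢
    have hs : 0 ≤ ∑ i, w (some i) := Finset.sum_nonneg fun i _ => (hw _).le
    generalize ∑ i, w (some i) = s at ih' hs ⊢
    generalize ∏ i, w (some i) = P at ih' ⊢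
    have hlt : ∀ n ∈ Finset.range ⌈x / w none⌉₊, 0 < x - n * w none := fun n hn =>
      sub_pos.2 ((lt_div_iff₀ h0).1 (Nat.lt_ceil.1 (Finset.mem_range.1 hn)))
    have hd : (0 : ℝ) ≤ (d + 1) * w none := by positivity
    refine ⟨fun hx => ?_, fun hx => ?_⟩
    · have t := Finset.sum_range_sub' (fun n : ℕ => max (x - n * w none) 0 ^ (d + 1)) ⌈x / w none⌉₊
      have hM : x - ⌈x / w none⌉₊ * w none ≤ 0 :=
        sub_nonpos.2 ((div_le_iff₀ h0).1 (Nat.le_ceil _))
      simp only [Nat.cast_zero, zero_mul, sub_zero, max_eq_left hx.le, max_eq_right hM,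
        zero_pow (Nat.succ_ne_zero d)] at t
      rw [← t]
      refine Finset.sum_le_sum fun n hn => ?_
      have hy := hlt n hn
      have h1 := (ih' _).1 hy
      rw [max_eq_left hy.le]
      push_cast
      rw [show x - (n + 1) * w none = x - n * w none - w none by ring]
      generalize x - n * w none = y at hy h1
      have h2 := (Count_pow_le (le_max_right (y - w none) 0) (max_le (by linarith) hy.le) d).1
      have h3 : y - max (y - w none) 0 ≤ w none := by linarith [le_max_left (y - w none) 0]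
      calc _ ≤ (d + 1) * y ^ d * w none :=
            h2.trans (mul_le_mul_of_nonneg_left h3 (by positivity))
        _ = (d + 1) * w none * y ^ d := by ring
        _ ≤ _ := (mul_le_mul_of_nonneg_left h1 hd).trans_eq (by ring)
    · have t := Finset.sum_range_sub' (fun n : ℕ => (x - n * w none + s + w none) ^ (d + 1))
        ⌈x / w none⌉₊
      have hM : ⌈x / w none⌉₊ * w none ≤ x + w none := by
        have := (Nat.ceil_lt_add_one (div_nonneg hx h0.le)).le
        rw [div_add_one h0.ne', le_div_iff₀ h0] at this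
        exact this
      have hM' : 0 ≤ (x - ⌈x / w none⌉₊ * w none + s + w none) ^ (d + 1) :=
        pow_nonneg (by linarith) _
      simp only [Nat.cast_zero, zero_mul, sub_zero] at t
      rw [show x + (w none + s) = x + s + w none by ring]
      refine le_trans (Finset.sum_le_sum fun n hn => ?_) (t.trans_le (sub_le_self _ hM'))
      have hy := hlt n hn
      have h1 := (ih' _).2 hy.le
      push_cast
      rw [show x - (n + 1) * w none + s + w none = x - n * w none + s by ring]
      generalize x - n * w none = y at hy h1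
      have h2 := (Count_pow_le (a := y + s) (b := y + s + w none) (by positivity)
        (by linarith) d).2
      calc _ = (d + 1) * w none * (_ * (d.factorial * P)) := by ring
        _ ≤ (d + 1) * w none * (y + s) ^ d := mul_le_mul_of_nonneg_left h1 hd
        _ ≤ _ := le_of_eq_of_le (by ring) h2

theorem le_card_low {w : σ → ℝ} (hw : ∀ i, 0 < w i) {x : ℝ} (hx : 0 ≤ x)
    (hσ : 0 < Fintype.card σ) :
    x ^ Fintype.card σ / ((Fintype.card σ).factorial * ∏ i, w i) ≤ (low w x).card := by
  rcases hx.eq_or_lt with rfl | hx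
  · simp [zero_pow hσ.ne']
  · have hP : 0 < ∏ i, w i := Finset.prod_pos fun i _ => hw i
    rw [div_le_iff₀ (by positivity)]
    exact (Count_both σ w hw x).1 hx

theorem card_low_le {w : σ → ℝ} (hw : ∀ i, 0 < w i) {x : ℝ} (hx : 0 ≤ x) :
    ((low w x).card : ℝ) ≤
      (x + ∑ i, w i) ^ Fintype.card σ / ((Fintype.card σ).factorial * ∏ i, w i) := by
  have hP : 0 < ∏ i, w i := Finset.prod_pos fun i _ => hw i
  rw [le_div_iff₀ (by positivity)]
  exact (Count_both σ w hw x).2 hx

end Crest.Agent.R11
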