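import Mathlib

/-!
# Row 11 (S0012): the irrationality exponent of `π` is `2`.  Definitions (FROZEN, owner helper54).

Plan.  Let `x j = 2 i p j / q j` (`j < m`) be very good approximations of `2 π i`, `ℓ j = log (q j)`
rapidly increasing.  `Rg m = ℂ[Y, X₀, …, X_{m-1}]` (`Y = X none`).  At the `K` points
`(Y, X) = (1, k • x)` we use the local coordinates `w = Y - 1`, `U j = X j - k x j - L j (w)`, where
`L j` is a truncation of `log (1 + w)` (`loc`).  Degrees are measured with the weights `β, ℓ j`,
orders of vanishing with the weights `lam, ℓ j`.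
* `Surj`: jets of weight `< θ N` at the `K` points can be prescribed by polynomials of degree `≤ N`
  (Noetherian induction `Noeth`, Roth's Wronskian lemma at the generic point `Roth`, `Prime`).
* `Core`: a non-zero maximal minor is bounded below (`Arith`) and above (`Cauchy`, `Interp`).
* `Final`: choice of the parameters.
-/

set_option autoImplicit false

open MvPolynomial

noncomputable section

namespace Crest.Agent.R11

/-- weight of an exponent vector -/
def wt {σ : Type} [Fintype σ] (w : σ → ℝ) (α : σ →₀ ℕ) : ℝ := ∑ i, (α i : ℝ) * w i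

/-- the weight vector `a` (for `none`), `ℓ j` (for `some j`) -/
def ow {m : ℕ} (a : ℝ) (ℓ : Fin m → ℝ) : Option (Fin m) → ℝ := fun o => o.elim a ℓ

open Classical in
/-- exponent vectors of weight `< x` (for positive weights) -/
def low {σ : Type} [Fintype σ] (w : σ → ℝ) (x : ℝ) : Finset (σ →₀ ℕ) :=
  ((Fintype.piFinset fun i => Finset.range (⌈x / w i⌉₊ + 1)).map
    Finsupp.equivFunOnFinite.symm.toEmbedding).filter fun α => wt w α < x

/-- weighted degree at most `N` -/
def DegLE {σ : Type} [Fintype σ] (w : σ → ℝ) (N : ℝ) (P : MvPolynomial σ ℂ) : Prop :=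
  ∀ α ∈ P.support, wt w α ≤ N

/-- weighted order at least `n` -/
def OrdGE {σ : Type} [Fintype σ] (w : σ → ℝ) (n : ℝ) (P : MvPolynomial σ ℂ) : Prop :=
  ∀ α ∈ P.support, n ≤ wt w α

/-- the polynomial ring in `Y = X none` and `X (some j)` -/
abbrev Rg (m : ℕ) : Type := MvPolynomial (Option (Fin m)) ℂ

/-- the Taylor polynomial of `log (1 + w)` of degree `τ` -/
def Lp (τ : ℕ) : Polynomial ℂ :=
  ∑ t ∈ Finset.range (τ + 1), Polynomial.C ((-1) ^ (t + 1) / (t : ℂ)) * Polynomial.X ^ t

/-- expansion in the local coordinates at the point `(1, x)` -/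
def loc {m : ℕ} (x : Fin m → ℂ) (τ : Fin m → ℕ) : Rg m →ₐ[ℂ] Rg m :=
  aeval fun o => o.elim (1 + X none)
    fun j => C (x j) + X (some j) + Polynomial.aeval (X none : Rg m) (Lp (τ j))

/-- the derivations `D = Y ∂_Y + ∑ ∂_j` (`none`) and `∂_j` (`some j`) -/
def dd (m : ℕ) : Option (Fin m) → Derivation ℂ (Rg m) (Rg m) := fun o =>
  o.elim (mkDerivation ℂ fun o' : Option (Fin m) => o'.elim (X none : Rg m) fun _ => 1)
    fun j => pderiv (some j)

section words

variable {B ι : Type} [CommRing B] [Algebra ℂ B]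

/-- a word in derivations; the head of the list is applied first -/
def wd (δ : ι → Derivation ℂ B B) : List ι → B → B
  | [], f => f
  | i :: l, f => wd δ l (δ i f)

/-- all derivatives of weight `< I` are killed by `φ` -/
def Van {L : Type} [CommRing L] (δ : ι → Derivation ℂ B B) (w : ι → ℝ) (φ : B →+* L) (I : ℝ)
    (f : B) : Prop :=
  ∀ l : List ι, (l.map w).sum < I → φ (wd δ l f) = 0

/-- the common constants of the derivations in the fraction field are the complex numbers -/
def Const (δ : ι → Derivation ℂ B B) : Prop :=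
  ∀ a b : B, b ≠ 0 → (∀ i, b * δ i a = a * δ i b) → ∃ c : ℂ, a = c • b

end words

section coeffwise

variable {A σ : Type} [CommRing A] [Algebra ℂ A]

lemma coeff_cmap_aux (δ : Derivation ℂ A A) (P : MvPolynomial σ A) (β : σ →₀ ℕ) :
    coeff β (∑ α ∈ P.support, monomial α (δ (coeff α P))) = δ (coeff β P) := by
  classical
  simp only [coeff_sum, coeff_monomial, Finset.sum_ite_eq', mem_support_iff]
  split_ifs <;> simp_all

/-- a derivation applied to the coefficients, as a linear map -/
def cmap (δ : Derivation ℂ A A) : MvPolynomial σ A →ₗ[ℂ] MvPolynomial σ A where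
  toFun P := ∑ α ∈ P.support, monomial α (δ (coeff α P))
  map_add' P Q := by
    ext β
    rw [coeff_add, coeff_cmap_aux, coeff_cmap_aux, coeff_cmap_aux, coeff_add, map_add]
  map_smul' c P := by
    ext β
    rw [coeff_smul, coeff_cmap_aux, coeff_cmap_aux, coeff_smul, Derivation.map_smul,
      RingHom.id_apply]

lemma coeff_cmap (δ : Derivation ℂ A A) (P : MvPolynomial σ A) (β : σ →₀ ℕ) :
    coeff β (cmap δ P) = δ (coeff β P) := coeff_cmap_aux δ P β

/-- a derivation applied to the coefficients -/
def cder (δ : Derivation ℂ A A) : Derivation ℂ (MvPolynomial σ A) (MvPolynomial σ A) :=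
  Derivation.mk' (cmap δ) fun P Q => by
    classical
    ext β
    simp only [coeff_cmap, smul_eq_mul, coeff_add, coeff_mul, map_sum, Derivation.leibniz,
      Finset.sum_add_distrib]
    congr 1
    exact Finset.sum_equiv (Equiv.prodComm _ _) (fun p => by simp [add_comm]) fun p _ => rfl

lemma coeff_cder (δ : Derivation ℂ A A) (P : MvPolynomial σ A) (β : σ →₀ ℕ) :
    coeff β (cder δ P) = δ (coeff β P) := coeff_cmap δ P β

/-- the coefficient derivation (`none`) and the partial derivatives (`some j`) -/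
def bd {m : ℕ} (δ : Derivation ℂ A A) :
    Option (Fin m) → Derivation ℂ (MvPolynomial (Fin m) A) (MvPolynomial (Fin m) A) := fun o =>
  o.elim (cder δ) fun j => (pderiv j).restrictScalars ℂ

/-- box degrees at most `D / ℓ i`, and only the variables `i < j` occur -/
def Sup {m : ℕ} (ℓ : Fin m → ℝ) (j : ℕ) (D : ℝ) (P : MvPolynomial (Fin m) A) : Prop :=
  ∀ α ∈ P.support, ∀ i : Fin m, (α i : ℝ) * ℓ i ≤ D ∧ (j ≤ (i : ℕ) → α i = 0)

end coeffwise

/-- jets of weight `< n` at the `K` points can be prescribed in degree `≤ N` -/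
def Interp {m : ℕ} (K : ℕ) (lam β : ℝ) (ℓ : Fin m → ℝ) (τ : Fin m → ℕ) (x : Fin m → ℂ)
    (N n : ℝ) : Prop :=
  ∀ c : Fin K → (Option (Fin m) →₀ ℕ) → ℂ, ∃ G : Rg m, DegLE (ow β ℓ) N G ∧
    ∀ (k : Fin K) (α : Option (Fin m) →₀ ℕ), wt (ow lam ℓ) α < n →
      coeff α (loc (fun j => ((k : ℕ) : ℂ) * x j) τ G) = c k α

end Crest.Agent.R11
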