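import Crest.Agent.R11.Defs

/-!
# Row 11: words in derivations, generalised Wronskians
-/

set_option autoImplicit false

open MvPolynomial

noncomputable section

namespace Crest.Agent.R11

variable {B ι L : Type} [CommRing B] [Algebra ℂ B] [CommRing L] {δ : ι → Derivation ℂ B B}
  {w : ι → ℝ} {φ : B →+* L}

lemma wd_append (l l' : List ι) (f : B) : wd δ (l ++ l') f = wd δ l' (wd δ l f) := by
  induction l generalizing f with
  | nil => rfl
  | cons i l ih => exact ih (δ i f)

lemma wd_add (l : List ι) (f g : B) : wd δ l (f + g) = wd δ l f + wd δ l g := by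
  induction l generalizing f g with
  | nil => rfl
  | cons i l ih =>
    show wd δ l (δ i (f + g)) = wd δ l (δ i f) + wd δ l (δ i g)
    rw [map_add, ih]

lemma wd_smul (l : List ι) (c : ℂ) (f : B) : wd δ l (c • f) = c • wd δ l f := by
  induction l generalizing f with
  | nil => rfl
  | cons i l ih =>
    show wd δ l (δ i (c • f)) = c • wd δ l (δ i f)
    rw [Derivation.map_smul, ih]

lemma wd_zero (l : List ι) : wd δ l 0 = 0 := by
  induction l with
  | nil => rfl
  | cons i l ih =>
    show wd δ l (δ i 0) = 0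
    rw [map_zero, ih]

lemma wd_sum {κ : Type} (l : List ι) (s : Finset κ) (f : κ → B) :
    wd δ l (∑ k ∈ s, f k) = ∑ k ∈ s, wd δ l (f k) := by
  classical
  induction s using Finset.induction_on with
  | empty => simpa using wd_zero l
  | insert a s ha ih => rw [Finset.sum_insert ha, Finset.sum_insert ha, wd_add, ih]

/-- a factor killed by all letters of the word comes out -/
lemma wd_mul_const (l : List ι) (f g : B) (h : ∀ i ∈ l, δ i g = 0) :
    wd δ l (f * g) = wd δ l f * g := by
  induction l generalizing f with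
  | nil => rfl
  | cons i l ih =>
    show wd δ l (δ i (f * g)) = wd δ l (δ i f) * g
    rw [Derivation.leibniz, h i (by simp), smul_zero, zero_add, smul_eq_mul, mul_comm g,
      ih _ (fun j hj => h j (by simp [hj]))]

/-- a property preserved by all derivations is preserved by words -/
lemma wd_induction {p : B → Prop} (h : ∀ i f, p f → p (δ i f)) (l : List ι) {f : B} (hf : p f) :
    p (wd δ l f) := by
  induction l generalizing f with
  | nil => exact hf
  | cons i l ih => exact ih (h i f hf)

/-- naturality -/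
lemma wd_map {B' : Type} [CommRing B'] [Algebra ℂ B'] {δ' : ι → Derivation ℂ B' B'} (ψ : B →+* B')
    (h : ∀ i f, ψ (δ i f) = δ' i (ψ f)) (l : List ι) (f : B) : ψ (wd δ l f) = wd δ' l (ψ f) := by
  induction l generalizing f with
  | nil => rfl
  | cons i l ih =>
    show ψ (wd δ l (δ i f)) = wd δ' l (δ' i (ψ f))
    rw [ih, h]

lemma Van.mono {I I' : ℝ} {f : B} (h : Van δ w φ I f) (hI : I' ≤ I) : Van δ w φ I' f := by
  exact fun l hl => h l (hl.trans_le hI)

lemma Van.of_nonpos (hw : ∀ i, 0 ≤ w i) {I : ℝ} (hI : I ≤ 0) (f : B) : Van δ w φ I f := by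
  intro l hl
  have : 0 ≤ (l.map w).sum := List.sum_nonneg (by
    intro x hx
    obtain ⟨i, -, rfl⟩ := List.mem_map.1 hx
    exact hw i)
  linarith

lemma Van.wd {I : ℝ} {f : B} (h : Van δ w φ I f) (l : List ι) :
    Van δ w φ (I - (l.map w).sum) (wd δ l f) := by
  intro l' hl'
  rw [← wd_append]
  refine h _ ?_
  rw [List.map_append, List.sum_append]
  linarith

lemma Van.add {I : ℝ} {f g : B} (hf : Van δ w φ I f) (hg : Van δ w φ I g) :
    Van δ w φ I (f + g) := by
  intro l hl
  rw [wd_add, map_add, hf l hl, hg l hl, add_zero]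

lemma Van.neg {I : ℝ} {f : B} (hf : Van δ w φ I f) : Van δ w φ I (-f) := by
  intro l hl
  have e : R11.wd δ l (-f) = -R11.wd δ l f := by
    have := wd_smul (δ := δ) l (-1) f
    simpa using this
  rw [e, map_neg, hf l hl, neg_zero]

lemma Van.sum {κ : Type} {I : ℝ} (s : Finset κ) {f : κ → B} (h : ∀ k ∈ s, Van δ w φ I (f k)) :
    Van δ w φ I (∑ k ∈ s, f k) := by
  intro l hl
  rw [wd_sum, map_sum]
  exact Finset.sum_eq_zero fun k hk => h k hk l hl

/-- Leibniz.  Induction on the word, generalising `I, I', f, g`: `δ i f` vanishes to order `I - w i`;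
for the empty word `0 < I + I'` gives `0 < I` or `0 < I'`. -/
lemma Van.mul {I I' : ℝ} {f g : B} (hf : Van δ w φ I f) (hg : Van δ w φ I' g) :
    Van δ w φ (I + I') (f * g) := by
  intro l
  induction l generalizing I I' f g with
  | nil =>
    intro hl
    show φ (f * g) = 0
    simp only [List.map_nil, List.sum_nil] at hl
    rw [map_mul]
    by_cases hI : 0 < I
    · have : φ f = 0 := hf [] (by simpa using hI)
      rw [this, zero_mul]
    · have : φ g = 0 := hg [] (by simp; linarith)
      rw [this, mul_zero]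
  | cons i l ih =>
    intro hl
    show φ (R11.wd δ l (δ i (f * g))) = 0
    simp only [List.map_cons, List.sum_cons] at hl
    have hf' : Van δ w φ (I - w i) (δ i f) := by simpa [R11.wd] using hf.wd [i]
    have hg' : Van δ w φ (I' - w i) (δ i g) := by simpa [R11.wd] using hg.wd [i]
    rw [Derivation.leibniz, smul_eq_mul, smul_eq_mul, wd_add, map_add, mul_comm g,
      ih hf hg' (by linarith), ih hf' hg (by linarith), add_zero]

lemma Van.prod (hw : ∀ i, 0 ≤ w i) {κ : Type} (s : Finset κ) {I : κ → ℝ} {f : κ → B}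
    (h : ∀ k ∈ s, Van δ w φ (I k) (f k)) : Van δ w φ (∑ k ∈ s, I k) (∏ k ∈ s, f k) := by
  classical
  induction s using Finset.induction_on with
  | empty => exact Van.of_nonpos hw (by simp) _
  | insert a s ha ih =>
    rw [Finset.sum_insert ha, Finset.prod_insert ha]
    exact (h a (Finset.mem_insert_self _ _)).mul
      (ih fun k hk => h k (Finset.mem_insert_of_mem hk))

/-- `Matrix.det_apply`; the sign is `1` or `-1` -/
lemma Van.det (hw : ∀ i, 0 ≤ w i) {r : ℕ} {I : Fin r → ℝ} {M : Matrix (Fin r) (Fin r) B}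
    (h : ∀ i j, Van δ w φ (I j) (M i j)) : Van δ w φ (∑ j, I j) M.det := by
  rw [Matrix.det_apply]
  refine Van.sum _ fun σ _ => ?_
  have hp : Van δ w φ (∑ j, I j) (∏ j, M (σ j) j) := Van.prod hw _ fun j _ => h (σ j) j
  rcases Int.units_eq_one_or (Equiv.Perm.sign σ) with e | e
  · rw [e, one_smul]
    exact hp
  · rw [e, Units.neg_smul, one_smul]
    exact hp.neg

/-- a submodule of relations which is stable under the derivations is zero -/
lemma Words_stable_eq_zero [IsDomain B] (hc : Const δ) {r : ℕ} {f : Fin r → B}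
    (hf : LinearIndependent ℂ f) (E : Submodule B (Fin r → B))
    (h0 : ∀ c ∈ E, ∑ j, c j * f j = 0) (hst : ∀ c ∈ E, ∀ t, (fun j => δ t (c j)) ∈ E) :
    ∀ c ∈ E, c = 0 := by
  classical
  have key : ∀ s : ℕ, ∀ c ∈ E, (Finset.univ.filter fun j => c j ≠ 0).card ≤ s → c = 0 := by
    intro s
    induction s with
    | zero =>
      intro c _ hs
      funext j
      by_contra hj
      have : j ∈ Finset.univ.filter fun j => c j ≠ 0 := by simpa using hj
      have := Finset.card_pos.2 ⟨j, this⟩
      omega
    | succ s ih =>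
      intro c hcE hs
      funext j₀
      by_contra hj
      have hj : c j₀ ≠ 0 := hj
      have hrel : ∀ t j, c j₀ * δ t (c j) = c j * δ t (c j₀) := by
        intro t j
        have hm : (c j₀ • (fun j => δ t (c j)) - δ t (c j₀) • c) ∈ E :=
          E.sub_mem (E.smul_mem _ (hst c hcE t)) (E.smul_mem _ hcE)
        have hsub : (Finset.univ.filter fun j =>
            (c j₀ • (fun j => δ t (c j)) - δ t (c j₀) • c) j ≠ 0) ⊆
            (Finset.univ.filter fun j => c j ≠ 0).erase j₀ := by
          intro j hj'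
          simp only [Finset.mem_filter, Finset.mem_univ, true_and, Pi.sub_apply, Pi.smul_apply,
            smul_eq_mul] at hj'
          simp only [Finset.mem_erase, Finset.mem_filter, Finset.mem_univ, true_and]
          refine ⟨fun e => hj' (by rw [e]; ring), fun e => hj' (by rw [e]; simp)⟩
        have hcard := Finset.card_le_card hsub
        rw [Finset.card_erase_of_mem (by simpa using hj)] at hcard
        have := congrFun (ih _ hm (by omega)) j
        simp only [Pi.sub_apply, Pi.smul_apply, smul_eq_mul, Pi.zero_apply] at this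
        linear_combination this
      choose κ hκ using fun j => hc (c j) (c j₀) hj (fun t => hrel t j)
      have h1 : c j₀ * ∑ j, κ j • f j = 0 := by
        rw [← h0 c hcE, Finset.mul_sum]
        refine Finset.sum_congr rfl fun j _ => ?_
        conv_rhs => rw [hκ j]
        simp
      have h2 := Fintype.linearIndependent_iff.1 hf κ ((mul_eq_zero.1 h1).resolve_left hj) j₀
      have h3 := hκ j₀
      rw [h2, zero_smul] at h3
      exact hj h3
  exact fun c hcE => key _ c hcE le_rfl

lemma Words_step [IsDomain B] (hc : Const δ) {r : ℕ} {f : Fin r → B}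
    (hf : LinearIndependent ℂ f) {n : ℕ} (hn : n < r) (l : Fin n → List ι)
    (hl : ∀ i, (l i).length ≤ i) (hli : LinearIndependent B fun i j => wd δ (l i) (f j)) :
    ∃ l' : List ι, l'.length ≤ n ∧ LinearIndependent B
      fun (i : Fin (n + 1)) j => wd δ ((Fin.snoc l l' : Fin (n + 1) → List ι) i) (f j) := by
  by_contra hcon
  push Not at hcon
  let Φ : (Fin r → B) →ₗ[B] (Fin n → B) :=
    { toFun := fun c i => ∑ j, c j * wd δ (l i) (f j)
      map_add' := fun c c' => by
        funext i
        simp [add_mul, Finset.sum_add_distrib]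
      map_smul' := fun a c => by
        funext i
        simp [Finset.mul_sum, mul_assoc] }
  have hΦ : ∀ c, c ∈ LinearMap.ker Φ ↔ ∀ i, ∑ j, c j * wd δ (l i) (f j) = 0 := fun c => by
    rw [LinearMap.mem_ker, funext_iff]
    rfl
  have hall : ∀ c ∈ LinearMap.ker Φ, ∀ l' : List ι, l'.length ≤ n →
      ∑ j, c j * wd δ l' (f j) = 0 := by
    intro c hcE l' hl'
    have h1 := hcon l' hl'
    rw [Fintype.linearIndependent_iff] at h1
    push Not at h1
    obtain ⟨g, hg, i₀, hi₀⟩ := h1
    rw [Fin.sum_univ_castSucc] at hg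
    simp only [Fin.snoc_castSucc, Fin.snoc_last] at hg
    have hlast : g (Fin.last n) ≠ 0 := by
      intro e
      rw [e, zero_smul, add_zero] at hg
      have h2 := Fintype.linearIndependent_iff.1 hli _ hg
      refine hi₀ ?_
      induction i₀ using Fin.lastCases with
      | last => exact e
      | cast i => exact h2 i
    have h3 : g (Fin.last n) * ∑ j, c j * wd δ l' (f j) = 0 := by
      have h4 : ∀ j, g (Fin.last n) * wd δ l' (f j) =
          -∑ i : Fin n, g i.castSucc * wd δ (l i) (f j) := by
        intro j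
        have := congrFun hg j
        simp only [Pi.add_apply, Finset.sum_apply, Pi.smul_apply, smul_eq_mul,
          Pi.zero_apply] at this
        linear_combination this
      calc g (Fin.last n) * ∑ j, c j * wd δ l' (f j)
          = ∑ j, c j * (g (Fin.last n) * wd δ l' (f j)) := by
            rw [Finset.mul_sum]
            exact Finset.sum_congr rfl fun j _ => by ring
        _ = -∑ i : Fin n, g i.castSucc * ∑ j, c j * wd δ (l i) (f j) := by
            simp only [h4, mul_neg, Finset.sum_neg_distrib, Finset.mul_sum]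
            rw [Finset.sum_comm]
            exact congrArg _ (Finset.sum_congr rfl fun i _ =>
              Finset.sum_congr rfl fun j _ => by ring)
        _ = 0 := by simp [(hΦ c).1 hcE]
    exact (mul_eq_zero.1 h3).resolve_left hlast
  have hker : LinearMap.ker Φ ≠ ⊥ := by
    intro h
    have := LinearMap.finrank_le_finrank_of_injective (f := Φ) (LinearMap.ker_eq_bot.1 h)
    simp at this
    omega
  refine hker (Submodule.eq_bot_iff _ |>.2 ?_)
  refine Words_stable_eq_zero hc hf _ (fun c hcE => hall c hcE [] (by simp)) fun c hcE t => ?_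
  rw [hΦ]
  intro i
  have h1 := congrArg (δ t) ((hΦ c).1 hcE i)
  have h2 := hall c hcE (l i ++ [t]) (by
    have := hl i
    have := i.2
    simp only [List.length_append, List.length_cons, List.length_nil]
    omega)
  simp only [wd_append] at h2
  simp only [map_sum, Derivation.leibniz, smul_eq_mul, map_zero, Finset.sum_add_distrib] at h1
  have h3 : ∑ j, c j * δ t (wd δ (l i) (f j)) = 0 := h2
  rw [h3, zero_add] at h1
  rw [← h1]
  exact Finset.sum_congr rfl fun j _ => mul_comm _ _

/-- Generalised Wronskians.  Recipe: show by induction on `n ≤ r` that there are words `l 0, …, l (n-1)`,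
`(l i).length ≤ i`, whose vectors `v l = fun j => wd δ l (f j)` are linearly independent over `B`.
Step (`n < r`): otherwise every `v l` with `l.length ≤ n` has a non-zero multiple in the span of the
`v (l i)`.  Let `E = {c : Fin r → B | ∀ i < n, ∑ j, c j * v (l i) j = 0}`; `E ≠ 0` as `n < r`
(pass to the fraction field, or `Matrix.exists_mulVec_eq_zero_iff` after padding with zero rows).
For `c ∈ E` we get `∑ j, c j * v l j = 0` for all `l.length ≤ n`, hence (differentiate, `wd_append`)
`δ t ∘ c ∈ E`.  Take `c ∈ E`, `c ≠ 0` of minimal support, `c j₀ ≠ 0`: `c j₀ • δ t c - δ t (c j₀) • c ∈ E`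
has smaller support, so vanishes; `Const` gives `c j = κ j • c j₀`, and `∑ j, c j * f j = 0`
(`l = []`) contradicts the independence over `ℂ`.  At the end use
`Matrix.linearIndependent_rows_iff_isUnit` over the fraction field or
`Matrix.exists_vecMul_eq_zero_iff`. -/
theorem exists_wronskian [IsDomain B] (hc : Const δ) {r : ℕ} {f : Fin r → B}
    (hf : LinearIndependent ℂ f) :
    ∃ l : Fin r → List ι, (∀ i, (l i).length ≤ i) ∧
      (Matrix.of fun i j => wd δ (l i) (f j)).det ≠ 0 := by
  have key : ∀ n ≤ r, ∃ l : Fin n → List ι, (∀ i, (l i).length ≤ i) ∧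
      LinearIndependent B fun i j => wd δ (l i) (f j) := by
    intro n
    induction n with
    | zero => exact fun _ => ⟨Fin.elim0, fun i => i.elim0, linearIndependent_empty_type⟩
    | succ n ih =>
      intro hn
      obtain ⟨l, hl, hli⟩ := ih (by omega)
      obtain ⟨l', hl', hli'⟩ := Words_step hc hf (by omega) l hl hli
      refine ⟨Fin.snoc l l', fun i => ?_, hli'⟩
      induction i using Fin.lastCases with
      | last => simpa using hl'
      | cast i => simpa using hl i
  obtain ⟨l, hl, hli⟩ := key r le_rfl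
  refine ⟨l, hl, fun hdet => ?_⟩
  obtain ⟨u, hu, hz⟩ := Matrix.exists_vecMul_eq_zero_iff.2 hdet
  refine hu (funext fun i => Fintype.linearIndependent_iff.1 hli u ?_ i)
  funext j
  have := congrFun hz j
  simpa [Matrix.vecMul, dotProduct] using this

lemma Words_reduce (S T : Submodule ℂ B) {r : ℕ} {f g : Fin (r + 1) → B} (hf : ∀ k, f k ∈ S)
    (hg : ∀ k, g k ∈ T) (h : ¬ LinearIndependent ℂ f) :
    ∃ f' g' : Fin r → B, (∀ k, f' k ∈ S) ∧ (∀ k, g' k ∈ T) ∧
      ∑ k, f k * g k = ∑ k, f' k * g' k := by
  rw [Fintype.linearIndependent_iff] at h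
  push Not at h
  obtain ⟨a, ha, k₀, hk₀⟩ := h
  refine ⟨fun k => f (k₀.succAbove k),
    fun k => g (k₀.succAbove k) - (a (k₀.succAbove k) / a k₀) • g k₀, fun k => hf _,
    fun k => T.sub_mem (hg _) (T.smul_mem _ (hg _)), ?_⟩
  rw [Fin.sum_univ_succAbove _ k₀] at ha ⊢
  have e : f k₀ = -∑ k : Fin r, (a (k₀.succAbove k) / a k₀) • f (k₀.succAbove k) := by
    have h1 : a k₀ • f k₀ = -∑ k : Fin r, a (k₀.succAbove k) • f (k₀.succAbove k) :=
      eq_neg_of_add_eq_zero_left ha
    have h2 : f k₀ = (a k₀)⁻¹ • (a k₀ • f k₀) := by rw [smul_smul, inv_mul_cancel₀ hk₀, one_smul]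
    rw [h2, h1, smul_neg, Finset.smul_sum]
    refine congrArg _ (Finset.sum_congr rfl fun k _ => ?_)
    rw [smul_smul, div_eq_inv_mul]
  rw [e]
  simp only [mul_sub, Finset.sum_sub_distrib, neg_mul, Finset.sum_mul, smul_mul_assoc,
    mul_smul_comm]
  ring

lemma Words_indep_fin (S T : Submodule ℂ B) (n : ℕ) : ∀ {f g : Fin n → B}, (∀ k, f k ∈ S) →
    (∀ k, g k ∈ T) → ∃ (r : ℕ) (f' g' : Fin r → B), (∀ k, f' k ∈ S) ∧ (∀ k, g' k ∈ T) ∧
      LinearIndependent ℂ f' ∧ LinearIndependent ℂ g' ∧ ∑ k, f k * g k = ∑ k, f' k * g' k := by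
  induction n with
  | zero =>
    intro f g hf hg
    exact ⟨0, f, g, hf, hg, linearIndependent_empty_type, linearIndependent_empty_type, rfl⟩
  | succ n ih =>
    intro f g hf hg
    by_cases h1 : LinearIndependent ℂ f
    · by_cases h2 : LinearIndependent ℂ g
      · exact ⟨n + 1, f, g, hf, hg, h1, h2, rfl⟩
      · obtain ⟨g', f', hg', hf', e⟩ := Words_reduce T S hg hf h2
        obtain ⟨r, f'', g'', a, b, c, d, e'⟩ := ih hf' hg'
        refine ⟨r, f'', g'', a, b, c, d, ?_⟩
        rw [← e']
        simp only [mul_comm (f _), mul_comm (f' _), e]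
    · obtain ⟨f', g', hf', hg', e⟩ := Words_reduce S T hf hg h1
      obtain ⟨r, f'', g'', a, b, c, d, e'⟩ := ih hf' hg'
      exact ⟨r, f'', g'', a, b, c, d, e.trans e'⟩

/-- a sum of products with both families linearly independent (take a representation of minimal
length) -/
theorem exists_indep_rep (S T : Submodule ℂ B) {κ : Type} (s : Finset κ) {f g : κ → B}
    (hf : ∀ k ∈ s, f k ∈ S) (hg : ∀ k ∈ s, g k ∈ T) :
    ∃ (r : ℕ) (f' g' : Fin r → B), (∀ k, f' k ∈ S) ∧ (∀ k, g' k ∈ T) ∧ LinearIndependent ℂ f' ∧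
      LinearIndependent ℂ g' ∧ ∑ k ∈ s, f k * g k = ∑ k, f' k * g' k := by
  obtain ⟨r, f', g', a, b, c, d, e⟩ := Words_indep_fin S T s.card
    (f := fun k => f (s.equivFin.symm k)) (g := fun k => g (s.equivFin.symm k))
    (fun k => hf _ (s.equivFin.symm k).2) (fun k => hg _ (s.equivFin.symm k).2)
  refine ⟨r, f', g', a, b, c, d, ?_⟩
  rw [← e, ← Finset.sum_coe_sort s]
  exact (Equiv.sum_comp s.equivFin.symm (fun k : s => f k * g k)).symm

end Crest.Agent.R11
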