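import Crest.Agent.R11.Count
import Crest.Agent.R11.Words

/-!
# Row 11: the degree and order filtrations, local coordinates
-/

set_option autoImplicit false

open MvPolynomial

noncomputable section

namespace Crest.Agent.R11

section
variable {σ : Type} [Fintype σ] {w : σ → ℝ} {a b : ℝ} {P Q : MvPolynomial σ ℂ}

lemma DegLE.zero : DegLE w a 0 := fun α hα => by simp at hα
lemma DegLE.mono (h : DegLE w a P) (hab : a ≤ b) : DegLE w b P :=
  fun α hα => (h α hα).trans hab
lemma DegLE.add (hP : DegLE w a P) (hQ : DegLE w a Q) : DegLE w a (P + Q) := by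
  classical
  intro α hα
  rcases Finset.mem_union.1 (support_add hα) with h | h
  exacts [hP α h, hQ α h]
lemma DegLE.neg (hP : DegLE w a P) : DegLE w a (-P) :=
  fun α hα => hP α (by rwa [support_neg] at hα)
lemma DegLE.smul (c : ℂ) (hP : DegLE w a P) : DegLE w a (c • P) :=
  fun α hα => hP α (support_smul hα)
lemma DegLE.sum {κ : Type} (s : Finset κ) {f : κ → MvPolynomial σ ℂ} (h : ∀ k ∈ s, DegLE w a (f k)) :
    DegLE w a (∑ k ∈ s, f k) :=
  Finset.sum_induction f (DegLE w a) (fun _ _ => DegLE.add) DegLE.zero h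
lemma DegLE.mul (hP : DegLE w a P) (hQ : DegLE w b Q) : DegLE w (a + b) (P * Q) := by
  classical
  intro α hα
  obtain ⟨β, hβ, γ, hγ, rfl⟩ := Finset.mem_add.1 (support_mul P Q hα)
  rw [wt_add]
  exact add_le_add (hP β hβ) (hQ γ hγ)
lemma DegLE.monomial {α : σ →₀ ℕ} (h : wt w α ≤ a) (c : ℂ) : DegLE w a (monomial α c) := by
  intro β hβ
  rw [Finset.mem_singleton.1 (support_monomial_subset hβ)]
  exact h
lemma Filt_degLE_C (ha : 0 ≤ a) (c : ℂ) : DegLE w a (C c) :=
  DegLE.monomial (α := 0) (by rwa [wt_zero]) c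
lemma Filt_degLE_one (ha : 0 ≤ a) : DegLE w a 1 := Filt_degLE_C ha 1
lemma Filt_degLE_X (i : σ) : DegLE w (w i) (X i) :=
  DegLE.monomial (α := Finsupp.single i 1) (by rw [wt_single]; simp) 1
lemma DegLE.pow (hP : DegLE w a P) (n : ℕ) : DegLE w (n * a) (P ^ n) := by
  induction n with
  | zero => rw [pow_zero]; exact Filt_degLE_one (by simp)
  | succ n ih => rw [pow_succ, Nat.cast_succ, add_mul, one_mul]; exact ih.mul hP
lemma DegLE.prod {κ : Type} (s : Finset κ) {f : κ → MvPolynomial σ ℂ} {d : κ → ℝ}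
    (h : ∀ k ∈ s, DegLE w (d k) (f k)) : DegLE w (∑ k ∈ s, d k) (∏ k ∈ s, f k) := by
  classical
  induction s using Finset.induction_on with
  | empty => rw [Finset.prod_empty, Finset.sum_empty]; exact Filt_degLE_one le_rfl
  | insert k s hk ih =>
    rw [Finset.prod_insert hk, Finset.sum_insert hk]
    exact (h k (Finset.mem_insert_self _ _)).mul (ih fun j hj => h j (Finset.mem_insert_of_mem hj))
lemma exists_degLE (w : σ → ℝ) (P : MvPolynomial σ ℂ) : ∃ a, 0 ≤ a ∧ DegLE w a P :=
  ⟨∑ α ∈ P.support, |wt w α|, Finset.sum_nonneg fun _ _ => abs_nonneg _, fun _ hα =>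
    (le_abs_self _).trans (Finset.single_le_sum (f := fun α => |wt w α|)
      (fun _ _ => abs_nonneg _) hα)⟩

lemma Filt_wt_neg (w : σ → ℝ) (α : σ →₀ ℕ) : wt (-w) α = -wt w α := by
  simp [wt]

lemma Filt_ord_iff : OrdGE w a P ↔ DegLE (-w) (-a) P := by
  simp only [OrdGE, DegLE, Filt_wt_neg, neg_le_neg_iff]

lemma OrdGE.zero : OrdGE w a 0 := fun α hα => by simp at hα
lemma OrdGE.of_nonpos (hw : ∀ i, 0 ≤ w i) (ha : a ≤ 0) (P : MvPolynomial σ ℂ) : OrdGE w a P :=
  fun α _ => ha.trans (wt_nonneg hw α)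
lemma OrdGE.mono (h : OrdGE w a P) (hab : b ≤ a) : OrdGE w b P :=
  fun α hα => hab.trans (h α hα)
lemma OrdGE.add (hP : OrdGE w a P) (hQ : OrdGE w a Q) : OrdGE w a (P + Q) :=
  Filt_ord_iff.2 ((Filt_ord_iff.1 hP).add (Filt_ord_iff.1 hQ))
lemma OrdGE.neg (hP : OrdGE w a P) : OrdGE w a (-P) :=
  Filt_ord_iff.2 (Filt_ord_iff.1 hP).neg
lemma OrdGE.smul (c : ℂ) (hP : OrdGE w a P) : OrdGE w a (c • P) :=
  Filt_ord_iff.2 ((Filt_ord_iff.1 hP).smul c)
lemma OrdGE.sum {κ : Type} (s : Finset κ) {f : κ → MvPolynomial σ ℂ} (h : ∀ k ∈ s, OrdGE w a (f k)) :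
    OrdGE w a (∑ k ∈ s, f k) :=
  Finset.sum_induction f (OrdGE w a) (fun _ _ => OrdGE.add) OrdGE.zero h
lemma OrdGE.mul (hP : OrdGE w a P) (hQ : OrdGE w b Q) : OrdGE w (a + b) (P * Q) :=
  Filt_ord_iff.2 (((Filt_ord_iff.1 hP).mul (Filt_ord_iff.1 hQ)).mono (by linarith))
lemma OrdGE.monomial {α : σ →₀ ℕ} (h : a ≤ wt w α) (c : ℂ) : OrdGE w a (monomial α c) :=
  Filt_ord_iff.2 (DegLE.monomial (by rwa [Filt_wt_neg, neg_le_neg_iff]) c)
lemma OrdGE.pow (hP : OrdGE w a P) (n : ℕ) : OrdGE w (n * a) (P ^ n) :=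
  Filt_ord_iff.2 (((Filt_ord_iff.1 hP).pow n).mono (by linarith))
lemma ordGE_iff : OrdGE w a P ↔ ∀ α, wt w α < a → coeff α P = 0 :=
  ⟨fun h α hα => by_contra fun h' => absurd (h α (mem_support_iff.2 h')) (not_le.2 hα),
    fun h α hα => not_lt.1 fun h' => mem_support_iff.1 hα (h α h')⟩
/-- a polynomial without constant term has order at least the smallest weight -/
lemma OrdGE.of_constantCoeff (ha : 0 ≤ a) (hw : ∀ i, a ≤ w i) (h : constantCoeff P = 0) :
    OrdGE w a P := by
  intro α hα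
  have h0 : α ≠ 0 := by
    rintro rfl
    exact mem_support_iff.1 hα h
  obtain ⟨i, hi⟩ := Finsupp.ne_iff.1 h0
  have h1 : (1 : ℝ) ≤ α i := by exact_mod_cast Nat.one_le_iff_ne_zero.2 hi
  have h2 := le_wt (fun i => ha.trans (hw i)) α i
  nlinarith [hw i]

lemma Filt_deriv (δ : Derivation ℂ (MvPolynomial σ ℂ) (MvPolynomial σ ℂ)) {c : ℝ}
    (h : ∀ i, DegLE w (w i + c) (δ (X i))) (hP : DegLE w b P) : DegLE w (b + c) (δ P) := by
  have key : ∀ α : σ →₀ ℕ, DegLE w (wt w α + c) (δ (monomial α 1)) := by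
    intro α
    induction α using Finsupp.induction_linear with
    | zero => rw [monomial_zero', C_1, Derivation.map_one_eq_zero]; exact DegLE.zero
    | add α β hα hβ =>
      rw [← one_mul (1 : ℂ), ← monomial_mul, Derivation.leibniz, smul_eq_mul, smul_eq_mul, wt_add]
      exact (((DegLE.monomial le_rfl 1).mul hβ).mono (by linarith)).add
        (((DegLE.monomial le_rfl 1).mul hα).mono (by linarith))
    | single i n =>
      rw [← X_pow_eq_monomial, Derivation.leibniz_pow, wt_single]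
      rcases n with _ | n
      · rw [zero_smul]; exact DegLE.zero
      · rw [← Nat.cast_smul_eq_nsmul ℂ, smul_eq_mul, Nat.add_sub_cancel]
        refine ((((Filt_degLE_X i).pow n).mul (h i)).mono (le_of_eq ?_)).smul _
        push_cast
        ring
  rw [P.as_sum, map_sum]
  refine DegLE.sum _ fun α hα => ?_
  rw [← mul_one (coeff α P), ← smul_eq_mul, ← smul_monomial, Derivation.map_smul]
  exact ((key α).mono (by linarith [hP α hα])).smul _

/-- Recipe: reduce to monomials (`P.as_sum`, `Derivation` is additive); for a monomial use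
`monomial_eq`/induction on the exponent with the two statements `OrdGE (wt α) (monomial α c)` and
`OrdGE (wt α - a) (δ (monomial α c))`, Leibniz. -/
lemma OrdGE.deriv (δ : Derivation ℂ (MvPolynomial σ ℂ) (MvPolynomial σ ℂ))
    (h : ∀ i, OrdGE w (w i - a) (δ (X i))) (hP : OrdGE w b P) : OrdGE w (b - a) (δ P) :=
  Filt_ord_iff.2 ((Filt_deriv δ (c := a)
    (fun i => (Filt_ord_iff.1 (h i)).mono (by rw [Pi.neg_apply]; linarith))
    (Filt_ord_iff.1 hP)).mono (by linarith))

lemma DegLE.deriv (δ : Derivation ℂ (MvPolynomial σ ℂ) (MvPolynomial σ ℂ))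
    (h : ∀ i, DegLE w (w i) (δ (X i))) (hP : DegLE w b P) : DegLE w b (δ P) :=
  (Filt_deriv δ (c := 0) (fun i => (h i).mono (by linarith)) hP).mono (by linarith)

end

variable {m : ℕ}

lemma DegLE.dd {β : ℝ} {ℓ : Fin m → ℝ} (hβ : 0 ≤ β) (hℓ : ∀ j, 0 ≤ ℓ j) {N : ℝ} {P : Rg m}
    (hP : DegLE (ow β ℓ) N P) (o : Option (Fin m)) : DegLE (ow β ℓ) N (dd m o P) := by
  classical
  refine DegLE.deriv _ (fun o' => ?_) hP
  have h0 : 0 ≤ ow β ℓ o' := by
    cases o' with
    | none => exact hβ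
    | some j => exact hℓ j
  cases o with
  | none =>
    cases o' with
    | none => simpa [R11.dd] using Filt_degLE_X (w := ow β ℓ) none
    | some j => simpa [R11.dd] using Filt_degLE_one (w := ow β ℓ) h0
  | some j =>
    by_cases h : o' = some j
    · subst h
      simpa [R11.dd] using Filt_degLE_one (w := ow β ℓ) h0
    · simpa [R11.dd, pderiv_X_of_ne h] using DegLE.zero

/-- `(1 + X) * derivative (Lp τ) = 1 - (-X)^τ` -/
lemma derivative_Lp (τ : ℕ) :
    (1 + Polynomial.X) * Polynomial.derivative (Lp τ) = 1 - (-Polynomial.X) ^ τ := by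
  induction τ with
  | zero => simp [Lp]
  | succ τ ih =>
    have h : Lp (τ + 1) = Lp τ +
        Polynomial.C ((-1) ^ (τ + 1 + 1) / ((τ + 1 : ℕ) : ℂ)) * Polynomial.X ^ (τ + 1) := by
      rw [Lp, Finset.sum_range_succ, Lp]
    have h2 : ((τ + 1 : ℕ) : ℂ) ≠ 0 := by exact_mod_cast τ.succ_ne_zero
    rw [h, Polynomial.derivative_add, mul_add, ih, Polynomial.derivative_C_mul_X_pow,
      div_mul_cancel₀ _ h2, Nat.add_sub_cancel, Polynomial.C_pow, Polynomial.C_neg, Polynomial.C_1,
      neg_pow (Polynomial.X : Polynomial ℂ) τ, neg_pow (Polynomial.X : Polynomial ℂ) (τ + 1)]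
    ring

lemma Lp_coeff_zero (τ : ℕ) : (Lp τ).coeff 0 = 0 := by
  rw [Lp, Polynomial.finsetSum_coeff]
  refine Finset.sum_eq_zero fun t _ => ?_
  rw [Polynomial.coeff_C_mul_X_pow]
  split_ifs with h
  · rw [← h]; simp
  · rfl

lemma Filt_dvd_Lp (τ : ℕ) (y : Rg m) : y ∣ Polynomial.aeval y (Lp τ) := by
  simpa using map_dvd (Polynomial.aeval y) (Polynomial.X_dvd_iff.2 (Lp_coeff_zero τ))

lemma Filt_loc_none (x : Fin m → ℂ) (τ : Fin m → ℕ) : loc x τ (X none) = 1 + X none := by
  simp [loc]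

lemma Filt_loc_some (x : Fin m → ℂ) (τ : Fin m → ℕ) (j : Fin m) : loc x τ (X (some j)) =
    C (x j) + X (some j) + Polynomial.aeval (X none : Rg m) (Lp (τ j)) := by
  simp [loc]

lemma Filt_loc_C (x : Fin m → ℂ) (τ : Fin m → ℕ) (c : ℂ) : loc x τ (C c) = C c := by
  simp [loc]

lemma Filt_intertwine (φ : Rg m →ₐ[ℂ] Rg m) (δ δ' : Derivation ℂ (Rg m) (Rg m))
    (h : ∀ o, φ (δ (X o)) = δ' (φ (X o))) (P : Rg m) : φ (δ P) = δ' (φ P) := by
  induction P using MvPolynomial.induction_on with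
  | C c => simp
  | add P Q hP hQ => simp [hP, hQ]
  | mul_X P o hP => simp [hP, h o]

/-- Recipe: `loc x τ (dd m o f) = δ' (loc x τ f)` with `δ' = pderiv (some j)` for `o = some j` and
`δ' = mkDerivation (none ↦ 1 + X none, some j ↦ (-X none)^(τ j))` for `o = none`
(`derivative_Lp`, `Derivation.map_aeval`/`Polynomial.aeval` chain rule); then `OrdGE.deriv`. -/
lemma ordGE_loc_dd {lam : ℝ} {ℓ : Fin m → ℝ} (hlam : 0 ≤ lam) (hℓ : ∀ j, 0 ≤ ℓ j) {τ : Fin m → ℕ}
    (hτ : ∀ j, ℓ j ≤ (τ j + 1) * lam) (x : Fin m → ℂ) {n : ℝ} {P : Rg m}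
    (hP : OrdGE (ow lam ℓ) n (loc x τ P)) (o : Option (Fin m)) :
    OrdGE (ow lam ℓ) (n - ow lam ℓ o) (loc x τ (dd m o P)) := by
  classical
  have hw : ∀ o', 0 ≤ ow lam ℓ o' := fun o' => by
    cases o' with
    | none => exact hlam
    | some j => exact hℓ j
  cases o with
  | none =>
    rw [Filt_intertwine (loc x τ) (dd m none) (mkDerivation ℂ fun o' : Option (Fin m) =>
      o'.elim (1 + X none : Rg m) fun j => (-X none) ^ τ j) fun o' => ?_]
    · refine OrdGE.deriv _ (fun o' => ?_) hP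
      cases o' with
      | none => exact OrdGE.of_nonpos hw (by simp) _
      | some j =>
        rw [mkDerivation_X]
        have h1 : OrdGE (ow lam ℓ) lam (X none : Rg m) :=
          OrdGE.monomial (α := Finsupp.single none 1) (by rw [wt_single]; simp [ow]) 1
        refine (h1.neg.pow (τ j)).mono ?_
        have := hτ j
        simp only [ow, Option.elim]
        linarith
    · cases o' with
      | none => simp [dd, Filt_loc_none]
      | some j =>
        have h1 := congrArg (Polynomial.aeval (X none : Rg m)) (derivative_Lp (τ j))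
        simp only [map_mul, map_add, map_one, map_sub, map_pow, map_neg, Polynomial.aeval_X] at h1
        rw [Filt_loc_some, map_add, map_add, Derivation.map_aeval, mkDerivation_X, mkDerivation_X,
          derivation_C, smul_eq_mul, mul_comm]
        simp only [Option.elim, h1]
        simp [dd]
  | some j =>
    rw [Filt_intertwine (loc x τ) (dd m (some j)) (pderiv (some j)) fun o' => ?_]
    · refine OrdGE.deriv _ (fun o' => ?_) hP
      by_cases h : o' = some j
      · exact OrdGE.of_nonpos hw (by simp [h]) _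
      · rw [pderiv_X_of_ne h]; exact OrdGE.zero
    · cases o' with
      | none => simp [dd, Filt_loc_none]
      | some i =>
        rw [Filt_loc_some, map_add, map_add, Derivation.map_aeval]
        by_cases h : i = j
        · subst h; simp [dd]
        · simp [dd, h]

lemma DegLE.wd {β : ℝ} {ℓ : Fin m → ℝ} (hβ : 0 ≤ β) (hℓ : ∀ j, 0 ≤ ℓ j) {N : ℝ} {P : Rg m}
    (hP : DegLE (ow β ℓ) N P) (l : List (Option (Fin m))) : DegLE (ow β ℓ) N (wd (R11.dd m) l P) := by
  induction l generalizing P with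
  | nil => exact hP
  | cons o l ih => exact ih (hP.dd hβ hℓ o)

lemma ordGE_loc_wd {lam : ℝ} {ℓ : Fin m → ℝ} (hlam : 0 ≤ lam) (hℓ : ∀ j, 0 ≤ ℓ j) {τ : Fin m → ℕ}
    (hτ : ∀ j, ℓ j ≤ (τ j + 1) * lam) (x : Fin m → ℂ) (l : List (Option (Fin m))) {n : ℝ} {P : Rg m}
    (hP : OrdGE (ow lam ℓ) n (loc x τ P)) :
    OrdGE (ow lam ℓ) (n - (l.map (ow lam ℓ)).sum) (loc x τ (wd (dd m) l P)) := by
  induction l generalizing n P with
  | nil => simpa [wd] using hP
  | cons o l ih =>
    refine (ih (ordGE_loc_dd hlam hℓ hτ x hP o)).mono (le_of_eq ?_)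
    rw [List.map_cons, List.sum_cons, sub_sub]

/-- the inverse of `loc` -/
def Filt_inv (x : Fin m → ℂ) (τ : Fin m → ℕ) : Rg m →ₐ[ℂ] Rg m :=
  aeval fun o => o.elim (X none - 1)
    fun j => X (some j) - C (x j) - Polynomial.aeval (X none - 1 : Rg m) (Lp (τ j))

lemma Filt_loc_inv (x : Fin m → ℂ) (τ : Fin m → ℕ) (P : Rg m) :
    loc x τ (Filt_inv x τ P) = P := by
  have : (loc x τ).comp (Filt_inv x τ) = AlgHom.id ℂ _ := by
    refine MvPolynomial.algHom_ext fun o => ?_
    cases o with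
    | none => simp [Filt_inv, Filt_loc_none]
    | some j =>
      simp only [Filt_inv, AlgHom.comp_apply, aeval_X, Option.elim, map_sub, AlgHom.id_apply]
      rw [← Polynomial.aeval_algHom_apply, Filt_loc_some, Filt_loc_C, map_sub, Filt_loc_none,
        map_one, add_sub_cancel_left]
      ring
  exact DFunLike.congr_fun this P

lemma Filt_inv_loc (x : Fin m → ℂ) (τ : Fin m → ℕ) (P : Rg m) :
    Filt_inv x τ (loc x τ P) = P := by
  have : (Filt_inv x τ).comp (loc x τ) = AlgHom.id ℂ _ := by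
    refine MvPolynomial.algHom_ext fun o => ?_
    cases o with
    | none => simp [Filt_inv, Filt_loc_none]
    | some j =>
      rw [AlgHom.comp_apply, Filt_loc_some, map_add, map_add, ← Polynomial.aeval_algHom_apply]
      simp only [Filt_inv, aeval_X, aeval_C, Option.elim, AlgHom.id_apply, algebraMap_eq]
      ring
  exact DFunLike.congr_fun this P

/-- the inverse sends `X none ↦ X none - 1`, `X (some j) ↦ X (some j) - C (x j) - aeval (X none - 1) (Lp _)` -/
lemma loc_surjective (x : Fin m → ℂ) (τ : Fin m → ℕ) : Function.Surjective (loc x τ) :=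
  fun P => ⟨_, Filt_loc_inv x τ P⟩

/-- the constant term is the value at the point -/
lemma constantCoeff_loc (x : Fin m → ℂ) (τ : Fin m → ℕ) (P : Rg m) :
    constantCoeff (loc x τ P) = eval (fun o => o.elim 1 x) P := by
  induction P using MvPolynomial.induction_on with
  | C c => simp
  | add P Q hP hQ => simp [hP, hQ]
  | mul_X P o hP =>
    rw [map_mul, map_mul, map_mul, hP]
    congr 1
    cases o with
    | none => simp [Filt_loc_none]
    | some j =>
      obtain ⟨s, hs⟩ := Filt_dvd_Lp (τ j) (X none : Rg m)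
      rw [Filt_loc_some, hs]
      simp

/-- Modulo `Y - 1` a jet at one point is the jet of a polynomial of small degree.  Recipe: let
`h = loc x τ g`, `G = ∑ α ∈ h.support with α none = 0 ∧ wt α < n, coeff α h • ∏ j (X (some j) - C (x j))^(α j)`,
`R = ∑` of the monomials of `h` of weight `≥ n`.  Modulo `X none`, `loc x τ G + R ≡ h`.  Pull back along
the bijection `loc` (`loc (X none - 1) = X none`). -/
lemma exists_jet_mod {lam β : ℝ} {ℓ : Fin m → ℝ} (hβ : 0 ≤ β) (hℓ : ∀ j, 0 ≤ ℓ j) (x : Fin m → ℂ)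
    (τ : Fin m → ℕ) (n : ℝ) (g : Rg m) :
    ∃ G r s : Rg m, DegLE (ow β ℓ) n G ∧ OrdGE (ow lam ℓ) n (loc x τ r) ∧
      G - g = r + (X none - 1) * s := by
  classical
  set h := loc x τ g with hh
  set G : Rg m := ∑ α ∈ h.support, if α none = 0 ∧ wt (ow lam ℓ) α < n then
    coeff α h • ∏ j, (X (some j) - C (x j)) ^ α (some j) else 0 with hG
  set R : Rg m := ∑ α ∈ h.support, if wt (ow lam ℓ) α < n then 0 else -monomial α (coeff α h)
    with hR
  have hdvd : (X none : Rg m) ∣ loc x τ G - h - R := by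
    have e : loc x τ G - h - R = ∑ α ∈ h.support, (loc x τ (if α none = 0 ∧ wt (ow lam ℓ) α < n then
        coeff α h • ∏ j, (X (some j) - C (x j)) ^ α (some j) else 0) - monomial α (coeff α h) -
        if wt (ow lam ℓ) α < n then 0 else -monomial α (coeff α h)) := by
      rw [Finset.sum_sub_distrib, Finset.sum_sub_distrib, ← h.as_sum, hG, map_sum]
    rw [e]
    refine Finset.dvd_sum fun α _ => ?_
    have hm : (monomial α (coeff α h) : Rg m) =
        C (coeff α h) * (X none ^ α none * ∏ j, X (some j) ^ α (some j)) := by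
      rw [monomial_eq, Finsupp.prod_fintype _ _ (by simp), Fintype.prod_option]
    by_cases h1 : wt (ow lam ℓ) α < n
    · by_cases h2 : α none = 0
      · rw [if_pos ⟨h2, h1⟩, if_pos h1, sub_zero, hm, h2, pow_zero, one_mul, map_smul, smul_eq_C_mul,
          ← mul_sub, map_prod]
        refine Dvd.dvd.mul_left ?_ _
        rw [← Ideal.mem_span_singleton, ← Ideal.Quotient.eq, map_prod, map_prod]
        refine Finset.prod_congr rfl fun j _ => ?_
        rw [map_pow, map_pow, map_pow]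
        congr 1
        rw [Ideal.Quotient.eq, Ideal.mem_span_singleton, map_sub, Filt_loc_some, Filt_loc_C]
        convert Filt_dvd_Lp (τ j) (X none : Rg m) using 1
        ring
      · rw [if_neg fun h' => h2 h'.1, if_pos h1, map_zero, sub_zero, zero_sub, dvd_neg, hm]
        exact ((dvd_pow_self _ h2).mul_right _).mul_left _
    · rw [if_neg fun h' => h1 h'.2, if_neg h1, map_zero]
      simp
  obtain ⟨S, hS⟩ := hdvd
  refine ⟨G, Filt_inv x τ R, Filt_inv x τ S, ?_, ?_, ?_⟩
  · refine DegLE.sum _ fun α _ => ?_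
    split_ifs with h1
    · refine DegLE.smul _ ((DegLE.prod (d := fun j => (α (some j) : ℝ) * ℓ j) _ fun j _ =>
        DegLE.pow ?_ _).mono ?_)
      · rw [sub_eq_add_neg]
        exact (Filt_degLE_X (w := ow β ℓ) (some j)).add (Filt_degLE_C (hℓ j) _).neg
      · have := h1.2
        rw [wt_ow, h1.1] at this
        simpa using this.le
    · exact DegLE.zero
  · rw [Filt_loc_inv]
    refine OrdGE.sum _ fun α _ => ?_
    split_ifs with h1
    · exact OrdGE.zero
    · exact (OrdGE.monomial (not_lt.1 h1) _).neg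
  · have := congrArg (Filt_inv x τ) hS
    rw [map_sub, map_sub, hh, Filt_inv_loc, Filt_inv_loc, map_mul] at this
    rw [← sub_eq_iff_eq_add', this]
    simp [Filt_inv]

end Crest.Agent.R11
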