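import Crest.Agent.R11.Surj
import Crest.Agent.R11.Core

/-!
# Row 11: choice of the parameters
-/

set_option autoImplicit false

open MvPolynomial

noncomputable section

namespace Crest.Agent.R11

/-- Recipe: `V ∈ (1/(ν-1), 1)`, so `ν V - (ν-1) V² - 1 = (1-V)((ν-1)V - 1) > 0`; `θ` slightly larger than
`V²`, `v` slightly larger than `θ` (`v < min 1 (θ²/V²)`), `δ` and `g` small. -/
lemma exists_params {ν : ℝ} (hν : 2 < ν) : ∃ V θ v δ g : ℝ, 0 < θ ∧ θ < v ∧ v ≤ 1 ∧ θ ≤ V ∧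
    V ^ 2 * v < θ ^ 2 ∧ 0 < δ ∧ 0 < g ∧ 1 + (ν - 1) * θ + 5 * g ≤ (1 - δ) * ν * V := by
  have h1 : 0 < ν - 1 := by linarith
  set V : ℝ := (1 / (ν - 1) + 1) / 2 with hV
  have hi : 1 / (ν - 1) < 1 := by rw [div_lt_one h1]; linarith
  have hi0 : 0 < 1 / (ν - 1) := by positivity
  have hV1 : V < 1 := by rw [hV]; linarith
  have hV0 : 0 < V := by rw [hV]; linarith
  have hV2 : 1 < (ν - 1) * V := by
    have : (ν - 1) * (1 / (ν - 1)) = 1 := by field_simp
    rw [hV]; nlinarith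
  set G : ℝ := (1 - V) * ((ν - 1) * V - 1) with hG
  have hG0 : 0 < G := mul_pos (by linarith) (by linarith)
  set t : ℝ := min (G / (2 * (ν - 1))) (V * (1 - V)) with ht
  have ht0 : 0 < t := lt_min (by positivity) (mul_pos hV0 (by linarith))
  have ht1 : t ≤ G / (2 * (ν - 1)) := min_le_left _ _
  have ht2 : t ≤ V * (1 - V) := min_le_right _ _
  have ht3 : (ν - 1) * t ≤ G / 2 := by
    rw [le_div_iff₀ (by positivity)] at ht1; linarith
  set θ : ℝ := V ^ 2 + t with hθ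
  have hθ0 : 0 < θ := by positivity
  have hθV : θ ≤ V := by rw [hθ]; nlinarith
  have hlt : θ < θ ^ 2 / V ^ 2 := by
    rw [lt_div_iff₀ (by positivity)]; nlinarith
  obtain ⟨v, hv1, hv2⟩ := exists_between (lt_min (lt_of_le_of_lt hθV hV1) hlt)
  refine ⟨V, θ, v, G / (4 * (ν * V)), G / 20, hθ0, hv1, (lt_min_iff.1 hv2).1.le, hθV, ?_,
    by positivity, by positivity, ?_⟩
  · have := (lt_min_iff.1 hv2).2
    rw [lt_div_iff₀ (by positivity)] at this; linarith
  · have : (1 - G / (4 * (ν * V))) * ν * V = ν * V - G / 4 := by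
      have : ν ≠ 0 := by linarith
      field_simp
    rw [this, hθ]
    nlinarith

/-- Recipe: `K = ⌊a (V/θ)^(m+1)⌋₊ + 1 ≤ (a+1) (V/θ)^(m+1)`, and `(V² v/θ²)^(m+1) → 0`. -/
lemma exists_mK {V θ v a c lam : ℝ} (hθ : 0 < θ) (hv : 0 < v) (hV : θ ≤ V) (h : V ^ 2 * v < θ ^ 2)
    (ha : 0 < a) (hc : 0 < c) (hlam : 0 < lam) :
    ∃ m K : ℕ, 1 ≤ K ∧ a * V ^ (m + 1) < K * θ ^ (m + 1) ∧ K * v ^ (m + 1) * (c * K) < lam := by
  have hr : V ^ 2 * v / θ ^ 2 < 1 := by rw [div_lt_one (by positivity)]; exact h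
  have hV0 : 0 < V := lt_of_lt_of_le hθ hV
  obtain ⟨m, hm⟩ := exists_pow_lt_of_lt_one (show 0 < lam / (c * (a + 1) ^ 2) by positivity) hr
  have hm' : (V ^ 2 * v / θ ^ 2) ^ (m + 1) < lam / (c * (a + 1) ^ 2) :=
    lt_of_le_of_lt (pow_le_pow_of_le_one (by positivity) hr.le (Nat.le_succ m)) hm
  set y : ℝ := (V / θ) ^ (m + 1) with hy
  have hy1 : 1 ≤ y := one_le_pow₀ ((one_le_div hθ).2 hV)
  refine ⟨m, ⌊a * y⌋₊ + 1, Nat.le_add_left _ _, ?_, ?_⟩
  · have h1 : a * y < ((⌊a * y⌋₊ + 1 : ℕ) : ℝ) := by push_cast; exact Nat.lt_floor_add_one _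
    have h2 : V ^ (m + 1) = y * θ ^ (m + 1) := by rw [hy, div_pow]; field_simp
    rw [h2, ← mul_assoc]
    exact mul_lt_mul_of_pos_right h1 (by positivity)
  · have h1 : ((⌊a * y⌋₊ + 1 : ℕ) : ℝ) ≤ (a + 1) * y := by
      push_cast
      have := Nat.floor_le (show 0 ≤ a * y by positivity)
      nlinarith
    set K : ℝ := ((⌊a * y⌋₊ + 1 : ℕ) : ℝ)
    have hK : 0 ≤ K := Nat.cast_nonneg _
    have h2 : (V ^ 2 * v / θ ^ 2) ^ (m + 1) = y ^ 2 * v ^ (m + 1) := by
      rw [hy, ← pow_mul, mul_comm (m + 1) 2, pow_mul, ← mul_pow]; congr 1; field_simp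
    rw [h2, lt_div_iff₀ (by positivity)] at hm'
    calc K * v ^ (m + 1) * (c * K) = K ^ 2 * (v ^ (m + 1) * c) := by ring
      _ ≤ ((a + 1) * y) ^ 2 * (v ^ (m + 1) * c) := by gcongr
      _ = y ^ 2 * v ^ (m + 1) * (c * (a + 1) ^ 2) := by ring
      _ < lam := hm'

/-- rapidly growing good approximations (induction on `m`, `Fin.snoc`, or a recursively defined
sequence `ℕ → ℤ × ℕ`) -/
lemma exists_seq {ν : ℝ} (hν : 0 < ν)
    (h : ∀ Q : ℕ, ∃ (p : ℤ) (q : ℕ), Q ≤ q ∧ |Real.pi - (p : ℝ) / q| < 1 / (q : ℝ) ^ ν) (m : ℕ)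
    {η : ℝ} (hη : 0 < η) (ℓ₀ : ℝ) :
    ∃ (p : Fin m → ℤ) (q : Fin m → ℕ), (∀ j, p j ≠ 0) ∧ (∀ j, 0 < q j) ∧
      (∀ j, ℓ₀ ≤ Real.log (q j)) ∧ (∀ i j, i < j → Real.log (q i) ≤ η * Real.log (q j)) ∧
      ∀ j, |Real.pi - (p j : ℝ) / q j| ≤ Real.exp (-(ν * Real.log (q j))) := by
  have key : ∀ T : ℝ, ∃ (p : ℤ) (q : ℕ), p ≠ 0 ∧ 0 < q ∧ T ≤ Real.log q ∧
      |Real.pi - (p : ℝ) / q| ≤ Real.exp (-(ν * Real.log q)) := by
    intro T
    obtain ⟨p, q, hq, hpq⟩ := h (⌈Real.exp T⌉₊ + 1)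
    have hq0 : 0 < q := lt_of_lt_of_le (Nat.succ_pos _) hq
    have hq1 : (1 : ℝ) ≤ q := by exact_mod_cast hq0
    have hqT : Real.exp T ≤ q := by
      have : ((⌈Real.exp T⌉₊ + 1 : ℕ) : ℝ) ≤ q := by exact_mod_cast hq
      push_cast at this
      linarith [Nat.le_ceil (Real.exp T)]
    refine ⟨p, q, ?_, hq0, ?_, ?_⟩
    · rintro rfl
      have h1 : 1 / (q : ℝ) ^ ν ≤ 1 := by
        rw [div_le_one (by positivity)]; exact Real.one_le_rpow hq1 hν.le
      simp only [Int.cast_zero, zero_div, sub_zero, abs_of_pos Real.pi_pos] at hpq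
      linarith [Real.pi_gt_three]
    · exact (Real.le_log_iff_exp_le (by positivity)).2 hqT
    · refine hpq.le.trans (le_of_eq ?_)
      rw [Real.rpow_def_of_pos (by positivity), Real.exp_neg, one_div, mul_comm]
  choose P Q hP hQ hT happ using key
  let t : ℕ → ℝ := fun n => Nat.rec ℓ₀ (fun _ T => max T (Real.log (Q T) / η)) n
  have ht : ∀ n, t (n + 1) = max (t n) (Real.log (Q (t n)) / η) := fun n => rfl
  have hmono : Monotone t := monotone_nat_of_le_succ fun n => by rw [ht]; exact le_max_left _ _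
  refine ⟨fun j => P (t j), fun j => Q (t j), fun j => hP _, fun j => hQ _, fun j => ?_,
    fun i j hij => ?_, fun j => happ _⟩
  · exact (hmono (Nat.zero_le j)).trans (hT _)
  · have h1 : Real.log (Q (t i)) / η ≤ Real.log (Q (t j)) :=
      ((le_max_right _ _).trans ((ht i).ge.trans (hmono (Nat.succ_le_of_lt hij)))).trans (hT _)
    rw [div_le_iff₀ hη] at h1
    linarith

/-- the counting asymptotics (`le_card_low`, `card_low_le`; `Fintype.card (Option (Fin m)) = m + 1`) -/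
lemma eventually_counts {m K : ℕ} {ν lam θ V δ g : ℝ} {ℓ : Fin m → ℝ} (hν : 0 < ν) (hlam : 0 < lam)
    (hθ : 0 < θ) (hV : 0 < V) (hδ : 0 < δ) (hg : 0 < g) (hℓ : ∀ j, 0 < ℓ j) (hK : 1 ≤ K)
    (h : ν * lam / δ * V ^ (m + 1) < K * θ ^ (m + 1)) :
    ∀ᶠ N : ℝ in Filter.atTop,
      0 < (K : ℝ) * (low (ow lam ℓ) (θ * N)).card ∧
      ((low (ow 1 fun j => ν * ℓ j) (ν * V * N)).card : ℝ) ≤
        δ * (K * (low (ow lam ℓ) (θ * N)).card) ∧
      Real.log (K * (low (ow lam ℓ) (θ * N)).card) + Real.log 2 + m * Real.log (N + 1) < g * N := by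
  have hK' : (1 : ℝ) ≤ K := by exact_mod_cast hK
  have hcard : Fintype.card (Option (Fin m)) = m + 1 := by simp
  set P : ℝ := ∏ j, ℓ j with hP
  have hP0 : 0 < P := Finset.prod_pos fun j _ => hℓ j
  set s : ℝ := ∑ j, ℓ j with hs
  have hs0 : 0 ≤ s := Finset.sum_nonneg fun j _ => (hℓ j).le
  set F : ℝ := ((m + 1).factorial : ℝ) with hF
  have hF0 : 0 < F := by positivity
  have p1 : ∏ o, ow lam ℓ o = lam * P := by simp [ow, Fintype.prod_option, hP]
  have p2 : ∏ o, ow 1 (fun j => ν * ℓ j) o = ν ^ m * P := by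
    simp [ow, Fintype.prod_option, hP, Finset.prod_mul_distrib]
  have s1 : ∑ o, ow lam ℓ o = lam + s := by simp [ow, Fintype.sum_option, hs]
  have s2 : ∑ o, ow 1 (fun j => ν * ℓ j) o = 1 + ν * s := by
    simp [ow, Fintype.sum_option, hs, Finset.mul_sum]
  have ev1 : ∀ᶠ N : ℝ in Filter.atTop,
      ν * lam / δ * (V + (1 / ν + s) * N⁻¹) ^ (m + 1) < K * θ ^ (m + 1) := by
    have : Filter.Tendsto (fun N : ℝ => ν * lam / δ * (V + (1 / ν + s) * N⁻¹) ^ (m + 1))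
        Filter.atTop (nhds (ν * lam / δ * (V + (1 / ν + s) * 0) ^ (m + 1))) :=
      (((tendsto_inv_atTop_zero.const_mul _).const_add _).pow _).const_mul _
    rw [mul_zero, add_zero] at this
    exact this.eventually (gt_mem_nhds h)
  set ε : ℝ := g / (4 * (m + 1) * (θ + 1)) with hε
  have hε0 : 0 < ε := by positivity
  have hlog : ∀ x : ℝ, 0 < x → Real.log x ≤ ε * x - Real.log ε := fun x hx => by
    have := Real.log_le_sub_one_of_pos (mul_pos hε0 hx)
    rw [Real.log_mul hε0.ne' hx.ne'] at this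
    linarith
  set C : ℝ := Real.log (K / (F * (lam * P))) + (m + 1) * (ε * (lam + s) - Real.log ε) +
    Real.log 2 + m * (ε - Real.log ε) with hC
  filter_upwards [ev1, Filter.eventually_gt_atTop 0, Filter.eventually_gt_atTop (2 * C / g)] with
    N h1 hN hNC
  have lo := le_card_low (w := ow lam ℓ) (ow_pos hlam hℓ) (x := θ * N) (by positivity)
    (by rw [hcard]; omega)
  have up := card_low_le (w := ow lam ℓ) (ow_pos hlam hℓ) (x := θ * N) (by positivity)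
  have up2 := card_low_le (w := ow 1 fun j => ν * ℓ j)
    (ow_pos one_pos fun j => mul_pos hν (hℓ j)) (x := ν * V * N) (by positivity)
  rw [hcard, p1] at lo
  rw [hcard, p1, s1] at up
  rw [hcard, p2, s2] at up2
  rw [← hF] at lo up up2
  set M : ℝ := ((low (ow lam ℓ) (θ * N)).card : ℝ)
  have hM : 0 < M := lt_of_lt_of_le (by positivity) lo
  refine ⟨by positivity, up2.trans (le_trans ?_ (mul_le_mul_of_nonneg_left
    (mul_le_mul_of_nonneg_left lo (by positivity)) hδ.le)), ?_⟩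
  · have e : ν * V * N + (1 + ν * s) = ν * N * (V + (1 / ν + s) * N⁻¹) := by field_simp
    rw [e]
    calc (ν * N * (V + (1 / ν + s) * N⁻¹)) ^ (m + 1) / (F * (ν ^ m * P))
        = (ν * lam / δ * (V + (1 / ν + s) * N⁻¹) ^ (m + 1)) * (δ * N ^ (m + 1) / (F * (lam * P))) := by
          rw [mul_pow, mul_pow, pow_succ ν]; field_simp
      _ ≤ (K * θ ^ (m + 1)) * (δ * N ^ (m + 1) / (F * (lam * P))) := by gcongr
      _ = _ := by rw [mul_pow]; field_simp
  · have h2 : Real.log (K * M) ≤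
        Real.log (K / (F * (lam * P))) + (m + 1) * Real.log (θ * N + (lam + s)) := by
      have : Real.log (K / (F * (lam * P))) + (m + 1) * Real.log (θ * N + (lam + s)) =
          Real.log (K / (F * (lam * P)) * (θ * N + (lam + s)) ^ (m + 1)) := by
        rw [Real.log_mul (by positivity) (by positivity), Real.log_pow]; push_cast; ring
      rw [this]
      refine Real.log_le_log (by positivity) ?_
      calc K * M ≤ K * ((θ * N + (lam + s)) ^ (m + 1) / (F * (lam * P))) := by gcongr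
        _ = _ := by ring
    have h3 := mul_le_mul_of_nonneg_left (hlog (θ * N + (lam + s)) (by positivity))
      (show (0 : ℝ) ≤ m + 1 by positivity)
    have h4 := mul_le_mul_of_nonneg_left (hlog (N + 1) (by positivity))
      (show (0 : ℝ) ≤ m by positivity)
    have h5 : (m + 1) * (θ + 1) * ε = g / 4 := by rw [hε]; field_simp
    have h6 : ((m + 1) * θ + m) * ε * N ≤ g / 4 * N := by
      rw [← h5]; gcongr; nlinarith
    rw [div_lt_iff₀ hg] at hNC
    have : 0 < g * N := by positivity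
    nlinarith

/-- Recipe: `exists_params`; `κ = max 1 ((6ν+1)/g)`, `lam = κ²`; `c = max (48/g) (4 lam/(v-θ))`,
`exists_mK` with `a = ν lam/δ`, `β = c K`; `η` from `surj`; `ℓ₀ = max 1 (max (lam/η) (log (…)/g))`;
`exists_seq`; `surj`, `eventually_counts`, `core` with `W = ν V N`. -/
theorem main {ν : ℝ} (hν : 2 < ν) :
    ∃ Q : ℕ, ∀ (p : ℤ) (q : ℕ), Q ≤ q → 1 / (q : ℝ) ^ ν ≤ |Real.pi - (p : ℝ) / (q : ℝ)| := by
  by_contra hcon
  have h : ∀ Q : ℕ, ∃ (p : ℤ) (q : ℕ), Q ≤ q ∧ |Real.pi - (p : ℝ) / q| < 1 / (q : ℝ) ^ ν := by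
    intro Q
    by_contra h'
    exact hcon ⟨Q, fun p q hq => not_lt.1 fun hlt => h' ⟨p, q, hq, hlt⟩⟩
  obtain ⟨V, θ, v, δ, g, hθ, hθv, hv1, hθV, hVv, hδ, hg, hpar⟩ := exists_params hν
  have hν0 : 0 < ν := by linarith
  have hV : 0 < V := lt_of_lt_of_le hθ hθV
  set κ : ℝ := max 1 ((6 * ν + 1) / g) with hκ
  have hκ1 : 1 ≤ κ := le_max_left _ _
  have hκ2 : 6 * ν + 1 ≤ κ * g := (div_le_iff₀ hg).1 (le_max_right _ _)
  have hκ0 : 0 < κ := by linarith
  set lam : ℝ := κ ^ 2 with hlam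
  have hlam0 : 0 < lam := by positivity
  have hvθ : 0 < v - θ := by linarith
  set c : ℝ := max (48 / g) (4 * lam / (v - θ)) with hc
  have hc1 : 48 ≤ c * g := (div_le_iff₀ hg).1 (le_max_left _ _)
  have hc2 : 4 * lam ≤ c * (v - θ) := (div_le_iff₀ hvθ).1 (le_max_right _ _)
  have hc0 : 0 < c := lt_of_lt_of_le (by positivity) (le_max_left _ _)
  obtain ⟨m, K, hK, hK1, hK2⟩ := exists_mK hθ (hθ.trans hθv) hθV hVv
    (show 0 < ν * lam / δ by positivity) hc0 hlam0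
  have hK' : (1 : ℝ) ≤ K := by exact_mod_cast hK
  obtain ⟨η, hη, hsurj⟩ := surj m hθ hθv hv1
  set ℓ₀ : ℝ := max 1 (max (lam / η) (Real.log (12 * (7 * K + 1) * (2 * K + 3)) / g)) with hℓ₀
  have hl1 : 1 ≤ ℓ₀ := le_max_left _ _
  have hl2 : lam ≤ ℓ₀ * η := (div_le_iff₀ hη).1 ((le_max_left _ _).trans (le_max_right _ _))
  have hl3 : Real.log (12 * (7 * K + 1) * (2 * K + 3)) ≤ ℓ₀ * g :=
    (div_le_iff₀ hg).1 ((le_max_right _ _).trans (le_max_right _ _))
  obtain ⟨p, q, hp, hq, hq0, hq1, happ⟩ := exists_seq hν0 h m hη ℓ₀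
  have hℓ : ∀ j, 0 < Real.log (q j) := fun j => by linarith [hq0 j]
  obtain ⟨N₀, hN₀⟩ := hsurj K lam (c * K) (fun j => Real.log (q j))
    (fun j => ⌊ν * Real.log (q j) / κ⌋₊) (fun j => 2 * Complex.I * p j / q j) hlam0 (by positivity) hℓ
    (by nlinarith [mul_le_mul_of_nonneg_left hK' (mul_pos hc0 hvθ).le]) hK2
    (fun j => by nlinarith [hq0 j]) hq1
    (fun j => by
      have h1 := Nat.lt_floor_add_one (ν * Real.log (q j) / κ)
      rw [div_lt_iff₀ hκ0] at h1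
      have h2 : Real.log (q j) ≤ ν * Real.log (q j) * κ := by
        have : 1 ≤ ν * κ := by nlinarith
        nlinarith [hℓ j]
      calc Real.log (q j) ≤ ν * Real.log (q j) * κ := h2
        _ ≤ ((⌊ν * Real.log (q j) / κ⌋₊ + 1) * κ) * κ := by gcongr
        _ = _ := by rw [hlam]; ring)
    (fun j => by
      have h1 : (p j : ℂ) ≠ 0 := by exact_mod_cast hp j
      have h2 : (q j : ℂ) ≠ 0 := by exact_mod_cast (hq j).ne'
      simp [h1, h2])
  obtain ⟨N, ⟨hM0, hS, hlog⟩, hN1, hN2⟩ := ((eventually_counts hν0 hlam0 hθ hV hδ hg hℓ hK hK1).and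
    ((Filter.eventually_ge_atTop N₀).and (Filter.eventually_ge_atTop 0))).exists
  have hcore := core (W := ν * V * N) p q (by linarith) hκ1 hlam0 (by positivity) hθ hN2
    (by positivity) hl1 hq0 happ (hN₀ N hN1) rfl
  set M : ℝ := K * (low (ow lam fun j => Real.log (q j)) (θ * N)).card
  set S : ℝ := ((low (ow 1 fun j => ν * Real.log (q j)) (ν * V * N)).card : ℝ)
  have e1 : Real.log (12 * (7 * K + 1) * (2 * K + 3)) / ℓ₀ ≤ g := by
    rw [div_le_iff₀ (by linarith)]; linarith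
  have e2 : 6 * (7 * K + 1) / (c * K) ≤ g := by
    rw [div_le_iff₀ (by positivity)]; nlinarith
  have e3 : 6 * ν / κ ≤ g := by rw [div_le_iff₀ hκ0]; linarith
  have e4 : κ * θ / lam ≤ g := by
    rw [div_le_iff₀ hlam0, hlam]
    have : θ ≤ κ * g := by linarith
    nlinarith
  have e5 : N * (Real.log (12 * (7 * K + 1) * (2 * K + 3)) / ℓ₀ + 6 * (7 * K + 1) / (c * K) + 1 +
      6 * ν / κ + (ν - 1) * θ + κ * θ / lam) ≤ N * ((1 - δ) * ν * V - g) :=
    mul_le_mul_of_nonneg_left (by linarith) hN2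
  have e6 : (M - δ * M) * (ν * V * N) ≤ (M - S) * (ν * V * N) :=
    mul_le_mul_of_nonneg_right (by linarith) (by positivity)
  have e7 := mul_lt_mul_of_pos_left (add_lt_add_of_lt_of_le hlog e5) hM0
  nlinarith

end Crest.Agent.R11
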