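import Crest.Agent.R11.Defs

/-!
# Row 11: interpolation by Noetherian induction
-/

set_option autoImplicit false

open MvPolynomial

noncomputable section

namespace Crest.Agent.R11

lemma Noeth_split {R : Type} [CommRing R] (J I : Ideal R) (a z : R)
    (h : z ∈ J ⊔ (I ⊔ Ideal.span {a})) : ∃ u ∈ J ⊔ I, ∃ h, z = u + a * h := by
  rw [← sup_assoc] at h
  obtain ⟨u, hu, w, hw, e⟩ := Submodule.mem_sup.1 h
  obtain ⟨c, rfl⟩ := Ideal.mem_span_singleton'.1 hw
  exact ⟨u, hu, c, by rw [← e, mul_comm]⟩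

lemma Noeth_lt {R : Type} [CommRing R] {I : Ideal R} {a : R} (h : a ∉ I) :
    I < I ⊔ Ideal.span {a} :=
  lt_of_le_of_ne le_sup_left fun e => h (by
    rw [e]
    exact Submodule.mem_sup_right (Ideal.mem_span_singleton_self a))

/-- Recipe: prove `S I := ∀ θ, 0 < θ → θ D < n₀ → ∃ N₀, ∀ N ≥ N₀, ∀ n ≤ θ N, ∀ g, ∃ G ∈ Dg N,
∀ k, G - g k ∈ F k n ⊔ I` for all ideals `I` by Noetherian induction (`IsNoetherian.induction`/
`WellFoundedGT`), and take `I = ⊥`.  `I = ⊤`: `G = 0`.
`I` not prime: `a, b ∉ I`, `a b ∈ I`.  By `S (I ⊔ span {a})` write `g k - G₁ ≡ a h k`, approximate `h k` by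
`H ∈ Dg (N - s)` (`a ∈ Dg s`) modulo `I ⊔ span {b}` using a slightly larger `θ'`; `G = G₁ + a H`.
`I` prime, second alternative: `θ < 1`, direct.  First alternative: let `N₀` come from
`S (I ⊔ span {Q})`.  Show by induction on `i : ℕ`: for all `N, n` with `n ≤ i n₀`, `n ≤ θ N` and
`N₀ + n D / n₀ ≤ N`, all `g` can be approximated in `Dg N` modulo `F k n ⊔ I`
(`n ≤ 0`: `G = 0`; otherwise `g k - G₁ ≡ Q h k` and use `(N - D, n - n₀)` for `h`). -/
theorem noeth_surj {R κ : Type} [CommRing R] [IsNoetherianRing R] (Dg : ℝ → AddSubgroup R)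
    (F : κ → ℝ → Ideal R) (hmono : ∀ a b, a ≤ b → Dg a ≤ Dg b)
    (hmul : ∀ a b P Q, P ∈ Dg a → Q ∈ Dg b → P * Q ∈ Dg (a + b))
    (hex : ∀ P, ∃ a, 0 ≤ a ∧ P ∈ Dg a) (hF0 : ∀ k n, n ≤ 0 → F k n = ⊤)
    (hFmul : ∀ k a b P Q, P ∈ F k a → Q ∈ F k b → P * Q ∈ F k (a + b)) {D n₀ : ℝ} (hn : 0 < n₀)
    (hnD : n₀ ≤ D)
    (hp : ∀ 𝔭 : Ideal R, 𝔭.IsPrime → (∃ Q ∈ Dg D, Q ∉ 𝔭 ∧ ∀ k, Q ∈ F k n₀) ∨
      ∀ n : ℝ, ∀ g : κ → R, ∃ G ∈ Dg n, ∀ k, G - g k ∈ F k n ⊔ 𝔭)
    {θ : ℝ} (hθ : 0 < θ) (hθD : θ * D < n₀) :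
    ∃ N₀ : ℝ, ∀ N, N₀ ≤ N → ∀ n, n ≤ θ * N → ∀ g : κ → R, ∃ G ∈ Dg N, ∀ k, G - g k ∈ F k n := by
  have hD : 0 < D := hn.trans_le hnD
  have hzero : ∀ (I : Ideal R) (N n : ℝ), n ≤ 0 → ∀ g : κ → R,
      ∃ G ∈ Dg N, ∀ k, G - g k ∈ F k n ⊔ I := fun I N n hn0 g =>
    ⟨0, zero_mem _, fun k => by rw [hF0 k n hn0, top_sup_eq]; exact Submodule.mem_top⟩
  have key : ∀ I : Ideal R, ∀ θ : ℝ, 0 < θ → θ * D < n₀ → ∃ N₀ : ℝ, ∀ N, N₀ ≤ N → ∀ n,
      n ≤ θ * N → ∀ g : κ → R, ∃ G ∈ Dg N, ∀ k, G - g k ∈ F k n ⊔ I := by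
    intro I
    induction I using IsNoetherian.induction with
    | hgt I ih =>
    intro θ hθ hθD
    by_cases hI : Ideal.IsPrime I
    · rcases hp I hI with ⟨Q, hQD, hQI, hQF⟩ | h2
      · obtain ⟨N₀, hN₀⟩ := ih _ (Noeth_lt hQI) θ hθ hθD
        have step : ∀ i : ℕ, ∀ N n : ℝ, n ≤ i * n₀ → n ≤ θ * N → N₀ + n * D / n₀ ≤ N →
            ∀ g : κ → R, ∃ G ∈ Dg N, ∀ k, G - g k ∈ F k n ⊔ I := by
          intro i
          induction i with
          | zero => exact fun N n h1 _ _ g => hzero I N n (by simpa using h1) g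
          | succ i ihi =>
            intro N n h1 h2 h3 g
            by_cases hn0 : n ≤ 0
            · exact hzero I N n hn0 g
            have hpos : 0 ≤ n * D / n₀ := by
              have : 0 < n := not_le.1 hn0
              positivity
            obtain ⟨G₁, hG₁, hg⟩ := hN₀ N (by linarith) n h2 g
            choose u hu h he using fun k => Noeth_split _ _ _ _ (hg k)
            have e3 : (n - n₀) * D / n₀ = n * D / n₀ - D := by field_simp
            obtain ⟨H, hH, hh⟩ := ihi (N - D) (n - n₀) (by push_cast at h1; linarith)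
              (by nlinarith) (by rw [e3]; linarith) (fun k => -h k)
            refine ⟨G₁ + Q * H, add_mem hG₁ ?_, fun k => ?_⟩
            · have := hmul _ _ _ _ hQD hH
              rwa [add_sub_cancel] at this
            · have e : G₁ + Q * H - g k = u k + Q * (H - -h k) := by
                linear_combination he k
              rw [e]
              refine add_mem (hu k) ?_
              obtain ⟨y, hy, z, hz, e2⟩ := Submodule.mem_sup.1 (hh k)
              rw [← e2, mul_add]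
              refine Submodule.add_mem_sup ?_ (Ideal.mul_mem_left _ _ hz)
              have := hFmul k _ _ _ _ (hQF k) hy
              rwa [add_sub_cancel] at this
        have hρ : 0 < 1 - θ * D / n₀ := by
          rw [sub_pos, div_lt_one hn]
          exact hθD
        refine ⟨N₀ / (1 - θ * D / n₀), fun N hN n hnN g => ?_⟩
        obtain ⟨i, hi⟩ := exists_nat_ge (n / n₀)
        rw [div_le_iff₀ hn] at hi
        refine step i N n hi hnN ?_ g
        rw [div_le_iff₀ hρ] at hN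
        have : n * D / n₀ ≤ θ * N * D / n₀ := by gcongr
        have e : θ * N * D / n₀ = N * (θ * D / n₀) := by ring
        linarith
      · refine ⟨0, fun N hN n hnN g => ?_⟩
        obtain ⟨G, hG, hg⟩ := h2 n g
        have hθ1 : θ ≤ 1 := by nlinarith
        exact ⟨G, hmono _ _ (by nlinarith) hG, hg⟩
    · rcases Ideal.not_isPrime_iff.1 hI with htop | ⟨a, ha, b, hb, hab⟩
      · exact ⟨0, fun N _ n _ g => ⟨0, zero_mem _, fun k => by
          rw [htop, sup_top_eq]; exact Submodule.mem_top⟩⟩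
      · have hlt : θ < n₀ / D := by rwa [lt_div_iff₀ hD]
        set θ' := (θ + n₀ / D) / 2 with hθ'
        have h1 : θ < θ' := by rw [hθ']; linarith
        have h2 : θ' * D < n₀ := by
          rw [← lt_div_iff₀ hD, hθ']; linarith
        obtain ⟨N₁, hN₁⟩ := ih _ (Noeth_lt ha) θ hθ hθD
        obtain ⟨N₂, hN₂⟩ := ih _ (Noeth_lt hb) θ' (hθ.trans h1) h2
        obtain ⟨s, hs, has⟩ := hex a
        refine ⟨max N₁ (max (N₂ + s) (θ' * s / (θ' - θ))), fun N hN n hnN g => ?_⟩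
        have c1 : N₁ ≤ N := (le_max_left _ _).trans hN
        have c2 : N₂ + s ≤ N := (le_max_left _ _).trans ((le_max_right _ _).trans hN)
        have c3 : θ' * s / (θ' - θ) ≤ N := (le_max_right _ _).trans ((le_max_right _ _).trans hN)
        rw [div_le_iff₀ (by linarith)] at c3
        obtain ⟨G₁, hG₁, hg⟩ := hN₁ N c1 n hnN g
        choose u hu h he using fun k => Noeth_split _ _ _ _ (hg k)
        obtain ⟨H, hH, hh⟩ := hN₂ (N - s) (by linarith) n (by nlinarith) (fun k => -h k)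
        refine ⟨G₁ + a * H, add_mem hG₁ ?_, fun k => ?_⟩
        · have := hmul _ _ _ _ has hH
          rwa [add_sub_cancel] at this
        · obtain ⟨u', hu', c, e2⟩ := Noeth_split _ _ _ _ (hh k)
          have e : G₁ + a * H - g k = u k + (a * u' + a * b * c) := by
            linear_combination he k + a * e2
          rw [e]
          exact add_mem (hu k) (add_mem (Ideal.mul_mem_left _ _ hu')
            (Submodule.mem_sup_right (Ideal.mul_mem_right _ _ hab)))
  obtain ⟨N₀, hN₀⟩ := key ⊥ θ hθ hθD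
  refine ⟨N₀, fun N hN n hnN g => ?_⟩
  obtain ⟨G, hG, hg⟩ := hN₀ N hN n hnN g
  exact ⟨G, hG, fun k => by simpa using hg k⟩

/-- a spanning family contains a non-singular square matrix -/
theorem exists_det_ne_zero {ι C : Type} [Fintype ι] [DecidableEq ι] (v : C → ι → ℂ)
    (h : Submodule.span ℂ (Set.range v) = ⊤) :
    ∃ col : ι → C, (Matrix.of fun i j => v (col j) i).det ≠ 0 := by
  obtain ⟨κ, a, -, hsp, hli⟩ := exists_linearIndependent' ℂ v
  rw [h] at hsp
  let b : Module.Basis κ ℂ (ι → ℂ) := Module.Basis.mk hli hsp.ge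
  let e : ι ≃ κ := (Pi.basisFun ℂ ι).indexEquiv b
  refine ⟨a ∘ e, fun hdet => ?_⟩
  obtain ⟨c, hc, hz⟩ := Matrix.exists_mulVec_eq_zero_iff.2 hdet
  have hli' : LinearIndependent ℂ ((v ∘ a) ∘ e) := hli.comp e e.injective
  refine hc (funext fun j => Fintype.linearIndependent_iff.1 hli' c ?_ j)
  funext i
  have := congrFun hz i
  simp only [Matrix.mulVec, dotProduct, Matrix.of_apply, Function.comp_apply, Pi.zero_apply] at this
  simp only [Finset.sum_apply, Pi.smul_apply, Function.comp_apply, smul_eq_mul, Pi.zero_apply]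
  rw [← this]
  exact Finset.sum_congr rfl fun j _ => mul_comm _ _

end Crest.Agent.R11
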