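import Crest.Agent.R11.Roth

/-!
# Row 11: a derivative of small weight outside a prime ideal
-/

set_option autoImplicit false

open MvPolynomial

noncomputable section

namespace Crest.Agent.R11

lemma Prime_deg_iff {σ R : Type} [CommRing R] (P : MvPolynomial σ R) (i : σ) {c D : ℝ}
    (hc : 0 ≤ c) (hD : 0 ≤ D) :
    (∀ α ∈ P.support, (α i : ℝ) * c ≤ D) ↔ (degreeOf i P : ℝ) * c ≤ D := by
  refine ⟨fun h => ?_, fun h α hα => le_trans (mul_le_mul_of_nonneg_right ?_ hc) h⟩
  · rcases P.support.eq_empty_or_nonempty with e | e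
    · simpa [degreeOf_eq_sup, e] using hD
    · obtain ⟨α, hα, e'⟩ := Finset.exists_mem_eq_sup _ e fun α : σ →₀ ℕ => α i
      rw [degreeOf_eq_sup, e']
      exact h α hα
  · exact_mod_cast degreeOf_le_iff.1 le_rfl α hα

lemma Prime_degreeOf_pderiv {σ R : Type} [CommRing R] (P : MvPolynomial σ R) (i j : σ) :
    degreeOf i (pderiv j P) ≤ degreeOf i P := by
  refine degreeOf_le_iff.2 fun α hα => ?_
  rw [mem_support_iff, coeff_pderiv] at hα
  have := degreeOf_le_iff.1 (le_refl (degreeOf i P)) _ (mem_support_iff.2 (left_ne_zero_of_mul hα))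
  rw [Finsupp.add_apply] at this
  omega

/-- the substitution `Y ↦ Y'`, `X j ↦ X j + c` -/
def Prime_sub {A : Type} [CommRing A] [Algebra ℂ A] (m : ℕ) (Y' c : A) :
    Rg m →ₐ[ℂ] MvPolynomial (Fin m) A :=
  aeval fun o => o.elim (C Y') fun j => X j + C c

lemma Prime_degreeOf_sub {A : Type} [CommRing A] [IsDomain A] [Algebra ℂ A] {m : ℕ} (Y' c : A)
    (P : Rg m) (i : Fin m) : degreeOf i (Prime_sub m Y' c P) ≤ degreeOf (some i) P := by
  classical
  rw [Prime_sub, aeval_def, eval₂_eq']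
  refine (degreeOf_sum_le _ _ _).trans (Finset.sup_le fun α hα => ?_)
  refine (degreeOf_mul_le _ _ _).trans ?_
  rw [MvPolynomial.algebraMap_apply, degreeOf_C, zero_add]
  refine (degreeOf_prod_le _ _ _).trans (le_trans ?_ (degreeOf_le_iff.1 le_rfl α hα))
  calc _ ≤ ∑ o : Option (Fin m), if o = some i then α (some i) else 0 := by
        refine Finset.sum_le_sum fun o _ => (degreeOf_pow_le _ _ _).trans ?_
        cases o with
        | none => simp
        | some j =>
          have : degreeOf i (X j + C c : MvPolynomial (Fin m) A) ≤ if i = j then 1 else 0 :=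
            (degreeOf_add_le _ _ _).trans (by simp [degreeOf_X])
          by_cases h : i = j
          · subst h
            simpa using Nat.mul_le_mul_left (α (some i)) this
          · simp only [h, if_false, Nat.le_zero] at this
            simp [this]
    _ = _ := by simp

lemma Prime_box {A : Type} [CommRing A] [IsDomain A] [Algebra ℂ A] {m : ℕ} (Y' c : A)
    {ℓ : Fin m → ℝ} (hℓ : ∀ i, 0 < ℓ i) {D : ℝ} (hD : 0 < D) {P Q : Rg m}
    (h : ∀ α ∈ P.support, ∀ i, (α (some i) : ℝ) * ℓ i ≤ D)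
    (hQ : ∀ i, degreeOf (some i) Q ≤ degreeOf (some i) P) :
    ∀ α ∈ (Prime_sub m Y' c Q).support, ∀ i, (α i : ℝ) * ℓ i ≤ D := by
  intro α hα i
  refine (Prime_deg_iff _ i (hℓ i).le hD.le).2 (le_trans (mul_le_mul_of_nonneg_right ?_ (hℓ i).le)
    ((Prime_deg_iff P (some i) (hℓ i).le hD.le).1 fun β hβ => h β hβ i)) α hα
  exact_mod_cast (Prime_degreeOf_sub Y' c Q i).trans (hQ i)

lemma Prime_nat {σ B : Type} [CommRing B] [Algebra ℂ B] (ψ : MvPolynomial σ ℂ →ₐ[ℂ] B)
    (d : Derivation ℂ (MvPolynomial σ ℂ) (MvPolynomial σ ℂ)) (d' : Derivation ℂ B B)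
    (h : ∀ o, ψ (d (X o)) = d' (ψ (X o))) (f : MvPolynomial σ ℂ) : ψ (d f) = d' (ψ f) := by
  induction f using MvPolynomial.induction_on with
  | C a => rw [derivation_C, map_zero, algHom_C, Derivation.map_algebraMap]
  | add f g hf hg => simp [hf, hg]
  | mul_X f o hf => simp [hf, h]

lemma Prime_cder_C {A σ : Type} [CommRing A] [Algebra ℂ A] (δ : Derivation ℂ A A) (a : A) :
    cder δ (C a : MvPolynomial σ A) = C (δ a) := by
  classical
  ext β
  rw [coeff_cder, coeff_C, coeff_C]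
  split_ifs <;> simp

lemma Prime_cder_X {A σ : Type} [CommRing A] [Algebra ℂ A] (δ : Derivation ℂ A A) (i : σ) :
    cder δ (X i : MvPolynomial σ A) = 0 := by
  classical
  ext β
  rw [coeff_cder, coeff_X]
  split_ifs <;> simp

lemma Prime_sub_some {A : Type} [CommRing A] [Algebra ℂ A] {m : ℕ} (δ : Derivation ℂ A A)
    (Y' c : A) (j : Fin m) (f : Rg m) :
    Prime_sub m Y' c (dd m (some j) f) = bd δ (some j) (Prime_sub m Y' c f) := by
  classical
  refine Prime_nat _ _ _ (fun o => ?_) f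
  cases o with
  | none => simp [dd, bd_some, Prime_sub]
  | some i =>
    by_cases h : j = i
    · subst h; simp [dd, bd_some, Prime_sub]
    · simp [dd, bd_some, Prime_sub, Ne.symm h]

lemma Prime_sub_none {A : Type} [CommRing A] [Algebra ℂ A] {m : ℕ} {δ : Derivation ℂ A A}
    {Y' c : A} (hc : δ c = 1) (hY : δ Y' = Y') (f : Rg m) :
    Prime_sub m Y' c (dd m none f) = bd δ none (Prime_sub m Y' c f) := by
  refine Prime_nat _ _ _ (fun o => ?_) f
  cases o with
  | none => simp [dd, bd_none, Prime_sub, Prime_cder_C, hY, mkDerivation_X]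
  | some i => simp [dd, bd_none, Prime_sub, Prime_cder_C, Prime_cder_X, hc, mkDerivation_X]

lemma Prime_eval {A L : Type} [CommRing A] [Algebra ℂ A] [CommRing L] [Algebra ℂ L] {m : ℕ}
    {y Y : A} (q : Rg m →ₐ[ℂ] L) (φ₀ : A →ₐ[ℂ] Polynomial L) (hy : φ₀ y = Polynomial.X)
    (hY : φ₀ Y = Polynomial.C (q (X none))) (f : Rg m) :
    eval₂Hom (φ₀ : A →+* Polynomial L) (fun j => Polynomial.C (q (X (some j))) - Polynomial.X)
      (Prime_sub m Y y f) = Polynomial.C (q f) := by
  induction f using MvPolynomial.induction_on with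
  | C a => simp [Prime_sub, MvPolynomial.algebraMap_apply, Polynomial.algebraMap_apply]
  | add f g hf hg => rw [map_add, map_add, hf, hg, map_add, map_add]
  | mul_X f o hf =>
    rw [map_mul, map_mul, hf, map_mul, map_mul]
    congr 1
    cases o with
    | none => simp [Prime_sub, hY]
    | some j => simp [Prime_sub, hy]

lemma Prime_dd_none (m : ℕ) (f : Rg m) :
    dd m none f = X none * pderiv none f + ∑ j, pderiv (some j) f := by
  classical
  induction f using MvPolynomial.induction_on with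
  | C a => simp [derivation_C]
  | add f g hf hg => simp only [map_add, hf, hg, Finset.sum_add_distrib]; ring
  | mul_X f o hf =>
    have : dd m none (X o) = X none * pderiv none (X o) + ∑ j, pderiv (some j) (X o) := by
      cases o with
      | none => simp [dd, mkDerivation_X]
      | some i => simp [dd, mkDerivation_X, Pi.single_apply]
    simp only [Derivation.leibniz, smul_eq_mul, hf, this, Finset.sum_add_distrib, ← Finset.mul_sum]
    ring

lemma Prime_degreeOf_dd {m : ℕ} (i : Fin m) (o : Option (Fin m)) (f : Rg m) :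
    degreeOf (some i) (dd m o f) ≤ degreeOf (some i) f := by
  cases o with
  | none =>
    rw [Prime_dd_none]
    refine (degreeOf_add_le _ _ _).trans (max_le ?_ ((degreeOf_sum_le _ _ _).trans
      (Finset.sup_le fun j _ => Prime_degreeOf_pderiv _ _ _)))
    rw [mul_comm, degreeOf_mul_X_of_ne _ (by simp)]
    exact Prime_degreeOf_pderiv _ _ _
  | some j => exact Prime_degreeOf_pderiv _ _ _

lemma Prime_wd_pow (m e : ℕ) (Q : Rg m) :
    Prime_sub m (1 : ℂ) 0 (wd (dd m) (List.replicate e none) ((X none - 1) ^ e * Q)) =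
      (e.factorial : ℂ) • Prime_sub m (1 : ℂ) 0 Q := by
  induction e generalizing Q with
  | zero => simp [wd]
  | succ e ih =>
    have h1 : dd m none (X none - 1 : Rg m) = X none := by simp [dd, mkDerivation_X]
    have h2 : dd m none ((X none - 1) ^ (e + 1) * Q) =
        (X none - 1) ^ e * (((e : Rg m) + 1) * X none * Q + (X none - 1) * dd m none Q) := by
      rw [Derivation.leibniz, Derivation.leibniz_pow, h1]
      simp only [smul_eq_mul, nsmul_eq_mul, Nat.add_sub_cancel]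
      push_cast
      ring
    rw [List.replicate_succ, wd, h2, ih, Nat.factorial_succ]
    have h3 : Prime_sub m (1 : ℂ) 0 (X none) = 1 := by simp [Prime_sub]
    simp only [map_add, map_mul, map_sub, h3, map_one, map_natCast, sub_self, zero_mul, add_zero,
      mul_one, Algebra.smul_def]
    push_cast
    ring

lemma Prime_factor {m : ℕ} {P : Rg m} (hP : P ≠ 0) : ∃ (e : ℕ) (Q : Rg m),
    P = (X none - 1) ^ e * Q ∧ Prime_sub m (1 : ℂ) 0 Q ≠ 0 ∧ e ≤ degreeOf none P := by
  have h0 : optionEquivLeft ℂ (Fin m) P ≠ 0 := by simpa using hP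
  obtain ⟨G, h1, h2⟩ := Polynomial.exists_eq_pow_rootMultiplicity_mul_and_not_dvd _ h0 1
  generalize Polynomial.rootMultiplicity 1 (optionEquivLeft ℂ (Fin m) P) = e at h1
  have h3 : ∀ f : Rg m, Prime_sub m (1 : ℂ) 0 f = (optionEquivLeft ℂ (Fin m) f).eval 1 := by
    intro f
    induction f using MvPolynomial.induction_on with
    | C a => simp [Prime_sub]
    | add f g hf hg => simp [hf, hg]
    | mul_X f o hf =>
      rw [map_mul, map_mul, Polynomial.eval_mul, hf]
      cases o <;> simp [Prime_sub]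
  refine ⟨e, (optionEquivLeft ℂ (Fin m)).symm G, (optionEquivLeft ℂ (Fin m)).injective ?_, ?_, ?_⟩
  · simpa using h1
  · rw [h3, AlgEquiv.apply_symm_apply]
    exact fun h => h2 (Polynomial.dvd_iff_isRoot.2 h)
  · rw [← natDegree_optionEquivLeft]
    have := Polynomial.natDegree_le_of_dvd (Dvd.intro _ h1.symm) h0
    rwa [Polynomial.natDegree_pow, Polynomial.natDegree_X_sub_C, mul_one] at this

/-- `Y` is not constant on the variety.  Recipe: `A, δ, y, Y` from `exists_base`, `L = Rg m ⧸ 𝔭`,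
`ψ : Rg m →ₐ[ℂ] MvPolynomial (Fin m) A`, `X none ↦ C Y`, `X (some j) ↦ X j + C y`.  Then
`ψ (dd m o f) = bd δ o (ψ f)` (check on generators: `MvPolynomial.induction_on`), the point is
`υ j = C (mk (X (some j))) - Polynomial.X` in `L[X]` (transcendental over `ℂ`: look at degrees), and
`eval₂Hom φ₀ υ (ψ f) = C (mk f)`.  `ψ` is injective (same computation with `L = Rg m`, `𝔭 = ⊥`).
Degrees: `degreeOf j (ψ P) ≤ degreeOf (some j) P`.  Use `roth`, `wd_map`. -/
theorem not_van_a (m : ℕ) {ε : ℝ} (hε : 0 < ε) : ∃ η : ℝ, 0 < η ∧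
    ∀ {lam : ℝ} {ℓ : Fin m → ℝ}, 0 ≤ lam → (∀ i, 0 < ℓ i) → (∀ i, lam ≤ η * ℓ i) →
      (∀ i j, i < j → ℓ i ≤ η * ℓ j) → ∀ (𝔭 : Ideal (Rg m)), 𝔭.IsPrime →
      Transcendental ℂ (Ideal.Quotient.mk 𝔭 (X none)) → ∀ D : ℝ, 0 < D → ∀ P : Rg m, P ≠ 0 →
      (∀ α ∈ P.support, ∀ i, (α (some i) : ℝ) * ℓ i ≤ D) →
      ¬ Van (dd m) (ow lam ℓ) (Ideal.Quotient.mk 𝔭) (ε * D) P := by
  obtain ⟨η, hη, h⟩ := roth m hε
  obtain ⟨A, _, _, _, δ, y, Y, hc, hy, hY, hφ⟩ := exists_base
  refine ⟨η, hη, fun {lam ℓ} hlam hℓ h1 h2 𝔭 h𝔭 ht D hD P hP hdeg hv => ?_⟩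
  obtain ⟨φ₀, hinj, e1, e2⟩ := hφ (Rg m ⧸ 𝔭) _ ht
  obtain ⟨φ₁, -, e1', e2'⟩ := hφ (Rg m) (X none) (transcendental_X ℂ none)
  have hP' : Prime_sub m Y y P ≠ 0 := fun h0 => by
    have := Prime_eval (AlgHom.id ℂ (Rg m)) φ₁ e1' e2' P
    rw [h0, map_zero, eq_comm, Polynomial.C_eq_zero] at this
    exact hP this
  refine h hc φ₀ hinj (υ := fun j => Polynomial.C (Ideal.Quotient.mkₐ ℂ 𝔭 (X (some j))) -
    Polynomial.X) (fun j => ?_) hlam hℓ h1 h2 D hD _ hP'
    (Prime_box Y y hℓ hD hdeg fun _ => le_rfl) fun l hl => ?_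
  · refine (Polynomial.transcendental _ ?_ ?_).restrictScalars (algebraMap ℂ (Rg m ⧸ 𝔭)).injective
    · rw [← Polynomial.natDegree_neg, neg_sub, Polynomial.natDegree_X_sub_C]
      exact one_ne_zero
    · rw [← neg_sub, Polynomial.leadingCoeff_neg, Polynomial.leadingCoeff_X_sub_C]
      exact mem_nonZeroDivisors_of_ne_zero (by simp)
  · have := wd_map (δ := dd m) (δ' := bd δ) (Prime_sub m Y y : Rg m →+* _) (fun o f => by
      cases o with
      | none => exact Prime_sub_none hy hY f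
      | some j => exact Prime_sub_some δ Y y j f) l P
    simp only [RingHom.coe_coe] at this
    rw [← this, Prime_eval (Ideal.Quotient.mkₐ ℂ 𝔭) φ₀ e1 e2, Ideal.Quotient.mkₐ_eq_mk, hv l hl,
      map_zero]

/-- `Y = 1` on the variety.  Recipe: `π : Rg m →ₐ[ℂ] MvPolynomial (Fin m) ℂ`, `X none ↦ 1`,
`X (some j) ↦ X j`.  Write `P = (X none - 1)^e * Q` with `π Q ≠ 0`, `e ≤ degreeOf none P`, so `e β ≤ D`
(`optionEquivLeft`, `Polynomial.exists_eq_pow_rootMultiplicity_mul_and_not_dvd`).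
`π (wd (replicate e none) ((X none - 1)^e * Q)) = e! • π Q` (induction on `e` generalising `Q`:
`D (w^(e+1) Q) = w^e ((e+1) Y Q + w D Q)`).  Put `P₁ = π (wd (replicate e none) P)`; it has box degrees
`≤ D / ℓ i` (`dd` does not increase them).  `mk 𝔭 = eval₂Hom (ofId) υ ∘ π` with `υ j = mk (X (some j))`.
Words for `bd 0` containing `none` give `0`; the others commute with `π`.  Use `roth` with `ε/2`,
`A = ℂ`, `const_complex`, `Van.wd`, and `e lam ≤ ε D / 2`. -/
theorem not_van_b (m : ℕ) {ε : ℝ} (hε : 0 < ε) : ∃ η : ℝ, 0 < η ∧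
    ∀ {lam β : ℝ} {ℓ : Fin m → ℝ}, 0 ≤ lam → 0 < β → 2 * lam ≤ ε * β → (∀ i, 0 < ℓ i) →
      (∀ i, lam ≤ η * ℓ i) → (∀ i j, i < j → ℓ i ≤ η * ℓ j) → ∀ (𝔭 : Ideal (Rg m)), 𝔭.IsPrime →
      X none - 1 ∈ 𝔭 → (∀ i, Transcendental ℂ (Ideal.Quotient.mk 𝔭 (X (some i)))) →
      ∀ D : ℝ, 0 < D → ∀ P : Rg m, P ≠ 0 → (∀ α ∈ P.support, (α none : ℝ) * β ≤ D) →
      (∀ α ∈ P.support, ∀ i, (α (some i) : ℝ) * ℓ i ≤ D) →
      ¬ Van (dd m) (ow lam ℓ) (Ideal.Quotient.mk 𝔭) (ε * D) P := by
  obtain ⟨η, hη, h⟩ := roth m (half_pos hε)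
  refine ⟨η, hη, fun {lam β ℓ} hlam hβ hlβ hℓ h1 h2 𝔭 h𝔭 hY ht D hD P hP hd0 hdeg hv => ?_⟩
  obtain ⟨e, Q, hPQ, hQ, he⟩ := Prime_factor hP
  have heD : (e : ℝ) * β ≤ D := le_trans (mul_le_mul_of_nonneg_right (by exact_mod_cast he) hβ.le)
    ((Prime_deg_iff P none hβ.le hD.le).1 hd0)
  have hv1 := hv.wd (List.replicate e none)
  have hw : ((List.replicate e none).map (ow lam ℓ)).sum = e * lam := by simp [ow]
  have hle : ε / 2 * D ≤ ε * D - ((List.replicate e none).map (ow lam ℓ)).sum := by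
    rw [hw]
    have h3 := mul_le_mul_of_nonneg_left hlβ (Nat.cast_nonneg (α := ℝ) e)
    have h4 := mul_le_mul_of_nonneg_left heD hε.le
    nlinarith
  have hv2 := hv1.mono hle
  have hP1 : Prime_sub m (1 : ℂ) 0 (wd (dd m) (List.replicate e none) P) ≠ 0 := by
    rw [hPQ, Prime_wd_pow]
    exact smul_ne_zero (by exact_mod_cast e.factorial_ne_zero) hQ
  have hd1 : ∀ i, degreeOf (some i) (wd (dd m) (List.replicate e none) P) ≤ degreeOf (some i) P :=
    fun i => wd_induction (p := fun f => degreeOf (some i) f ≤ degreeOf (some i) P)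
      (fun o f hf => (Prime_degreeOf_dd i o f).trans hf) _ le_rfl
  generalize wd (dd m) (List.replicate e none) P = P₁ at hv2 hP1 hd1
  have hY' : Ideal.Quotient.mk 𝔭 (X none) = 1 := by
    rw [← map_one (Ideal.Quotient.mk 𝔭), Ideal.Quotient.eq]
    exact hY
  have hπ : ∀ f : Rg m, eval₂Hom (Algebra.ofId ℂ (Rg m ⧸ 𝔭) : ℂ →+* Rg m ⧸ 𝔭)
      (fun j => Ideal.Quotient.mk 𝔭 (X (some j))) (Prime_sub m (1 : ℂ) 0 f) =
        Ideal.Quotient.mk 𝔭 f := by
    intro f
    induction f using MvPolynomial.induction_on with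
    | C a => simp [Prime_sub]; rfl
    | add f g hf hg => rw [map_add, map_add, hf, hg, map_add]
    | mul_X f o hf =>
      rw [map_mul, map_mul, hf, map_mul]
      congr 1
      cases o with
      | none => simp [Prime_sub, hY']
      | some j => simp [Prime_sub]
  refine h const_complex (Algebra.ofId ℂ (Rg m ⧸ 𝔭)) (algebraMap ℂ (Rg m ⧸ 𝔭)).injective ht hlam
    hℓ h1 h2 D hD _ hP1 (Prime_box 1 0 hℓ hD hdeg hd1) fun l hl => ?_
  by_cases hn : none ∈ l
  · rw [wd_eq_zero_of_mem (p := fun _ => True) (fun _ _ _ => trivial) (fun f _ => ?_) hn trivial,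
      map_zero]
    ext γ
    simp [bd_none, coeff_cder]
  · have key : ∀ (l : List (Option (Fin m))) (f : Rg m), none ∉ l →
        wd (bd (0 : Derivation ℂ ℂ ℂ)) l (Prime_sub m (1 : ℂ) 0 f) =
          Prime_sub m (1 : ℂ) 0 (wd (dd m) l f) := by
      intro l
      induction l with
      | nil => exact fun _ _ => rfl
      | cons o l ih =>
        intro f hf
        cases o with
        | none => simp at hf
        | some j => rw [wd, wd, ← Prime_sub_some, ih _ (by simpa using hf)]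
    rw [key l P₁ hn, hπ, hv2 l hl]

/-- an element that is algebraic modulo a prime is constant modulo the prime (`ℂ` is algebraically
closed; `minpoly`, or factor a vanishing polynomial) -/
theorem exists_const_of_not_transcendental {R : Type} [CommRing R] [Algebra ℂ R] (𝔭 : Ideal R)
    (h𝔭 : 𝔭.IsPrime) {a : R} (h : ¬ Transcendental ℂ (Ideal.Quotient.mk 𝔭 a)) :
    ∃ c : ℂ, a - algebraMap ℂ R c ∈ 𝔭 := by
  have hi : IsIntegral ℂ (Ideal.Quotient.mk 𝔭 a) := (not_not.1 h : IsAlgebraic ℂ _).isIntegral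
  obtain ⟨c, hc⟩ := minpoly.mem_range_of_degree_eq_one ℂ _
    (IsAlgClosed.degree_eq_one_of_irreducible ℂ (minpoly.irreducible hi))
  exact ⟨c, Ideal.Quotient.eq.1 hc.symm⟩

end Crest.Agent.R11
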