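import Crest.Agent.R11.Words
import Crest.Agent.R11.Const
import Crest.Agent.R11.Count

/-!
# Row 11: Roth's lemma at a transcendental point
-/

set_option autoImplicit false

open MvPolynomial

noncomputable section

namespace Crest.Agent.R11

section
variable {A : Type} [CommRing A] [Algebra ℂ A] {m : ℕ} {ℓ : Fin m → ℝ} {j : ℕ} {D D' : ℝ}
  {P Q : MvPolynomial (Fin m) A}

lemma Sup.mul (hP : Sup ℓ j D P) (hQ : Sup ℓ j D' Q) : Sup ℓ j (D + D') (P * Q) := by
  classical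
  intro α hα i
  obtain ⟨a, ha, b, hb, rfl⟩ := Finset.mem_add.1 (support_mul _ _ hα)
  refine ⟨?_, fun h => ?_⟩
  · rw [Finsupp.add_apply, Nat.cast_add, add_mul]
    exact add_le_add (hP a ha i).1 (hQ b hb i).1
  · rw [Finsupp.add_apply, (hP a ha i).2 h, (hQ b hb i).2 h]

lemma Sup.zero : Sup ℓ j D (0 : MvPolynomial (Fin m) A) := fun α hα => by simp at hα

lemma Sup.add (hP : Sup ℓ j D P) (hQ : Sup ℓ j D Q) : Sup ℓ j D (P + Q) := by
  classical
  intro α hα
  rcases Finset.mem_union.1 (support_add hα) with h | h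
  · exact hP α h
  · exact hQ α h

lemma Sup.neg (hP : Sup ℓ j D P) : Sup ℓ j D (-P) := fun α hα => hP α (by simpa using hα)

lemma Sup.smul (c : ℂ) (hP : Sup ℓ j D P) : Sup ℓ j D (c • P) :=
  fun α hα => hP α (support_smul hα)

lemma Sup.sum {κ : Type} (s : Finset κ) {f : κ → MvPolynomial (Fin m) A}
    (h : ∀ k ∈ s, Sup ℓ j D (f k)) : Sup ℓ j D (∑ k ∈ s, f k) :=
  Finset.sum_induction f (Sup ℓ j D) (fun _ _ => Sup.add) Sup.zero h

lemma Sup.prod {κ : Type} (s : Finset κ) {f : κ → MvPolynomial (Fin m) A}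
    (h : ∀ k ∈ s, Sup ℓ j D (f k)) : Sup ℓ j (s.card * D) (∏ k ∈ s, f k) := by
  classical
  induction s using Finset.induction_on with
  | empty =>
    intro α hα i
    have : α = 0 := by
      have := support_monomial_subset (show α ∈ (monomial 0 (1 : A)).support from hα)
      simpa using this
    simp [this]
  | insert a s ha ih =>
    rw [Finset.prod_insert ha, Finset.card_insert_of_notMem ha, Nat.cast_succ, add_mul, one_mul,
      add_comm]
    exact (h a (Finset.mem_insert_self _ _)).mul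
      (ih fun k hk => h k (Finset.mem_insert_of_mem hk))

/-- the submodule of polynomials with `Sup ℓ j D` -/
def supSub (A : Type) [CommRing A] [Algebra ℂ A] (ℓ : Fin m → ℝ) (j : ℕ) (D : ℝ) :
    Submodule ℂ (MvPolynomial (Fin m) A) where
  carrier := {Q | Sup ℓ j D Q}
  add_mem' := Sup.add
  zero_mem' := Sup.zero
  smul_mem' := fun c _ => Sup.smul c

lemma bd_some (δ : Derivation ℂ A A) (i : Fin m) (P : MvPolynomial (Fin m) A) :
    bd δ (some i) P = pderiv i P := rfl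

lemma bd_none (δ : Derivation ℂ A A) (P : MvPolynomial (Fin m) A) :
    bd δ none P = cder δ P := rfl

lemma mem_support_pderiv {i : Fin m} {α : Fin m →₀ ℕ} (h : α ∈ (pderiv i P).support) :
    α + Finsupp.single i 1 ∈ P.support := by
  rw [mem_support_iff, coeff_pderiv] at h
  rw [mem_support_iff]
  exact left_ne_zero_of_mul h

/-- `support (pderiv i P)`: subtract one from the exponent -/
lemma Sup.bd (hℓ : ∀ i, 0 ≤ ℓ i) (δ : Derivation ℂ A A) (o : Option (Fin m)) (hP : Sup ℓ j D P) :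
    Sup ℓ j D (bd δ o P) := by
  intro α hα i
  cases o with
  | none =>
    refine hP α ?_ i
    rw [bd_none, mem_support_iff, coeff_cder] at hα
    rw [mem_support_iff]
    exact fun h => hα (by rw [h, map_zero])
  | some k =>
    have h := hP _ (mem_support_pderiv hα) i
    rw [Finsupp.add_apply] at h
    refine ⟨le_trans (mul_le_mul_of_nonneg_right ?_ (hℓ i)) h.1, fun hi => ?_⟩
    · exact_mod_cast Nat.le_add_right _ _
    · have := h.2 hi
      omega

lemma Sup.bd_eq_zero (δ : Derivation ℂ A A) (hP : Sup ℓ j D P) {i : Fin m} (hi : j ≤ (i : ℕ)) :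
    R11.bd δ (some i) P = 0 := by
  rw [bd_some, ← support_eq_empty, Finset.eq_empty_iff_forall_notMem]
  intro α hα
  have := (hP _ (mem_support_pderiv hα) i).2 hi
  simp at this

lemma Sup.det {r : ℕ} {M : Matrix (Fin r) (Fin r) (MvPolynomial (Fin m) A)}
    (h : ∀ a b, Sup ℓ j D (M a b)) : Sup ℓ j (r * D) M.det := by
  rw [Matrix.det_apply]
  refine Sup.sum _ fun σ _ => ?_
  have h1 := Sup.prod (ℓ := ℓ) (j := j) (D := D) Finset.univ (f := fun i => M (σ i) i)
    fun i _ => h _ _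
  rw [Finset.card_univ, Fintype.card_fin] at h1
  rcases Int.units_eq_one_or (Equiv.Perm.sign σ) with e | e <;> rw [e]
  · rwa [one_smul]
  · rw [Units.neg_smul, one_smul]
    exact h1.neg

end

/-- the arithmetic of the index of the Wronskian: the number of `k < r` with `k ℓ ≤ e D / 2` is at least
`min r (⌊e D / (2 ℓ)⌋ + 1) ≥ r e / 4` -/
lemma sum_index_ge {r : ℕ} {ℓ D e : ℝ} (hℓ : 0 < ℓ) (hD : 0 < D) (he : 0 < e) (he1 : e ≤ 1)
    (hr : ((r : ℝ) - 1) * ℓ ≤ D) :
    e ^ 2 / 8 * (r * D) ≤ ∑ k : Fin r, max 0 (e * D - (k : ℕ) * ℓ) := by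
  set n : ℕ := min r (⌊e * D / (2 * ℓ)⌋₊ + 1) with hn
  have h1 : (r : ℝ) * e / 4 ≤ n := by
    rcases le_total r (⌊e * D / (2 * ℓ)⌋₊ + 1) with h | h
    · rw [hn, min_eq_left h]
      have : (0 : ℝ) ≤ r := Nat.cast_nonneg r
      nlinarith
    · rw [hn, min_eq_right h]
      have h2 := Nat.lt_floor_add_one (e * D / (2 * ℓ))
      have h3 : (0 : ℝ) ≤ ⌊e * D / (2 * ℓ)⌋₊ := Nat.cast_nonneg _
      have h4 : (r : ℝ) - 1 ≤ D / ℓ := by rwa [le_div_iff₀ hℓ]
      have h5 : e * D / (2 * ℓ) = e * (D / ℓ) / 2 := by field_simp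
      push_cast
      rw [h5] at h2 h3 ⊢
      rcases le_total (D / ℓ) 1 with h6 | h6 <;> nlinarith
  rw [Fin.sum_univ_eq_sum_range (fun k => max 0 (e * D - (k : ℝ) * ℓ)) r]
  calc e ^ 2 / 8 * (r * D) = (r * e / 4) * (e * D / 2) := by ring
    _ ≤ n * (e * D / 2) := by gcongr
    _ = ∑ k ∈ Finset.range n, e * D / 2 := by simp
    _ ≤ ∑ k ∈ Finset.range n, max 0 (e * D - (k : ℝ) * ℓ) := by
        refine Finset.sum_le_sum fun k hk => le_max_of_le_right ?_
        have h2 : k ≤ ⌊e * D / (2 * ℓ)⌋₊ := by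
          have := Finset.mem_range.1 hk
          omega
        have h3 : (k : ℝ) ≤ e * D / (2 * ℓ) := (Nat.le_floor_iff (by positivity)).1 h2
        rw [le_div_iff₀ (by positivity)] at h3
        linarith
    _ ≤ _ := Finset.sum_le_sum_of_subset_of_nonneg (Finset.range_mono (min_le_left _ _))
        fun _ _ _ => le_max_left _ _

lemma eq_C_of_isEmpty_aux {A σ : Type} [CommRing A] (P : MvPolynomial σ A)
    (h : ∀ α ∈ P.support, α = 0) : P = C (coeff 0 P) := by
  classical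
  ext β
  rw [coeff_C]
  split_ifs with e
  · rw [e]
  · by_contra h1
    exact e (h β (mem_support_iff.2 h1)).symm

lemma wd_eq_zero_of_mem {B ι : Type} [CommRing B] [Algebra ℂ B] {δ : ι → Derivation ℂ B B}
    {p : B → Prop} (hp : ∀ i f, p f → p (δ i f)) {o : ι} (ho : ∀ f, p f → δ o f = 0) {l : List ι}
    (hl : o ∈ l) {f : B} (hf : p f) : wd δ l f = 0 := by
  obtain ⟨l₁, l₂, rfl⟩ := List.append_of_mem hl
  rw [wd_append]
  change wd δ l₂ (δ o (wd δ l₁ f)) = 0
  rw [ho _ (wd_induction hp l₁ hf), wd_zero]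

lemma bd_aeval {A : Type} [CommRing A] [Algebra ℂ A] {m : ℕ} (δ : Derivation ℂ A A)
    (o : Option (Fin m)) (J : Fin m) (V : Polynomial ℂ) :
    bd δ o (Polynomial.aeval (X J : MvPolynomial (Fin m) A) V) =
      if o = some J then Polynomial.aeval (X J : MvPolynomial (Fin m) A) (Polynomial.derivative V)
      else 0 := by
  rw [Derivation.map_aeval]
  cases o with
  | none =>
    have : bd δ none (X J : MvPolynomial (Fin m) A) = 0 := by
      ext β
      rw [bd_none, coeff_cder, coeff_X']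
      split_ifs <;> simp
    simp [this]
  | some i =>
    rw [bd_some, pderiv_X]
    by_cases h : i = J
    · subst h; simp
    · simp [h, Pi.single_eq_of_ne (Ne.symm h)]

/-- One step.  Recipe: put `U = X ⟨j, hj⟩`, `d = ⌊D / ℓ j⌋₊`.  Write `P = ∑_α f α * U^(α j)` with
`f α = monomial (α.erase j) (coeff α P)`; `exists_indep_rep` with `S = {Q | Sup ℓ j D Q}` and
`T = span ℂ {U^c | c ≤ d}` gives `P = ∑ k : Fin r, f k * g k`, `1 ≤ r ≤ d + 1`
(`LinearIndependent.fintype_card_le_finrank`, `finrank_span_le_card`).  Take Wronskian words `l` for `f`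
and `l'` for `g` (`exists_wronskian`, `const_bd`).  A letter `some i`, `i ≥ j`, in `l a` makes row `a` zero
(`Sup.bd_eq_zero`), so the letters of `l a` have weight `≤ η ℓ j` and kill `T`; likewise all letters of
`l' b` are `some j` (the others kill `T`, which is stable under all `bd δ o`) and kill `S`.  Hence
`wd (l' b) (wd (l a) P) = ∑ k, wd (l a) (f k) * wd (l' b) (g k)`, so `W = det (…) = Uf * Vg` with
`Uf = det (wd (l a) (f k)) ≠ 0`, `Sup ℓ j (r D) Uf`, `Vg = aeval U V₀` for some `V₀ : ℂ[X]`, `V₀ ≠ 0`, and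
`φ Vg = aeval (υ j) V₀ ≠ 0`.  If `Van (ε D) P`, entry `(a, b)` vanishes to order
`max 0 ((ε - η) D - b ℓ j)`, so `W` vanishes to order `(ε/2)²/8 · r D` (`Van.det`, `sum_index_ge`).
For a word `t` of weight `< ε²/32 · r D`: if `t` has a letter `some i` with `i ≥ j` then `wd t Uf = 0`,
otherwise `wd t W = wd t Uf * Vg` (`wd_mul_const`).  So `Van (ε²/32 · r D) Uf`, contradicting `ih`. -/
theorem roth_step {A L : Type} [CommRing A] [IsDomain A] [Algebra ℂ A] [CommRing L] [IsDomain L]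
    [Algebra ℂ L] {m : ℕ} {δ : Derivation ℂ A A} (hc : Const fun _ : Unit => δ) (φ₀ : A →ₐ[ℂ] L)
    {υ : Fin m → L} (hυ : ∀ i, Transcendental ℂ (υ i)) {lam : ℝ} {ℓ : Fin m → ℝ} (hlam : 0 ≤ lam)
    (hℓ : ∀ i, 0 < ℓ i) {j : ℕ} (hj : j < m) {ε η : ℝ} (hε : 0 < ε) (hε1 : ε ≤ 1) (hη : 0 ≤ η)
    (hηε : η ≤ ε / 2) (h1 : lam ≤ η * ℓ ⟨j, hj⟩)
    (h2 : ∀ i : Fin m, (i : ℕ) < j → ℓ i ≤ η * ℓ ⟨j, hj⟩)
    (ih : ∀ D : ℝ, 0 < D → ∀ P : MvPolynomial (Fin m) A, P ≠ 0 → Sup ℓ j D P →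
      ¬ Van (bd δ) (ow lam ℓ) (eval₂Hom (φ₀ : A →+* L) υ) (ε ^ 2 / 32 * D) P) :
    ∀ D : ℝ, 0 < D → ∀ P : MvPolynomial (Fin m) A, P ≠ 0 → Sup ℓ (j + 1) D P →
      ¬ Van (bd δ) (ow lam ℓ) (eval₂Hom (φ₀ : A →+* L) υ) (ε * D) P := by
  classical
  intro D hD P hP hS hV
  set J : Fin m := ⟨j, hj⟩ with hJ
  have hℓ0 : ∀ i, 0 ≤ ℓ i := fun i => (hℓ i).le
  have hw : ∀ o, 0 ≤ ow lam ℓ o := fun o => by
    cases o with
    | none => exact hlam
    | some i => exact hℓ0 i
  set U : MvPolynomial (Fin m) A := X J with hU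
  set d : ℕ := ⌊D / ℓ J⌋₊ with hd
  let T : Submodule ℂ (MvPolynomial (Fin m) A) :=
    Submodule.span ℂ (Set.range fun c : Fin (d + 1) => U ^ (c : ℕ))
  have hrep : P = ∑ α ∈ P.support, monomial (α.erase J) (coeff α P) * U ^ α J := by
    conv_lhs => rw [P.as_sum]
    refine Finset.sum_congr rfl fun α _ => ?_
    rw [hU, X_pow_eq_monomial, monomial_mul, mul_one, Finsupp.erase_add_single]
  obtain ⟨r, f, g, hf, hg, hfi, hgi, hfg⟩ := exists_indep_rep (supSub A ℓ j D) T P.support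
    (f := fun α => monomial (α.erase J) (coeff α P)) (g := fun α => U ^ α J)
    (fun α hα β hβ i => by
      have e : β = α.erase J := by simpa using support_monomial_subset hβ
      subst e
      by_cases hi : i = J
      · subst hi
        simp [hD.le]
      · rw [Finsupp.erase_ne hi]
        refine ⟨(hS α hα i).1, fun h => (hS α hα i).2 ?_⟩
        have : (i : ℕ) ≠ j := fun h' => hi (Fin.ext h')
        omega)
    (fun α hα => by
      have h1 : α J ≤ d := Nat.le_floor ((le_div_iff₀ (hℓ J)).2 (hS α hα J).1)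
      exact Submodule.subset_span ⟨⟨α J, by omega⟩, rfl⟩)
  rw [← hrep] at hfg
  have hr0 : 0 < r := by
    rcases Nat.eq_zero_or_pos r with h | h
    · subst h
      exact absurd (by simpa using hfg) hP
    · exact h
  have hrd : r ≤ d + 1 := by
    have : Module.Finite ℂ T := Module.Finite.span_of_finite ℂ (Set.finite_range _)
    have h1 : LinearIndependent ℂ fun k => (⟨g k, hg k⟩ : T) :=
      LinearIndependent.of_comp T.subtype hgi
    have h2 := h1.fintype_card_le_finrank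
    have h3 := finrank_range_le_card (R := ℂ) fun c : Fin (d + 1) => U ^ (c : ℕ)
    simp only [Fintype.card_fin] at h2 h3
    exact h2.trans h3
  have hrD : ((r : ℝ) - 1) * ℓ J ≤ D := by
    have h1 : (r : ℝ) - 1 ≤ d := by
      have : (r : ℝ) ≤ d + 1 := by exact_mod_cast hrd
      linarith
    have h2 : (d : ℝ) ≤ D / ℓ J := Nat.floor_le (div_nonneg hD.le (hℓ0 J))
    rw [← le_div_iff₀ (hℓ J)]
    exact h1.trans h2
  obtain ⟨l, hl, hF⟩ := exists_wronskian (const_bd hc m) hfi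
  obtain ⟨l', hl', hG⟩ := exists_wronskian (const_bd hc m) hgi
  -- the two stable classes
  have pS : ∀ {D' : ℝ} o (Q : MvPolynomial (Fin m) A), Sup ℓ j D' Q → Sup ℓ j D' (bd δ o Q) :=
    fun o Q h => h.bd hℓ0 δ o
  let pT : MvPolynomial (Fin m) A → Prop := fun Q => ∃ V : Polynomial ℂ, Polynomial.aeval U V = Q
  have pT1 : ∀ o Q, pT Q → pT (bd δ o Q) := by
    rintro o _ ⟨V, rfl⟩
    rw [hU, bd_aeval]
    split_ifs
    · exact ⟨_, rfl⟩
    · exact ⟨0, map_zero _⟩
  have pT2 : ∀ o, o ≠ some J → ∀ Q, pT Q → bd δ o Q = 0 := by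
    rintro o ho _ ⟨V, rfl⟩
    rw [hU, bd_aeval, if_neg ho]
  have hgT : ∀ k, pT (g k) := fun k => by
    refine Submodule.span_induction (p := fun Q _ => pT Q) ?_ ⟨0, map_zero _⟩ ?_ ?_ (hg k)
    · rintro _ ⟨c, rfl⟩
      exact ⟨Polynomial.X ^ (c : ℕ), by simp⟩
    · rintro _ _ _ _ ⟨V, rfl⟩ ⟨V', rfl⟩
      exact ⟨V + V', map_add _ _ _⟩
    · rintro c _ _ ⟨V, rfl⟩
      exact ⟨c • V, map_smul _ _ _⟩
  have hlet : ∀ a, ∀ o ∈ l a, ∀ i : Fin m, o = some i → (i : ℕ) < j := by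
    rintro a _ ho i rfl
    by_contra hi
    refine hF (Matrix.det_eq_zero_of_row_eq_zero a fun k => ?_)
    exact wd_eq_zero_of_mem (p := Sup ℓ j D) pS (fun Q hQ => hQ.bd_eq_zero δ (by omega)) ho (hf k)
  have hlet' : ∀ b, ∀ o ∈ l' b, o = some J := by
    intro b o ho
    by_contra hi
    refine hG (Matrix.det_eq_zero_of_row_eq_zero b fun k => ?_)
    exact wd_eq_zero_of_mem pT1 (pT2 o hi) ho (hgT k)
  set F : Matrix (Fin r) (Fin r) (MvPolynomial (Fin m) A) :=
    Matrix.of fun a k => wd (bd δ) (l a) (f k) with hFdef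
  set G : Matrix (Fin r) (Fin r) (MvPolynomial (Fin m) A) :=
    Matrix.of fun a k => wd (bd δ) (l' a) (g k) with hGdef
  have hFS : ∀ a k, Sup ℓ j D (F a k) := fun a k => wd_induction (p := Sup ℓ j D) pS _ (hf k)
  have hent : ∀ a b, (F * G.transpose) a b = wd (bd δ) (l' b) (wd (bd δ) (l a) P) := by
    intro a b
    rw [hfg, wd_sum, wd_sum, Matrix.mul_apply]
    refine Finset.sum_congr rfl fun k _ => ?_
    rw [wd_mul_const (l a) (f k) (g k) fun o ho => pT2 o (fun h => by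
        have := hlet a o ho J h
        simp [hJ] at this) _ (hgT k), mul_comm (wd _ (l a) _),
      wd_mul_const (l' b) (g k) _ fun o ho => by
        rw [hlet' b o ho]
        exact (hFS a k).bd_eq_zero δ le_rfl, mul_comm (wd _ (l' b) _)]
    rfl
  have hwl : ∀ a, ((l a).map (ow lam ℓ)).sum ≤ η * D := by
    intro a
    have h3 := List.sum_le_card_nsmul ((l a).map (ow lam ℓ)) (η * ℓ J) fun x hx => by
      obtain ⟨o, ho, rfl⟩ := List.mem_map.1 hx
      cases o with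
      | none => exact h1
      | some i => exact h2 i (hlet a _ ho i rfl)
    rw [List.length_map, nsmul_eq_mul] at h3
    have h4 : ((l a).length : ℝ) ≤ r - 1 := by
      have : (l a).length + 1 ≤ r := by
        have := hl a
        omega
      have : ((l a).length : ℝ) + 1 ≤ r := by exact_mod_cast this
      linarith
    calc _ ≤ ((r : ℝ) - 1) * (η * ℓ J) :=
          h3.trans (mul_le_mul_of_nonneg_right h4 (mul_nonneg hη (hℓ0 J)))
      _ = η * (((r : ℝ) - 1) * ℓ J) := by ring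
      _ ≤ η * D := mul_le_mul_of_nonneg_left hrD hη
  have hwl' : ∀ b, ((l' b).map (ow lam ℓ)).sum ≤ (b : ℕ) * ℓ J := by
    intro b
    have h3 := List.sum_le_card_nsmul ((l' b).map (ow lam ℓ)) (ℓ J) fun x hx => by
      obtain ⟨o, ho, rfl⟩ := List.mem_map.1 hx
      rw [hlet' b o ho]
      exact le_rfl
    rw [List.length_map, nsmul_eq_mul] at h3
    exact h3.trans (mul_le_mul_of_nonneg_right (by exact_mod_cast hl' b) (hℓ0 J))
  have hVW := Van.det (δ := bd δ) (φ := eval₂Hom (φ₀ : A →+* L) υ) hw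
    (I := fun b : Fin r => max 0 (ε / 2 * D - (b : ℕ) * ℓ J)) (M := F * G.transpose) fun a b => by
      rcases le_total (ε / 2 * D - (b : ℕ) * ℓ J) 0 with h | h
      · exact Van.of_nonpos hw (by rw [max_eq_left h]) _
      · rw [max_eq_right h, hent]
        refine ((hV.wd (l a)).wd (l' b)).mono ?_
        have := hwl a
        have := hwl' b
        have := mul_le_mul_of_nonneg_right hηε hD.le
        linarith
  have hVW' := hVW.mono (sum_index_ge (hℓ J) hD (half_pos hε) (by linarith) hrD)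
  rw [Matrix.det_mul, Matrix.det_transpose] at hVW'
  obtain ⟨V₀, hV₀⟩ : pT G.det := by
    choose M hM using fun a k => wd_induction pT1 (l' a) (hgT k)
    refine ⟨(Matrix.of M).det, ?_⟩
    rw [AlgHom.map_det]
    congr 1
    ext a k : 1
    exact hM a k
  have hφG : eval₂Hom (φ₀ : A →+* L) υ G.det ≠ 0 := by
    have h3 : V₀ ≠ 0 := fun h => hG (by rw [← hV₀, h, map_zero])
    have h4 : eval₂Hom (φ₀ : A →+* L) υ G.det = Polynomial.aeval (υ J) V₀ := by
      rw [← hV₀]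
      have := Polynomial.aeval_algHom_apply (MvPolynomial.aevalTower φ₀ υ) U V₀
      rw [hU, aevalTower_X] at this
      exact this.symm
    rw [h4]
    exact fun h => hυ J ⟨V₀, h3, h⟩
  refine ih (r * D) (by positivity) F.det hF (Sup.det hFS) fun t ht => ?_
  by_cases hJt : some J ∈ t
  · rw [wd_eq_zero_of_mem (p := Sup ℓ j (r * D)) pS (fun Q hQ => hQ.bd_eq_zero δ le_rfl) hJt
      (Sup.det hFS), map_zero]
  · have h3 := hVW' t (by linarith)
    rw [wd_mul_const t _ _ fun o ho => pT2 o (fun h => hJt (h ▸ ho)) _ ⟨V₀, hV₀⟩, map_mul] at h3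
    exact (mul_eq_zero.1 h3).resolve_right hφG

theorem roth_aux (m j : ℕ) (hj : j ≤ m) : ∀ {ε : ℝ}, 0 < ε → ε ≤ 1 → ∃ η : ℝ, 0 < η ∧
    ∀ {A L : Type} [CommRing A] [IsDomain A] [Algebra ℂ A] [CommRing L] [IsDomain L] [Algebra ℂ L]
      {δ : Derivation ℂ A A} (_ : Const fun _ : Unit => δ) (φ₀ : A →ₐ[ℂ] L)
      (_ : Function.Injective φ₀) {υ : Fin m → L} (_ : ∀ i, Transcendental ℂ (υ i)) {lam : ℝ}
      {ℓ : Fin m → ℝ}, 0 ≤ lam → (∀ i, 0 < ℓ i) → (∀ i, lam ≤ η * ℓ i) →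
      (∀ i j, i < j → ℓ i ≤ η * ℓ j) → ∀ D : ℝ, 0 < D → ∀ P : MvPolynomial (Fin m) A, P ≠ 0 →
      Sup ℓ j D P → ¬ Van (bd δ) (ow lam ℓ) (eval₂Hom (φ₀ : A →+* L) υ) (ε * D) P := by
  induction j with
  | zero =>
    intro ε hε _
    refine ⟨1, one_pos, ?_⟩
    intro A L _ _ _ _ _ _ δ _ φ₀ hφ υ _ lam ℓ _ _ _ _ D hD P hP hS hV
    have h1 : P = C (coeff 0 P) := by
      refine eq_C_of_isEmpty_aux P fun α hα => ?_
      ext i
      exact (hS α hα i).2 (Nat.zero_le _)
    have h2 := hV [] (by simpa using mul_pos hε hD)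
    change eval₂Hom _ _ P = 0 at h2
    rw [h1, eval₂Hom_C] at h2
    exact hP (by rw [h1, hφ (h2.trans (map_zero φ₀).symm), map_zero])
  | succ j ih =>
    intro ε hε hε1
    obtain ⟨η, hη, h⟩ := ih (by omega) (ε := ε ^ 2 / 32) (by positivity) (by nlinarith)
    refine ⟨min (ε / 2) η, lt_min (half_pos hε) hη, ?_⟩
    intro A L _ _ _ _ _ _ δ hc φ₀ hφ υ hυ lam ℓ hlam hℓ h1 h2
    refine roth_step hc φ₀ hυ hlam hℓ (by omega) hε hε1 (lt_min (half_pos hε) hη).le
      (min_le_left _ _) (h1 _) (fun i hi => h2 i _ hi) (h hc φ₀ hφ hυ hlam hℓ (fun i => ?_)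
        fun i k hik => ?_)
    · exact (h1 i).trans (mul_le_mul_of_nonneg_right (min_le_right _ _) (hℓ i).le)
    · exact (h2 i k hik).trans (mul_le_mul_of_nonneg_right (min_le_right _ _) (hℓ k).le)

/-- Recipe: induction on `j` for the statement with `Sup ℓ j` and hypothesis `j ≤ m`, for all
`ε ∈ (0, 1]`, with `η (j+1, ε) = min (ε/2) (η (j, ε²/32))`.  `j = 0`: `P = C a`, use the empty word. -/
theorem roth (m : ℕ) {ε : ℝ} (hε : 0 < ε) : ∃ η : ℝ, 0 < η ∧
    ∀ {A L : Type} [CommRing A] [IsDomain A] [Algebra ℂ A] [CommRing L] [IsDomain L] [Algebra ℂ L]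
      {δ : Derivation ℂ A A} (_ : Const fun _ : Unit => δ) (φ₀ : A →ₐ[ℂ] L)
      (_ : Function.Injective φ₀) {υ : Fin m → L} (_ : ∀ i, Transcendental ℂ (υ i)) {lam : ℝ}
      {ℓ : Fin m → ℝ}, 0 ≤ lam → (∀ i, 0 < ℓ i) → (∀ i, lam ≤ η * ℓ i) →
      (∀ i j, i < j → ℓ i ≤ η * ℓ j) → ∀ D : ℝ, 0 < D → ∀ P : MvPolynomial (Fin m) A, P ≠ 0 →
      (∀ α ∈ P.support, ∀ i, (α i : ℝ) * ℓ i ≤ D) →
      ¬ Van (bd δ) (ow lam ℓ) (eval₂Hom (φ₀ : A →+* L) υ) (ε * D) P := by
  obtain ⟨η, hη, h⟩ := roth_aux m m le_rfl (lt_min hε one_pos) (min_le_right ε 1)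
  refine ⟨η, hη, ?_⟩
  intro A L _ _ _ _ _ _ δ hc φ₀ hφ υ hυ lam ℓ hlam hℓ h1 h2 D hD P hP hS hV
  exact h hc φ₀ hφ hυ hlam hℓ h1 h2 D hD P hP
    (fun α hα i => ⟨hS α hα i, fun hi => absurd i.2 (by omega)⟩)
    (hV.mono (mul_le_mul_of_nonneg_right (min_le_left _ _) hD.le))

end Crest.Agent.R11
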