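import Crest.Agent.R11.Prime
import Crest.Agent.R11.Filt
import Crest.Agent.R11.Noeth

/-!
# Row 11: the zero lemma
-/

set_option autoImplicit false

open MvPolynomial

noncomputable section

namespace Crest.Agent.R11

lemma Surj_coeff_sum {σ : Type} (S : Finset (σ →₀ ℕ)) (c : (σ →₀ ℕ) → ℂ) (γ : σ →₀ ℕ) :
    coeff γ (∑ α ∈ S, monomial α (c α) : MvPolynomial σ ℂ) = by
      classical exact if γ ∈ S then c γ else 0 := by
  classical
  simp only [coeff_sum, coeff_monomial, Finset.sum_ite_eq']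

lemma Surj_prod_ow {m : ℕ} (a : ℝ) (ℓ : Fin m → ℝ) : ∏ o, ow a ℓ o = a * ∏ j, ℓ j := by
  simp [ow, Fintype.prod_option]

lemma Surj_count {m K : ℕ} {lam β v : ℝ} {ℓ : Fin m → ℝ} (hlam : 0 < lam) (hβ : 0 < β)
    (hv : 0 < v) (hℓ : ∀ j, 0 < ℓ j) (h : K * v ^ (m + 1) * β < lam) :
    ∃ D : ℝ, 0 < D ∧ K * (low (ow lam ℓ) (v * D)).card < (low (ow β ℓ) D).card := by
  have hcont : ContinuousAt (fun t : ℝ => K * (v + t) ^ (m + 1) * β) 0 := by fun_prop
  have hev : ∀ᶠ t in nhds (0 : ℝ), K * (v + t) ^ (m + 1) * β < lam :=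
    hcont.eventually (gt_mem_nhds (by simpa using h))
  obtain ⟨t, ht, ht0⟩ := ((hev.filter_mono nhdsWithin_le_nhds).and
    (self_mem_nhdsWithin (a := (0 : ℝ)) (s := Set.Ioi 0))).exists
  have ht0 : 0 < t := ht0
  set c : ℝ := ∑ o, ow lam ℓ o with hc
  have hc0 : 0 < c := Finset.sum_pos (fun o _ => ow_pos hlam hℓ o) Finset.univ_nonempty
  have hD : 0 < c / t := div_pos hc0 ht0
  refine ⟨c / t, hD, ?_⟩
  have hcard : Fintype.card (Option (Fin m)) = m + 1 := by simp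
  have h1 := card_low_le (ow_pos hlam hℓ) (mul_pos hv hD).le
  have h2 := le_card_low (ow_pos hβ hℓ) hD.le (by rw [hcard]; omega)
  rw [hcard, Surj_prod_ow] at h1 h2
  have hL : 0 < ∏ j, ℓ j := Finset.prod_pos (fun j _ => hℓ j)
  have hF : (0 : ℝ) < ((m + 1).factorial : ℝ) := by exact_mod_cast Nat.factorial_pos _
  have e : v * (c / t) + c = (v + t) * (c / t) := by field_simp
  rw [← hc, e, mul_pow] at h1
  have hP : 0 < (c / t) ^ (m + 1) := pow_pos hD _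
  have h3 : (K : ℝ) * ((v + t) ^ (m + 1) * (c / t) ^ (m + 1) /
      (((m + 1).factorial : ℝ) * (lam * ∏ j, ℓ j))) <
      (c / t) ^ (m + 1) / (((m + 1).factorial : ℝ) * (β * ∏ j, ℓ j)) := by
    rw [← mul_div_assoc, div_lt_div_iff₀ (by positivity) (by positivity)]
    have : (K * (v + t) ^ (m + 1) * β) * ((c / t) ^ (m + 1) * ((m + 1).factorial * ∏ j, ℓ j)) <
        lam * ((c / t) ^ (m + 1) * ((m + 1).factorial * ∏ j, ℓ j)) :=
      mul_lt_mul_of_pos_right ht (by positivity)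
    linarith
  have h4 : (K : ℝ) * ((low (ow lam ℓ) (v * (c / t))).card : ℝ) < (low (ow β ℓ) (c / t)).card :=
    lt_of_le_of_lt (mul_le_mul_of_nonneg_left h1 (Nat.cast_nonneg _)) (h3.trans_le h2)
  exact_mod_cast h4

/-- The auxiliary polynomial.  Recipe: the linear map from `low (ow β ℓ) D → ℂ` to
`Fin K × low (ow lam ℓ) (v D) → ℂ` has a kernel when `K · #low (v D) < #low D`
(`LinearMap.ker_ne_bot_of_finrank_lt`); `le_card_low`, `card_low_le` and `D → ∞`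
(`K (v + c/D)^(m+1) β < lam` for large `D`). -/
theorem exists_aux {m K : ℕ} {lam β v : ℝ} {ℓ : Fin m → ℝ} (hlam : 0 < lam) (hβ : 0 < β)
    (hv : 0 < v) (hℓ : ∀ j, 0 < ℓ j) (h : K * v ^ (m + 1) * β < lam) (τ : Fin m → ℕ)
    (x : Fin K → Fin m → ℂ) :
    ∃ D : ℝ, 0 < D ∧ ∃ P : Rg m, P ≠ 0 ∧ DegLE (ow β ℓ) D P ∧
      ∀ k, OrdGE (ow lam ℓ) (v * D) (loc (x k) τ P) := by
  classical
  obtain ⟨D, hD, hcard⟩ := Surj_count hlam hβ hv hℓ h
  set S := low (ow β ℓ) D with hS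
  set T := low (ow lam ℓ) (v * D) with hT
  let E : (S → ℂ) →ₗ[ℂ] Rg m := ∑ α : S, (monomial α.1).comp (LinearMap.proj α)
  have hE : ∀ c : S → ℂ, ∀ γ, coeff γ (E c) = if hγ : γ ∈ S then c ⟨γ, hγ⟩ else 0 := by
    intro c γ
    simp only [E, LinearMap.sum_apply, LinearMap.comp_apply, LinearMap.proj_apply, coeff_sum,
      coeff_monomial]
    split_ifs with hγ
    · rw [Finset.sum_eq_single ⟨γ, hγ⟩]
      · simp
      · intro b _ hb
        rw [if_neg (fun e => hb (Subtype.ext e))]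
      · simp
    · refine Finset.sum_eq_zero (fun b _ => if_neg (fun e : b.1 = γ => hγ (e ▸ b.2)))
  let Φ : (S → ℂ) →ₗ[ℂ] (Fin K × T → ℂ) :=
    LinearMap.pi fun p => (lcoeff ℂ p.2.1).comp ((loc (x p.1) τ).toLinearMap.comp E)
  have hker : LinearMap.ker Φ ≠ ⊥ := by
    refine LinearMap.ker_ne_bot_of_finrank_lt ?_
    simpa using hcard
  obtain ⟨c, hc, hc0⟩ := Submodule.exists_mem_ne_zero_of_ne_bot hker
  refine ⟨D, hD, E c, fun e => hc0 ?_, fun α hα => ?_, fun k => ?_⟩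
  · funext α
    have := hE c α.1
    rw [e, dif_pos α.2] at this
    simpa using this.symm
  · rw [mem_support_iff, hE] at hα
    by_cases hγ : α ∈ S
    · exact ((mem_low (ow_pos hβ hℓ)).1 hγ).le
    · rw [dif_neg hγ] at hα
      exact absurd rfl hα
  · rw [ordGE_iff]
    intro α hα
    have hαT : α ∈ T := (mem_low (ow_pos hlam hℓ)).2 hα
    exact congrFun (LinearMap.mem_ker.1 hc) (k, ⟨α, hαT⟩)

/-- polynomials of degree at most `N` -/
def SurjDg {m : ℕ} (β : ℝ) (ℓ : Fin m → ℝ) (N : ℝ) : AddSubgroup (Rg m) where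
  carrier := {P | DegLE (ow β ℓ) N P}
  zero_mem' := DegLE.zero
  add_mem' := fun hP hQ => DegLE.add hP hQ
  neg_mem' := fun hP => DegLE.neg hP

/-- polynomials of order at least `n` at a point -/
def SurjF {m : ℕ} {lam : ℝ} {ℓ : Fin m → ℝ} (hw : ∀ o, 0 < ow lam ℓ o) (τ : Fin m → ℕ)
    (x : Fin m → ℂ) (n : ℝ) : Ideal (Rg m) where
  carrier := {g | OrdGE (ow lam ℓ) n (loc x τ g)}
  zero_mem' := by
    show OrdGE _ _ (loc x τ 0)
    rw [map_zero]
    exact OrdGE.zero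
  add_mem' := fun {a b} hP hQ => by
    show OrdGE _ _ (loc x τ (a + b))
    rw [map_add]
    exact OrdGE.add hP hQ
  smul_mem' := fun c a ha => by
    show OrdGE _ _ (loc x τ (c * a))
    rw [map_mul]
    have := OrdGE.mul (OrdGE.of_nonpos (fun o => (hw o).le) le_rfl (loc x τ c)) ha
    rwa [zero_add] at this

lemma mem_SurjF {m : ℕ} {lam : ℝ} {ℓ : Fin m → ℝ} (hw : ∀ o, 0 < ow lam ℓ o) (τ : Fin m → ℕ)
    (x : Fin m → ℂ) (n : ℝ) (g : Rg m) :
    g ∈ SurjF hw τ x n ↔ OrdGE (ow lam ℓ) n (loc x τ g) := Iff.rfl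

lemma SurjF_sup_eq_top {m : ℕ} {lam : ℝ} {ℓ : Fin m → ℝ} (hw : ∀ o, 0 < ow lam ℓ o)
    (τ : Fin m → ℕ) (x : Fin m → ℂ) (n : ℝ) (𝔭 : Ideal (Rg m))
    (h : ¬ ∀ a ∈ 𝔭, eval (fun o : Option (Fin m) => o.elim 1 x) a = 0) :
    SurjF hw τ x n ⊔ 𝔭 = ⊤ := by
  push Not at h
  obtain ⟨a, ha, he⟩ := h
  set e := eval (fun o : Option (Fin m) => o.elim 1 x) a with hedef
  obtain ⟨o₀, ho₀⟩ := Finite.exists_min (ow lam ℓ)
  have hb : OrdGE (ow lam ℓ) (ow lam ℓ o₀) (loc x τ (1 - C e⁻¹ * a)) := by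
    refine OrdGE.of_constantCoeff (hw o₀).le ho₀ ?_
    rw [constantCoeff_loc, map_sub, map_one, map_mul, eval_C, ← hedef, inv_mul_cancel₀ he, sub_self]
  obtain ⟨i, hi⟩ := exists_nat_ge (n / ow lam ℓ o₀)
  rw [div_le_iff₀ (hw o₀)] at hi
  have h1 : (1 - C e⁻¹ * a) ^ i ∈ SurjF hw τ x n := by
    rw [mem_SurjF, map_pow]
    exact (hb.pow i).mono hi
  have h2 : 1 - (1 - C e⁻¹ * a) ^ i ∈ 𝔭 := by
    have := sub_dvd_pow_sub_pow (1 : Rg m) (1 - C e⁻¹ * a) i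
    rw [one_pow, sub_sub_cancel] at this
    exact Ideal.mem_of_dvd _ this (Ideal.mul_mem_left _ _ ha)
  rw [Ideal.eq_top_iff_one]
  have := Submodule.add_mem_sup h1 h2
  rwa [add_sub_cancel] at this

/-- Recipe: `ε = (v - θ)/2`, `η` = minimum of the values from `not_van_a`, `not_van_b`; `D, P` from
`exists_aux`; `n₀ = (v - ε) D`.  Apply `noeth_surj` with `Dg N = {DegLE (ow β ℓ) N}` and
`F k n = {g | OrdGE (ow lam ℓ) n (loc (k x) τ g)}`.  For a prime `𝔭` call `k` a point of `𝔭` if every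
element of `𝔭` vanishes at `(1, k x)`.  If `k` is not a point then `F k n ⊔ 𝔭 = ⊤` (`a ∈ 𝔭` with value `1`,
`(1 - a)^i ∈ F k n` by `OrdGE.of_constantCoeff`, `OrdGE.pow`, and `1 - (1 - a)^i ∈ 𝔭`).
No point: second alternative with `G = 0`.  `Y - 1 ∈ 𝔭` and exactly one point: `exists_jet_mod`.
`Y - 1 ∉ 𝔭` and a point: `Y` is transcendental (`exists_const_of_not_transcendental`, evaluate at the point),
`not_van_a`.  `Y - 1 ∈ 𝔭` and two points: all `X j` are transcendental (`k x j = c = k' x j`),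
`not_van_b`.  In both cases `Q = wd l P` (`DegLE.wd`, `ordGE_loc_wd`).  Finally prescribe the jets with
`loc_surjective` and `ordGE_iff`. -/
theorem surj (m : ℕ) {θ v : ℝ} (h0 : 0 < θ) (h1 : θ < v) (h2 : v ≤ 1) : ∃ η : ℝ, 0 < η ∧
    ∀ (K : ℕ) (lam β : ℝ) (ℓ : Fin m → ℝ) (τ : Fin m → ℕ) (x : Fin m → ℂ), 0 < lam → 0 < β →
      (∀ j, 0 < ℓ j) → 4 * lam ≤ (v - θ) * β → K * v ^ (m + 1) * β < lam →
      (∀ j, lam ≤ η * ℓ j) → (∀ i j, i < j → ℓ i ≤ η * ℓ j) → (∀ j, ℓ j ≤ (τ j + 1) * lam) →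
      (∀ j, x j ≠ 0) → ∃ N₀ : ℝ, ∀ N, N₀ ≤ N → Interp K lam β ℓ τ x N (θ * N) := by
  classical
  have hε : 0 < (v - θ) / 2 := by linarith
  obtain ⟨ηa, hηa, ha⟩ := not_van_a m hε
  obtain ⟨ηb, hηb, hb⟩ := not_van_b m hε
  refine ⟨min ηa ηb, lt_min hηa hηb, ?_⟩
  intro K lam β ℓ τ x hlam hβ hℓ h4 hK hη1 hη2 hτ hx
  have hw : ∀ o, 0 < ow lam ℓ o := ow_pos hlam hℓ
  have hw' : ∀ o, 0 < ow β ℓ o := ow_pos hβ hℓ
  set xk : Fin K → Fin m → ℂ := fun k j => ((k : ℕ) : ℂ) * x j with hxk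
  obtain ⟨D, hD, P, hP0, hPD, hPO⟩ := exists_aux hlam hβ (h0.trans h1) hℓ hK τ xk
  have hbox : ∀ α ∈ P.support, ∀ i, (α (some i) : ℝ) * ℓ i ≤ D := fun α hα i =>
    (le_wt (fun o => (hw' o).le) α (some i)).trans (hPD α hα)
  have hbox0 : ∀ α ∈ P.support, (α none : ℝ) * β ≤ D := fun α hα =>
    (le_wt (fun o => (hw' o).le) α none).trans (hPD α hα)
  have hmin1 : ∀ {η : ℝ}, min ηa ηb ≤ η → ∀ j, lam ≤ η * ℓ j := fun h j =>
    (hη1 j).trans (mul_le_mul_of_nonneg_right h (hℓ j).le)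
  have hmin2 : ∀ {η : ℝ}, min ηa ηb ≤ η → ∀ i j, i < j → ℓ i ≤ η * ℓ j := fun h i j hij =>
    (hη2 i j hij).trans (mul_le_mul_of_nonneg_right h (hℓ j).le)
  have hQ : ∀ 𝔭 : Ideal (Rg m),
      ¬ Van (dd m) (ow lam ℓ) (Ideal.Quotient.mk 𝔭) ((v - θ) / 2 * D) P →
      ∃ Q ∈ SurjDg β ℓ D, Q ∉ 𝔭 ∧ ∀ k, Q ∈ SurjF hw τ (xk k) ((v - (v - θ) / 2) * D) := by
    intro 𝔭 hv
    unfold Van at hv
    push Not at hv
    obtain ⟨l, hl, hne⟩ := hv
    refine ⟨wd (dd m) l P, DegLE.wd hβ.le (fun j => (hℓ j).le) hPD l,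
      fun hmem => hne (Ideal.Quotient.eq_zero_iff_mem.2 hmem), fun k => ?_⟩
    rw [mem_SurjF]
    refine (ordGE_loc_wd hlam.le (fun j => (hℓ j).le) hτ (xk k) l (hPO k)).mono ?_
    linarith
  have hmain := noeth_surj (κ := Fin K) (SurjDg β ℓ) (fun k n => SurjF hw τ (xk k) n)
    (fun a b hab P hP => DegLE.mono hP hab) (fun a b P Q hP hQ => DegLE.mul hP hQ)
    (fun P => exists_degLE _ P)
    (fun k n hn => by
      rw [Ideal.eq_top_iff_one, mem_SurjF]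
      exact OrdGE.of_nonpos (fun o => (hw o).le) hn _)
    (fun k a b P Q hP hQ => by
      rw [mem_SurjF, map_mul]
      exact OrdGE.mul hP hQ)
    (D := D) (n₀ := (v - (v - θ) / 2) * D) (mul_pos (by linarith) hD) (by nlinarith)
    (fun 𝔭 h𝔭 => by
      by_cases hpt : ∃ k₀, ∀ a ∈ 𝔭, eval (fun o : Option (Fin m) => o.elim 1 (xk k₀)) a = 0
      · obtain ⟨k₀, hk₀⟩ := hpt
        by_cases hY : (X none - 1 : Rg m) ∈ 𝔭
        · by_cases hpt2 : ∃ k₁, k₁ ≠ k₀ ∧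
              ∀ a ∈ 𝔭, eval (fun o : Option (Fin m) => o.elim 1 (xk k₁)) a = 0
          · obtain ⟨k₁, hne, hk₁⟩ := hpt2
            left
            refine hQ 𝔭 (hb hlam.le hβ (by linarith) hℓ (hmin1 (min_le_right _ _))
              (hmin2 (min_le_right _ _)) 𝔭 h𝔭 hY (fun i => ?_) D hD P hP0 hbox0 hbox)
            by_contra htr
            obtain ⟨c, hc⟩ := exists_const_of_not_transcendental 𝔭 h𝔭 htr
            have e0 := hk₀ _ hc
            have e1 := hk₁ _ hc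
            simp only [algebraMap_eq, map_sub, eval_X, eval_C, Option.elim, hxk] at e0 e1
            have : (((k₁ : ℕ) : ℂ) - ((k₀ : ℕ) : ℂ)) * x i = 0 := by linear_combination e1 - e0
            rcases mul_eq_zero.1 this with h | h
            · exact hne (Fin.ext (by exact_mod_cast sub_eq_zero.1 h))
            · exact hx i h
          · right
            intro n g
            obtain ⟨G, r, s, hG, hr, he⟩ :=
              exists_jet_mod (lam := lam) hβ.le (fun j => (hℓ j).le) (xk k₀) τ n (g k₀)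
            refine ⟨G, hG, fun k => ?_⟩
            by_cases hk : k = k₀
            · subst hk
              rw [he]
              exact Submodule.add_mem_sup hr (Ideal.mul_mem_right _ _ hY)
            · rw [SurjF_sup_eq_top hw τ (xk k) n 𝔭 (fun h => hpt2 ⟨k, hk, h⟩)]
              exact Submodule.mem_top
        · left
          refine hQ 𝔭 (ha hlam.le hℓ (hmin1 (min_le_left _ _)) (hmin2 (min_le_left _ _)) 𝔭 h𝔭
            ?_ D hD P hP0 hbox)
          by_contra htr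
          obtain ⟨c, hc⟩ := exists_const_of_not_transcendental 𝔭 h𝔭 htr
          have e0 := hk₀ _ hc
          simp only [algebraMap_eq, map_sub, eval_X, eval_C, Option.elim] at e0
          have hc1 : c = 1 := by linear_combination -e0
          rw [hc1, map_one] at hc
          exact hY hc
      · right
        intro n g
        refine ⟨0, zero_mem _, fun k => ?_⟩
        rw [SurjF_sup_eq_top hw τ (xk k) n 𝔭 (fun h => hpt ⟨k, h⟩)]
        exact Submodule.mem_top)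
    h0 (by nlinarith)
  obtain ⟨N₀, hN₀⟩ := hmain
  refine ⟨N₀, fun N hN c => ?_⟩
  choose g hg using fun k : Fin K => loc_surjective (xk k) τ
    (∑ α ∈ low (ow lam ℓ) (θ * N), monomial α (c k α))
  obtain ⟨G, hG, hGg⟩ := hN₀ N hN (θ * N) le_rfl g
  refine ⟨G, hG, fun k α hα => ?_⟩
  have h5 := (ordGE_iff.1 ((mem_SurjF hw τ (xk k) _ _).1 (hGg k))) α hα
  rw [map_sub, coeff_sub, hg, Surj_coeff_sum, if_pos ((mem_low hw).2 hα), sub_eq_zero] at h5
  exact h5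

end Crest.Agent.R11
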